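import Mathlib

/-!
# Finite product Bernoulli expectations (module M1)

`Ex q V f` : expectation of `f S` where `S ⊆ V` is random, each `i ∈ V` is ABSENT from `S` with
probability `q i`, independently.
-/

open Finset

namespace Vale.Agent.P230

set_option linter.unusedSectionVars false

variable {ι : Type*} [DecidableEq ι]

/-- Expectation of `f S` over the random subset `S ⊆ V`; `i` is absent with probability `q i`. -/
noncomputable def Ex (q : ι → ℝ) (V : Finset ι) (f : Finset ι → ℝ) : ℝ :=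
  ∑ S ∈ V.powerset, (∏ i ∈ S, (1 - q i)) * (∏ i ∈ V \ S, q i) * f S

open Classical in
/-- Probability of the event `A`. -/
noncomputable def Pr (q : ι → ℝ) (V : Finset ι) (A : Finset ι → Prop) : ℝ :=
  Ex q V (fun S => if A S then 1 else 0)

/-- All absence probabilities lie in `[0,1]`. -/
def Valid (q : ι → ℝ) : Prop := ∀ i, 0 ≤ q i ∧ q i ≤ 1

/-- Absence probabilities at intensity `u`. -/
noncomputable def qq (u : ℝ) (μ : ι → ℝ) : ι → ℝ := fun i => Real.exp (-(u * μ i))

theorem valid_qq {u : ℝ} {μ : ι → ℝ} (hu : 0 ≤ u) (hμ : ∀ i, 0 ≤ μ i) : Valid (qq u μ) := by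
  intro i
  refine ⟨(Real.exp_pos _).le, ?_⟩
  unfold qq
  rw [Real.exp_le_one_iff, neg_nonpos]
  exact mul_nonneg hu (hμ i)

/-! ### Expectations -/

theorem Ex_empty (q : ι → ℝ) (f : Finset ι → ℝ) : Ex q ∅ f = f ∅ := by
  unfold Ex
  simp

theorem Ex_insert {i : ι} {V : Finset ι} (hi : i ∉ V) (q : ι → ℝ) (f : Finset ι → ℝ) :
    Ex q (insert i V) f = (1 - q i) * Ex q V (fun S => f (insert i S)) + q i * Ex q V f := by
  unfold Ex
  rw [Finset.sum_powerset_insert hi, Finset.mul_sum, Finset.mul_sum, add_comm]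
  congr 1
  · refine Finset.sum_congr rfl fun S hS => ?_
    have hiS : i ∉ S := fun h => hi (Finset.mem_powerset.1 hS h)
    rw [Finset.prod_insert hiS, Finset.insert_sdiff_insert, Finset.sdiff_insert_of_notMem hi]
    ring
  · refine Finset.sum_congr rfl fun S hS => ?_
    have hiS : i ∉ S := fun h => hi (Finset.mem_powerset.1 hS h)
    rw [Finset.insert_sdiff_of_notMem _ hiS, Finset.prod_insert]
    · ring
    · intro h
      exact hi (Finset.mem_sdiff.1 h).1

theorem Ex_congr {q : ι → ℝ} {V : Finset ι} {f g : Finset ι → ℝ} (h : ∀ S ⊆ V, f S = g S) :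
    Ex q V f = Ex q V g := by
  unfold Ex
  refine Finset.sum_congr rfl fun S hS => ?_
  rw [h S (Finset.mem_powerset.1 hS)]

theorem Ex_const (q : ι → ℝ) (V : Finset ι) (c : ℝ) : Ex q V (fun _ => c) = c := by
  induction V using Finset.induction_on with
  | empty => rw [Ex_empty]
  | insert i V hi ih => rw [Ex_insert hi, ih]; ring

theorem Ex_add (q : ι → ℝ) (V : Finset ι) (f g : Finset ι → ℝ) :
    Ex q V (fun S => f S + g S) = Ex q V f + Ex q V g := by
  unfold Ex
  rw [← Finset.sum_add_distrib]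
  refine Finset.sum_congr rfl fun S _ => by ring

theorem Ex_const_mul (q : ι → ℝ) (V : Finset ι) (c : ℝ) (f : Finset ι → ℝ) :
    Ex q V (fun S => c * f S) = c * Ex q V f := by
  unfold Ex
  rw [Finset.mul_sum]
  refine Finset.sum_congr rfl fun S _ => by ring

theorem Ex_mul_const (q : ι → ℝ) (V : Finset ι) (c : ℝ) (f : Finset ι → ℝ) :
    Ex q V (fun S => f S * c) = Ex q V f * c := by
  unfold Ex
  rw [Finset.sum_mul]
  refine Finset.sum_congr rfl fun S _ => by ring

theorem Ex_sum {κ : Type*} (q : ι → ℝ) (V : Finset ι) (s : Finset κ) (f : κ → Finset ι → ℝ) :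
    Ex q V (fun S => ∑ k ∈ s, f k S) = ∑ k ∈ s, Ex q V (f k) := by
  unfold Ex
  rw [Finset.sum_comm]
  refine Finset.sum_congr rfl fun S _ => ?_
  rw [Finset.mul_sum]

theorem Ex_weight_nonneg {q : ι → ℝ} (hq : Valid q) (V S : Finset ι) :
    0 ≤ (∏ i ∈ S, (1 - q i)) * (∏ i ∈ V \ S, q i) :=
  mul_nonneg (Finset.prod_nonneg fun i _ => sub_nonneg.2 (hq i).2)
    (Finset.prod_nonneg fun i _ => (hq i).1)

theorem Ex_mono {q : ι → ℝ} (hq : Valid q) {V : Finset ι} {f g : Finset ι → ℝ}
    (h : ∀ S ⊆ V, f S ≤ g S) : Ex q V f ≤ Ex q V g := by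
  unfold Ex
  refine Finset.sum_le_sum fun S hS => ?_
  exact mul_le_mul_of_nonneg_left (h S (Finset.mem_powerset.1 hS)) (Ex_weight_nonneg hq V S)

theorem Ex_nonneg {q : ι → ℝ} (hq : Valid q) {V : Finset ι} {f : Finset ι → ℝ}
    (h : ∀ S ⊆ V, 0 ≤ f S) : 0 ≤ Ex q V f := by
  unfold Ex
  exact Finset.sum_nonneg fun S hS =>
    mul_nonneg (Ex_weight_nonneg hq V S) (h S (Finset.mem_powerset.1 hS))

/-- Fubini: split the ground set. -/
theorem Ex_union (q : ι → ℝ) {V W : Finset ι} (h : Disjoint V W) (f : Finset ι → ℝ) :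
    Ex q (V ∪ W) f = Ex q V (fun A => Ex q W (fun B => f (A ∪ B))) := by
  induction V using Finset.induction_on generalizing f with
  | empty =>
    rw [Finset.empty_union, Ex_empty]
    refine Ex_congr fun S _ => ?_
    rw [Finset.empty_union]
  | insert i V hi ih =>
    have hd : Disjoint V W := Finset.disjoint_of_subset_left (Finset.subset_insert i V) h
    have hiW : i ∉ W := Finset.disjoint_left.1 h (Finset.mem_insert_self i V)
    have hi2 : i ∉ V ∪ W := by
      rw [Finset.mem_union]; tauto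
    rw [Finset.insert_union, Ex_insert hi2, Ex_insert hi, ih hd, ih hd]
    congr 2
    refine Ex_congr fun A _ => Ex_congr fun B _ => ?_
    rw [Finset.insert_union]

/-- A function depending only on `S ∩ W` can be averaged over `W`. -/
theorem Ex_dep (q : ι → ℝ) {V W : Finset ι} (hWV : W ⊆ V) {f : Finset ι → ℝ}
    (hf : ∀ S, f S = f (S ∩ W)) : Ex q V f = Ex q W f := by
  have hV : W ∪ V \ W = V := Finset.union_sdiff_of_subset hWV
  have hd : Disjoint W (V \ W) := Finset.disjoint_sdiff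
  conv_lhs => rw [← hV]
  rw [Ex_union q hd]
  refine Ex_congr fun A hA => ?_
  have : ∀ B ⊆ V \ W, f (A ∪ B) = f A := by
    intro B hB
    rw [hf (A ∪ B)]
    congr 1
    ext i
    rw [Finset.mem_inter, Finset.mem_union]
    constructor
    · rintro ⟨h1 | h1, h2⟩
      · exact h1
      · exact absurd h2 (Finset.mem_sdiff.1 (hB h1)).2
    · intro h1
      exact ⟨Or.inl h1, hA h1⟩
  rw [Ex_congr this, Ex_const]

/-- Independence of functions of `S ∩ W` and of `S \ W`. -/
theorem Ex_mul_indep (q : ι → ℝ) {V W : Finset ι} {f g : Finset ι → ℝ}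
    (hf : ∀ S, f S = f (S ∩ W)) (hg : ∀ S, g S = g (S \ W)) :
    Ex q V (fun S => f S * g S) = Ex q V f * Ex q V g := by
  have hV : (V ∩ W) ∪ V \ W = V := by
    ext i
    simp only [Finset.mem_union, Finset.mem_inter, Finset.mem_sdiff]
    tauto
  have hd : Disjoint (V ∩ W) (V \ W) := by
    rw [Finset.disjoint_left]
    intro i h1 h2
    exact (Finset.mem_sdiff.1 h2).2 (Finset.mem_inter.1 h1).2
  have e1 : ∀ A ⊆ V ∩ W, ∀ B ⊆ V \ W, f (A ∪ B) = f A := by
    intro A hA B hB
    rw [hf (A ∪ B), hf A]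
    congr 1
    ext i
    simp only [Finset.mem_inter, Finset.mem_union]
    constructor
    · rintro ⟨h1 | h1, h2⟩
      · exact ⟨h1, h2⟩
      · exact absurd h2 (Finset.mem_sdiff.1 (hB h1)).2
    · rintro ⟨h1, h2⟩
      exact ⟨Or.inl h1, h2⟩
  have e2 : ∀ A ⊆ V ∩ W, ∀ B ⊆ V \ W, g (A ∪ B) = g B := by
    intro A hA B hB
    rw [hg (A ∪ B), hg B]
    congr 1
    ext i
    simp only [Finset.mem_sdiff, Finset.mem_union]
    constructor
    · rintro ⟨h1 | h1, h2⟩
      · exact absurd (Finset.mem_inter.1 (hA h1)).2 h2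
      · exact ⟨h1, h2⟩
    · rintro ⟨h1, h2⟩
      exact ⟨Or.inr h1, h2⟩
  have h1 : Ex q V (fun S => f S * g S) = Ex q (V ∩ W) f * Ex q (V \ W) g := by
    conv_lhs => rw [← hV]
    rw [Ex_union q hd, ← Ex_mul_const]
    refine Ex_congr fun A hA => ?_
    rw [← Ex_const_mul]
    refine Ex_congr fun B hB => ?_
    rw [e1 A hA B hB, e2 A hA B hB]
  have h2 : Ex q V f = Ex q (V ∩ W) f := by
    conv_lhs => rw [← hV]
    rw [Ex_union q hd]
    refine Ex_congr fun A hA => ?_
    rw [Ex_congr (e1 A hA), Ex_const]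
  have h3 : Ex q V g = Ex q (V \ W) g := by
    conv_lhs => rw [← hV]
    rw [Ex_union q hd, ← Ex_const q (V ∩ W) (Ex q (V \ W) g)]
    refine Ex_congr fun A hA => ?_
    rw [Ex_congr (e2 A hA)]
  rw [h1, h2, h3]

/-- Superposition: the union of two independent random sets. -/
theorem Ex_superpose (q r : ι → ℝ) (V : Finset ι) (f : Finset ι → ℝ) :
    Ex (fun i => q i * r i) V f = Ex q V (fun A => Ex r V (fun B => f (A ∪ B))) := by
  induction V using Finset.induction_on generalizing f with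
  | empty => simp only [Ex_empty, Finset.empty_union]
  | insert i V hi ih =>
    rw [Ex_insert hi, Ex_insert hi, ih, ih]
    simp only [Ex_insert hi, Finset.insert_union, Finset.union_insert, Finset.insert_idem]
    simp only [Ex_add, Ex_const_mul]
    ring

/-- Harris inequality. -/
theorem Ex_harris {q : ι → ℝ} (hq : Valid q) {V : Finset ι} {f g : Finset ι → ℝ}
    (hf : Monotone f) (hg : Monotone g) :
    Ex q V f * Ex q V g ≤ Ex q V (fun S => f S * g S) := by
  induction V using Finset.induction_on generalizing f g with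
  | empty => simp only [Ex_empty]; exact le_rfl
  | insert i V hi ih =>
    have hf1 : Monotone (fun S => f (insert i S)) := fun S T h => hf (Finset.insert_subset_insert i h)
    have hg1 : Monotone (fun S => g (insert i S)) := fun S T h => hg (Finset.insert_subset_insert i h)
    have h1 := ih hf1 hg1
    have h0 := ih hf hg
    have hfi : Ex q V f ≤ Ex q V (fun S => f (insert i S)) :=
      Ex_mono hq fun S _ => hf (Finset.subset_insert i S)
    have hgi : Ex q V g ≤ Ex q V (fun S => g (insert i S)) :=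
      Ex_mono hq fun S _ => hg (Finset.subset_insert i S)
    rw [Ex_insert hi, Ex_insert hi, Ex_insert hi]
    obtain ⟨q0, q1⟩ := hq i
    have h2 := mul_le_mul_of_nonneg_left h1 (sub_nonneg.2 q1)
    have h3 := mul_le_mul_of_nonneg_left h0 q0
    have h4 : 0 ≤ q i * (1 - q i) * ((Ex q V (fun S => f (insert i S)) - Ex q V f) *
        (Ex q V (fun S => g (insert i S)) - Ex q V g)) :=
      mul_nonneg (mul_nonneg q0 (sub_nonneg.2 q1)) (mul_nonneg (sub_nonneg.2 hfi) (sub_nonneg.2 hgi))
    nlinarith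

/-- Increasing functions have larger expectation when elements are more often present. -/
theorem Ex_mono_q {q q' : ι → ℝ} (hq : Valid q) (hq' : Valid q') (h : ∀ i, q' i ≤ q i)
    {V : Finset ι} {f : Finset ι → ℝ} (hf : Monotone f) : Ex q V f ≤ Ex q' V f := by
  induction V using Finset.induction_on generalizing f with
  | empty => simp only [Ex_empty]; exact le_rfl
  | insert i V hi ih =>
    have hf1 : Monotone (fun S => f (insert i S)) := fun S T h => hf (Finset.insert_subset_insert i h)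
    have h1 := ih hf1
    have h0 := ih hf
    have hfi : Ex q' V f ≤ Ex q' V (fun S => f (insert i S)) :=
      Ex_mono hq' fun S _ => hf (Finset.subset_insert i S)
    rw [Ex_insert hi, Ex_insert hi]
    obtain ⟨q0, q1⟩ := hq i
    have h2 := mul_le_mul_of_nonneg_left h1 (sub_nonneg.2 q1)
    have h3 := mul_le_mul_of_nonneg_left h0 q0
    have h4 := mul_nonneg (sub_nonneg.2 (h i)) (sub_nonneg.2 hfi)
    nlinarith

/-- Change of intensity: `q` absent-probabilities versus boosted `r ≤ q` with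
`(1 - r i) ≤ R (1 - q i)`. -/
theorem Ex_change {q r : ι → ℝ} (hq : Valid q) (hr : Valid r) {R : ℝ} (hR : 1 ≤ R)
    (h1 : ∀ i, r i ≤ q i) (h2 : ∀ i, 1 - r i ≤ R * (1 - q i))
    {V : Finset ι} {f : Finset ι → ℝ} (hf : ∀ S, 0 ≤ f S) :
    Ex r V (fun S => (R⁻¹) ^ S.card * f S) ≤ Ex q V f := by
  unfold Ex
  refine Finset.sum_le_sum fun S _ => ?_
  have hR0 : 0 < R := lt_of_lt_of_le one_pos hR
  have e1 : (∏ i ∈ S, (1 - r i)) * (R⁻¹) ^ S.card ≤ ∏ i ∈ S, (1 - q i) := by
    rw [← Finset.prod_const, ← Finset.prod_mul_distrib]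
    refine Finset.prod_le_prod (fun i _ => mul_nonneg (sub_nonneg.2 (hr i).2)
      (inv_nonneg.2 hR0.le)) fun i _ => ?_
    rw [← div_eq_mul_inv, div_le_iff₀ hR0, mul_comm]
    exact h2 i
  have e2 : ∏ i ∈ V \ S, r i ≤ ∏ i ∈ V \ S, q i :=
    Finset.prod_le_prod (fun i _ => (hr i).1) fun i _ => h1 i
  have e3 : 0 ≤ ∏ i ∈ V \ S, r i := Finset.prod_nonneg fun i _ => (hr i).1
  have e4 : 0 ≤ ∏ i ∈ S, (1 - q i) := Finset.prod_nonneg fun i _ => sub_nonneg.2 (hq i).2
  calc (∏ i ∈ S, (1 - r i)) * (∏ i ∈ V \ S, r i) * ((R⁻¹) ^ S.card * f S)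
      = (((∏ i ∈ S, (1 - r i)) * (R⁻¹) ^ S.card) * (∏ i ∈ V \ S, r i)) * f S := by ring
    _ ≤ ((∏ i ∈ S, (1 - q i)) * (∏ i ∈ V \ S, q i)) * f S :=
        mul_le_mul_of_nonneg_right (mul_le_mul e1 e2 e3 e4) (hf S)

/-- Expected size. -/
theorem Ex_card (q : ι → ℝ) (V W : Finset ι) :
    Ex q V (fun S => ((S ∩ W).card : ℝ)) = ∑ i ∈ V ∩ W, (1 - q i) := by
  induction V using Finset.induction_on with
  | empty => simp [Ex_empty]
  | insert i V hi ih =>
    rw [Ex_insert hi, ih]
    by_cases hW : i ∈ W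
    · have e1 : Ex q V (fun S => ((insert i S ∩ W).card : ℝ)) =
          Ex q V (fun S => ((S ∩ W).card : ℝ)) + 1 := by
        rw [← Ex_const q V 1, ← Ex_add]
        refine Ex_congr fun S hS => ?_
        rw [Finset.insert_inter_of_mem hW, Finset.card_insert_of_notMem]
        · push_cast; rfl
        · intro h
          exact hi (hS (Finset.mem_inter.1 h).1)
      rw [e1, ih, Finset.insert_inter_of_mem hW, Finset.sum_insert]
      · ring
      · intro h
        exact hi (Finset.mem_inter.1 h).1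
    · have e1 : Ex q V (fun S => ((insert i S ∩ W).card : ℝ)) =
          Ex q V (fun S => ((S ∩ W).card : ℝ)) := by
        refine Ex_congr fun S _ => ?_
        rw [Finset.insert_inter_of_notMem hW]
      rw [e1, ih, Finset.insert_inter_of_notMem hW]
      ring

/-- Generating function of the size. -/
theorem Ex_pow_card (q : ι → ℝ) (V : Finset ι) (t : ℝ) :
    Ex q V (fun S => t ^ S.card) = ∏ i ∈ V, (q i + (1 - q i) * t) := by
  induction V using Finset.induction_on with
  | empty => simp [Ex_empty]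
  | insert i V hi ih =>
    rw [Ex_insert hi, Finset.prod_insert hi, ← ih]
    have e1 : Ex q V (fun S => t ^ (insert i S).card) = Ex q V (fun S => t * t ^ S.card) := by
      refine Ex_congr fun S hS => ?_
      rw [Finset.card_insert_of_notMem (fun h => hi (hS h)), pow_succ]
      ring
    rw [e1, Ex_const_mul]
    ring

/-! ### Probabilities -/

open Classical in
/-- Indicator of an event. -/
noncomputable def indc (A : Finset ι → Prop) (S : Finset ι) : ℝ := if A S then 1 else 0

theorem Pr_eq (q : ι → ℝ) (V : Finset ι) (A : Finset ι → Prop) : Pr q V A = Ex q V (indc A) := rfl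

theorem indc_pos {A : Finset ι → Prop} {S : Finset ι} (h : A S) : indc A S = 1 := if_pos h

theorem indc_neg {A : Finset ι → Prop} {S : Finset ι} (h : ¬ A S) : indc A S = 0 := if_neg h

theorem indc_nonneg (A : Finset ι → Prop) (S : Finset ι) : 0 ≤ indc A S := by
  unfold indc; split_ifs <;> norm_num

theorem indc_le_one (A : Finset ι → Prop) (S : Finset ι) : indc A S ≤ 1 := by
  unfold indc; split_ifs <;> norm_num

theorem indc_monotone {A : Finset ι → Prop} (hA : Monotone A) : Monotone (indc A) := by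
  intro S T h
  by_cases h1 : A S
  · rw [indc_pos h1, indc_pos (hA h h1)]
  · rw [indc_neg h1]
    exact indc_nonneg A T

theorem indc_and (A B : Finset ι → Prop) (S : Finset ι) :
    indc (fun S => A S ∧ B S) S = indc A S * indc B S := by
  by_cases h1 : A S
  · by_cases h2 : B S
    · rw [indc_pos h1, indc_pos h2, indc_pos (A := fun S => A S ∧ B S) ⟨h1, h2⟩, mul_one]
    · rw [indc_neg h2, indc_neg (A := fun S => A S ∧ B S) (fun h => h2 h.2), mul_zero]
  · rw [indc_neg h1, indc_neg (A := fun S => A S ∧ B S) (fun h => h1 h.1), zero_mul]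

theorem indc_not (A : Finset ι → Prop) (S : Finset ι) :
    indc (fun S => ¬ A S) S = 1 - indc A S := by
  by_cases h1 : A S
  · rw [indc_pos h1, indc_neg (A := fun S => ¬ A S) (fun h => h h1), sub_self]
  · rw [indc_neg h1, indc_pos (A := fun S => ¬ A S) h1, sub_zero]

theorem Pr_nonneg {q : ι → ℝ} (hq : Valid q) (V : Finset ι) (A : Finset ι → Prop) :
    0 ≤ Pr q V A := by
  exact Ex_nonneg hq fun S _ => indc_nonneg A S

theorem Pr_le_one {q : ι → ℝ} (hq : Valid q) (V : Finset ι) (A : Finset ι → Prop) :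
    Pr q V A ≤ 1 := by
  rw [Pr_eq, ← Ex_const q V 1]
  exact Ex_mono hq fun S _ => indc_le_one A S

theorem Pr_mono {q : ι → ℝ} (hq : Valid q) {V : Finset ι} {A B : Finset ι → Prop}
    (h : ∀ S ⊆ V, A S → B S) : Pr q V A ≤ Pr q V B := by
  refine Ex_mono hq fun S hS => ?_
  show indc A S ≤ indc B S
  by_cases h1 : A S
  · rw [indc_pos h1, indc_pos (h S hS h1)]
  · rw [indc_neg h1]
    exact indc_nonneg B S

theorem Pr_congr {q : ι → ℝ} {V : Finset ι} {A B : Finset ι → Prop}
    (h : ∀ S ⊆ V, (A S ↔ B S)) : Pr q V A = Pr q V B := by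
  refine Ex_congr fun S hS => ?_
  show indc A S = indc B S
  by_cases h1 : A S
  · rw [indc_pos h1, indc_pos ((h S hS).1 h1)]
  · rw [indc_neg h1, indc_neg (fun h2 => h1 ((h S hS).2 h2))]

theorem Pr_true (q : ι → ℝ) (V : Finset ι) : Pr q V (fun _ => True) = 1 := by
  rw [Pr_eq, ← Ex_const q V 1]
  exact Ex_congr fun S _ => indc_pos trivial

theorem Pr_false (q : ι → ℝ) (V : Finset ι) : Pr q V (fun _ => False) = 0 := by
  rw [Pr_eq, ← Ex_const q V 0]
  exact Ex_congr fun S _ => indc_neg id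

theorem Pr_not (q : ι → ℝ) (V : Finset ι) (A : Finset ι → Prop) :
    Pr q V (fun S => ¬ A S) = 1 - Pr q V A := by
  have h := Ex_add q V (indc (fun S => ¬ A S)) (indc A)
  have h2 : Ex q V (fun S => indc (fun S => ¬ A S) S + indc A S) = 1 := by
    rw [← Ex_const q V 1]
    refine Ex_congr fun S _ => ?_
    rw [indc_not]
    ring
  rw [h2] at h
  rw [Pr_eq, Pr_eq]
  linarith

theorem Pr_and_not (q : ι → ℝ) (V : Finset ι) (A B : Finset ι → Prop) :
    Pr q V (fun S => A S ∧ ¬ B S) = Pr q V A - Pr q V (fun S => A S ∧ B S) := by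
  have h := Ex_add q V (indc (fun S => A S ∧ ¬ B S)) (indc (fun S => A S ∧ B S))
  have h2 : Ex q V (fun S => indc (fun S => A S ∧ ¬ B S) S + indc (fun S => A S ∧ B S) S) =
      Ex q V (indc A) := by
    refine Ex_congr fun S _ => ?_
    rw [indc_and A (fun S => ¬ B S), indc_and, indc_not]
    ring
  rw [h2] at h
  rw [Pr_eq, Pr_eq, Pr_eq]
  linarith

theorem Pr_or_le {q : ι → ℝ} (hq : Valid q) (V : Finset ι) (A B : Finset ι → Prop) :
    Pr q V (fun S => A S ∨ B S) ≤ Pr q V A + Pr q V B := by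
  rw [Pr_eq, Pr_eq, Pr_eq, ← Ex_add]
  refine Ex_mono hq fun S _ => ?_
  by_cases h1 : A S
  · rw [indc_pos h1, indc_pos (A := fun S => A S ∨ B S) (Or.inl h1)]
    have := indc_nonneg B S
    linarith
  · by_cases h2 : B S
    · rw [indc_pos h2, indc_pos (A := fun S => A S ∨ B S) (Or.inr h2)]
      have := indc_nonneg A S
      linarith
    · rw [indc_neg h1, indc_neg h2, indc_neg (A := fun S => A S ∨ B S) (by tauto), add_zero]

theorem Pr_exists_le {κ : Type*} {q : ι → ℝ} (hq : Valid q) (V : Finset ι) (s : Finset κ)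
    (A : κ → Finset ι → Prop) :
    Pr q V (fun S => ∃ k ∈ s, A k S) ≤ ∑ k ∈ s, Pr q V (A k) := by
  classical
  rw [Pr_eq]
  have e1 : ∑ k ∈ s, Pr q V (A k) = Ex q V (fun S => ∑ k ∈ s, indc (A k) S) := by
    rw [Ex_sum]
    rfl
  rw [e1]
  refine Ex_mono hq fun S _ => ?_
  by_cases h : ∃ k ∈ s, A k S
  · rw [indc_pos (A := fun S => ∃ k ∈ s, A k S) h]
    obtain ⟨k, hk, hA⟩ := h
    calc (1 : ℝ) = indc (A k) S := (indc_pos hA).symm
      _ ≤ ∑ k ∈ s, indc (A k) S :=
          Finset.single_le_sum (f := fun k => indc (A k) S) (fun k _ => indc_nonneg _ _) hk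
  · rw [indc_neg (A := fun S => ∃ k ∈ s, A k S) h]
    exact Finset.sum_nonneg fun k _ => indc_nonneg _ _

/-- If the event has positive probability it contains some subset of `V`. -/
theorem Pr_exists_of_pos {q : ι → ℝ} {V : Finset ι} {A : Finset ι → Prop} (h : 0 < Pr q V A) :
    ∃ S ⊆ V, A S := by
  by_contra hcon
  push Not at hcon
  have h2 : Pr q V A = 0 := by
    rw [Pr_eq, ← Ex_const q V 0]
    exact Ex_congr fun S hS => indc_neg (hcon S hS)
  exact h.ne' h2

theorem Pr_harris {q : ι → ℝ} (hq : Valid q) {V : Finset ι} {A B : Finset ι → Prop}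
    (hA : Monotone A) (hB : Monotone B) :
    Pr q V A * Pr q V B ≤ Pr q V (fun S => A S ∧ B S) := by
  have h := Ex_harris hq (V := V) (indc_monotone hA) (indc_monotone hB)
  rw [Pr_eq, Pr_eq, Pr_eq]
  refine h.trans (le_of_eq ?_)
  refine Ex_congr fun S _ => ?_
  rw [indc_and]

theorem Pr_harris_anti {q : ι → ℝ} (hq : Valid q) {V : Finset ι} {A B : Finset ι → Prop}
    (hA : Monotone A) (hB : Antitone B) :
    Pr q V (fun S => A S ∧ B S) ≤ Pr q V A * Pr q V B := by
  have hB' : Monotone (fun S => ¬ B S) := fun S T h h1 h2 => h1 (hB h h2)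
  have h1 := Pr_harris hq (V := V) hA hB'
  have h2 := Pr_and_not q V A B
  have h3 := Pr_not q V B
  rw [h3] at h1
  have h4 : Pr q V (fun S => A S ∧ ¬ B S) = Pr q V A - Pr q V (fun S => A S ∧ B S) := h2
  rw [h4] at h1
  linarith

/-- Harris for finitely many increasing events. -/
theorem Pr_harris_forall {κ : Type*} {q : ι → ℝ} (hq : Valid q) {V : Finset ι} (s : Finset κ)
    {A : κ → Finset ι → Prop} (hA : ∀ k ∈ s, Monotone (A k)) :
    ∏ k ∈ s, Pr q V (A k) ≤ Pr q V (fun S => ∀ k ∈ s, A k S) := by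
  classical
  induction s using Finset.induction_on with
  | empty =>
    rw [Finset.prod_empty]
    refine le_of_eq ?_
    rw [← Pr_true q V]
    exact Pr_congr fun S _ => by simp
  | insert k s hk ih =>
    have h1 : Monotone (A k) := hA k (Finset.mem_insert_self k s)
    have h2 : ∀ j ∈ s, Monotone (A j) := fun j hj => hA j (Finset.mem_insert_of_mem hj)
    have h3 : Monotone (fun S => ∀ j ∈ s, A j S) := fun S T h h4 j hj => h2 j hj h (h4 j hj)
    rw [Finset.prod_insert hk]
    calc Pr q V (A k) * ∏ j ∈ s, Pr q V (A j)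
        ≤ Pr q V (A k) * Pr q V (fun S => ∀ j ∈ s, A j S) :=
          mul_le_mul_of_nonneg_left (ih h2) (Pr_nonneg hq V _)
      _ ≤ Pr q V (fun S => A k S ∧ ∀ j ∈ s, A j S) := Pr_harris hq h1 h3
      _ = Pr q V (fun S => ∀ j ∈ insert k s, A j S) := by
          refine Pr_congr fun S _ => ?_
          rw [Finset.forall_mem_insert]

theorem Pr_indep (q : ι → ℝ) {V W : Finset ι} {A B : Finset ι → Prop}
    (hA : ∀ S, A S ↔ A (S ∩ W)) (hB : ∀ S, B S ↔ B (S \ W)) :
    Pr q V (fun S => A S ∧ B S) = Pr q V A * Pr q V B := by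
  have h := Ex_mul_indep q (V := V) (W := W) (f := indc A) (g := indc B)
    (fun S => by
      by_cases h1 : A S
      · rw [indc_pos h1, indc_pos ((hA S).1 h1)]
      · rw [indc_neg h1, indc_neg (fun h2 => h1 ((hA S).2 h2))])
    (fun S => by
      by_cases h1 : B S
      · rw [indc_pos h1, indc_pos ((hB S).1 h1)]
      · rw [indc_neg h1, indc_neg (fun h2 => h1 ((hB S).2 h2))])
  rw [Pr_eq, Pr_eq, Pr_eq, ← h]
  refine Ex_congr fun S _ => ?_
  rw [indc_and]

/-- Probability to miss `W`. -/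
theorem Pr_disjoint (q : ι → ℝ) {V W : Finset ι} (hWV : W ⊆ V) :
    Pr q V (fun S => Disjoint S W) = ∏ i ∈ W, q i := by
  rw [Pr_eq, Ex_dep q hWV (f := indc (fun S => Disjoint S W))]
  · unfold Ex
    rw [Finset.sum_eq_single_of_mem ∅ (Finset.empty_mem_powerset W)]
    · rw [Finset.prod_empty, one_mul, Finset.sdiff_empty,
        indc_pos (A := fun S => Disjoint S W) (Finset.disjoint_empty_left W), mul_one]
    · intro S hS hne
      rw [indc_neg (A := fun S => Disjoint S W), mul_zero]
      intro hd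
      apply hne
      have := Finset.mem_powerset.1 hS
      exact Finset.subset_empty.1 (by
        intro i hi
        exact absurd (this hi) (Finset.disjoint_left.1 hd hi))
  · intro S
    have h : Disjoint S W ↔ Disjoint (S ∩ W) W := by
      rw [Finset.disjoint_left, Finset.disjoint_left]
      constructor
      · intro h i hi
        exact h (Finset.mem_inter.1 hi).1
      · intro h i hi hiW
        exact h (Finset.mem_inter.2 ⟨hi, hiW⟩) hiW
    by_cases h1 : Disjoint S W
    · rw [indc_pos (A := fun S => Disjoint S W) h1,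
        indc_pos (A := fun S => Disjoint S W) (h.1 h1)]
    · rw [indc_neg (A := fun S => Disjoint S W) h1,
        indc_neg (A := fun S => Disjoint S W) (fun h2 => h1 (h.2 h2))]

/-- Probability to hit `W`. -/
theorem Pr_hit (q : ι → ℝ) {V W : Finset ι} (hWV : W ⊆ V) :
    Pr q V (fun S => (S ∩ W).Nonempty) = 1 - ∏ i ∈ W, q i := by
  rw [← Pr_disjoint q hWV, ← Pr_not]
  refine Pr_congr fun S _ => ?_
  rw [Finset.disjoint_iff_inter_eq_empty, Finset.nonempty_iff_ne_empty]

theorem Pr_hit_qq [Fintype ι] (u : ℝ) (μ : ι → ℝ) (W : Finset ι) :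
    Pr (qq u μ) univ (fun S => (S ∩ W).Nonempty) = 1 - Real.exp (-(u * ∑ i ∈ W, μ i)) := by
  rw [Pr_hit _ (Finset.subset_univ W)]
  unfold qq
  rw [← Real.exp_sum, Finset.sum_neg_distrib, ← Finset.mul_sum]

theorem Pr_mono_q {q q' : ι → ℝ} (hq : Valid q) (hq' : Valid q') (h : ∀ i, q' i ≤ q i)
    {V : Finset ι} {A : Finset ι → Prop} (hA : Monotone A) : Pr q V A ≤ Pr q' V A := by
  exact Ex_mono_q hq hq' h (indc_monotone hA)

theorem Pr_anti_q {q q' : ι → ℝ} (hq : Valid q) (hq' : Valid q') (h : ∀ i, q' i ≤ q i)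
    {V : Finset ι} {A : Finset ι → Prop} (hA : Antitone A) : Pr q' V A ≤ Pr q V A := by
  have hA' : Monotone (fun S => ¬ A S) := fun S T h h1 h2 => h1 (hA h h2)
  have h1 := Pr_mono_q hq hq' h (V := V) hA'
  have h2 := Pr_not q V A
  have h3 := Pr_not q' V A
  linarith

/-- Superposition for events at intensities `u + v`. -/
theorem Pr_superpose_qq (u v : ℝ) (μ : ι → ℝ) (V : Finset ι) (A : Finset ι → Prop) :
    Pr (qq (u + v) μ) V A = Ex (qq u μ) V (fun S => Pr (qq v μ) V (fun T => A (S ∪ T))) := by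
  have e1 : qq (u + v) μ = fun i => qq u μ i * qq v μ i := by
    funext i
    unfold qq
    rw [← Real.exp_add]
    congr 1
    ring
  rw [e1, Pr_eq, Ex_superpose]
  rfl

/-- Markov. -/
theorem Pr_card_gt_le {q : ι → ℝ} (hq : Valid q) (V W : Finset ι) {s : ℝ} (hs : 0 < s) :
    Pr q V (fun S => s < ((S ∩ W).card : ℝ)) ≤ (∑ i ∈ V ∩ W, (1 - q i)) / s := by
  rw [le_div_iff₀ hs, ← Ex_card, Pr_eq, ← Ex_mul_const]
  refine Ex_mono hq fun S _ => ?_
  by_cases h : s < ((S ∩ W).card : ℝ)
  · rw [indc_pos (A := fun S => s < ((S ∩ W).card : ℝ)) h, one_mul]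
    exact h.le
  · rw [indc_neg (A := fun S => s < ((S ∩ W).card : ℝ)) h, zero_mul]
    exact Nat.cast_nonneg _

end Vale.Agent.P230
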