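import Mathlib

/-!
# One-dimensional Gaussian tails (module M5, part 1)
-/

open MeasureTheory ProbabilityTheory Set

namespace Vale.Agent.P230

/-- The standard Gaussian tail `P(N > s)`. -/
noncomputable def Phibar (s : ℝ) : ℝ := ∫ t in Ioi s, gaussianPDFReal 0 1 t

theorem gaussianReal_Ioi (s : ℝ) : gaussianReal 0 1 (Ioi s) = ENNReal.ofReal (Phibar s) := by
  rw [gaussianReal_apply_eq_integral 0 one_ne_zero]; rfl

theorem Phibar_eq_real (s : ℝ) : Phibar s = (gaussianReal 0 1).real (Ioi s) := by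
  rw [measureReal_def, gaussianReal_Ioi, ENNReal.toReal_ofReal]
  exact integral_nonneg fun _ => gaussianPDFReal_nonneg _ _ _

theorem gaussianReal_Ici (s : ℝ) : gaussianReal 0 1 (Ici s) = ENNReal.ofReal (Phibar s) := by
  rw [gaussianReal_apply_eq_integral 0 one_ne_zero, integral_Ici_eq_integral_Ioi]; rfl

theorem Phibar_nonneg (s : ℝ) : 0 ≤ Phibar s :=
  integral_nonneg fun _ => gaussianPDFReal_nonneg _ _ _

theorem Phibar_pos (s : ℝ) : 0 < Phibar s := by
  unfold Phibar
  rw [setIntegral_pos_iff_support_of_nonneg_ae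
    (Filter.Eventually.of_forall fun _ => gaussianPDFReal_nonneg _ _ _)
    (integrable_gaussianPDFReal 0 1).integrableOn]
  have : Function.support (gaussianPDFReal 0 1) = univ := by
    ext x; simp [(gaussianPDFReal_pos 0 1 x one_ne_zero).ne']
  rw [this, univ_inter]
  simp

theorem Phibar_le_one (s : ℝ) : Phibar s ≤ 1 := by
  rw [Phibar_eq_real]; exact measureReal_le_one

theorem Phibar_anti : Antitone Phibar := by
  intro a b hab
  rw [Phibar_eq_real, Phibar_eq_real]
  exact measureReal_mono (Ioi_subset_Ioi hab)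

theorem gpdf_shift (t b : ℝ) :
    gaussianPDFReal 0 1 (t + b) = gaussianPDFReal 0 1 t * Real.exp (-(t * b) - b ^ 2 / 2) := by
  simp only [gaussianPDFReal]
  rw [mul_assoc _ (Real.exp _) (Real.exp _), ← Real.exp_add]
  congr 2
  simp
  ring

/-- Shifting the tail. -/
theorem Phibar_shift (a b : ℝ) :
    Phibar (a + b) = ∫ t in Ioi a, gaussianPDFReal 0 1 t * Real.exp (-(t * b) - b ^ 2 / 2) := by
  unfold Phibar
  have h1 : ∫ t in Ioi (a + b), gaussianPDFReal 0 1 t = ∫ t in Ioi a, gaussianPDFReal 0 1 (t + b) := by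
    have := (measurePreserving_add_right volume b).setIntegral_preimage_emb
      (measurableEmbedding_addRight b) (fun t => gaussianPDFReal 0 1 t) (Ioi (a + b))
    rw [← this]
    simp
  rw [h1]
  refine integral_congr_ae (Filter.Eventually.of_forall fun t => ?_)
  exact gpdf_shift t b

theorem integrableOn_shift (a b : ℝ) :
    IntegrableOn (fun t => gaussianPDFReal 0 1 t * Real.exp (-(t * b) - b ^ 2 / 2)) (Ioi a) := by
  have h := (integrable_gaussianPDFReal 0 1).comp_add_right b
  refine (h.integrableOn (s := Ioi a)).congr_fun (fun t _ => ?_) measurableSet_Ioi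
  exact gpdf_shift t b

/-- `Φ̄(a+b) ≤ e^{-ab} Φ̄(a)` for `b ≥ 0`. -/
theorem Phibar_add_le (a : ℝ) {b : ℝ} (hb : 0 ≤ b) :
    Phibar (a + b) ≤ Real.exp (-(a * b)) * Phibar a := by
  rw [Phibar_shift]
  unfold Phibar
  rw [← integral_const_mul]
  refine setIntegral_mono_on (integrableOn_shift a b)
    ((integrable_gaussianPDFReal 0 1).const_mul _).integrableOn measurableSet_Ioi (fun t ht => ?_)
  rw [mul_comm]
  refine mul_le_mul_of_nonneg_right (Real.exp_le_exp.mpr ?_) (gaussianPDFReal_nonneg _ _ _)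
  have : a * b ≤ t * b := mul_le_mul_of_nonneg_right (le_of_lt ht) hb
  nlinarith [sq_nonneg b]

/-- `Φ̄(a+b) ≥ (1-e^{-2}) e^{-(a+2/a)b - b²/2} Φ̄(a)` for `a > 0`, `b ≥ 0`. -/
theorem le_Phibar_add {a b : ℝ} (ha : 0 < a) (hb : 0 ≤ b) :
    (1 - Real.exp (-2)) * Real.exp (-((a + 2 / a) * b) - b ^ 2 / 2) * Phibar a ≤
      Phibar (a + b) := by
  have h0 : Phibar (a + 2 / a) ≤ Real.exp (-2) * Phibar a := by
    have := Phibar_add_le a (b := 2 / a) (by positivity)
    rwa [show a * (2 / a) = 2 by field_simp] at this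
  have hsplit : Phibar a = (∫ t in Ioc a (a + 2 / a), gaussianPDFReal 0 1 t) + Phibar (a + 2 / a) := by
    unfold Phibar
    rw [← setIntegral_union (Set.Ioc_disjoint_Ioi le_rfl) measurableSet_Ioi
      (integrable_gaussianPDFReal 0 1).integrableOn (integrable_gaussianPDFReal 0 1).integrableOn,
      Ioc_union_Ioi_eq_Ioi (by simp; positivity)]
  have h1 : (1 - Real.exp (-2)) * Phibar a ≤ ∫ t in Ioc a (a + 2 / a), gaussianPDFReal 0 1 t := by
    linarith
  calc (1 - Real.exp (-2)) * Real.exp (-((a + 2 / a) * b) - b ^ 2 / 2) * Phibar a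
      = Real.exp (-((a + 2 / a) * b) - b ^ 2 / 2) * ((1 - Real.exp (-2)) * Phibar a) := by ring
    _ ≤ Real.exp (-((a + 2 / a) * b) - b ^ 2 / 2) *
        ∫ t in Ioc a (a + 2 / a), gaussianPDFReal 0 1 t :=
        mul_le_mul_of_nonneg_left h1 (Real.exp_nonneg _)
    _ = ∫ t in Ioc a (a + 2 / a), Real.exp (-((a + 2 / a) * b) - b ^ 2 / 2) *
        gaussianPDFReal 0 1 t := (integral_const_mul _ _).symm
    _ ≤ ∫ t in Ioc a (a + 2 / a), gaussianPDFReal 0 1 t * Real.exp (-(t * b) - b ^ 2 / 2) := by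
        refine setIntegral_mono_on ((integrable_gaussianPDFReal 0 1).const_mul _).integrableOn
          ((integrableOn_shift a b).mono_set Ioc_subset_Ioi_self) measurableSet_Ioc (fun t ht => ?_)
        rw [mul_comm]
        refine mul_le_mul_of_nonneg_left (Real.exp_le_exp.mpr ?_) (gaussianPDFReal_nonneg _ _ _)
        have : t * b ≤ (a + 2 / a) * b := mul_le_mul_of_nonneg_right ht.2 hb
        linarith
    _ ≤ ∫ t in Ioi a, gaussianPDFReal 0 1 t * Real.exp (-(t * b) - b ^ 2 / 2) := by
        refine setIntegral_mono_set (integrableOn_shift a b)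
          (Filter.Eventually.of_forall fun t => ?_) Ioc_subset_Ioi_self.eventuallyLE
        exact mul_nonneg (gaussianPDFReal_nonneg _ _ _) (Real.exp_nonneg _)
    _ = Phibar (a + b) := (Phibar_shift a b).symm

end Vale.Agent.P230
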