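import Vale.Agent.P230.Defs
import Vale.Agent.P230.GaussTail

/-!
# Gaussian halfspaces (module M5)

`Phib s = (gaussianReal 0 1) (Ioi s)` as a real number.

* `Phib_add_le`   : `∫_{a+b}^∞ e^{-s²/2} = ∫_a^∞ e^{-s²/2 - s b - b²/2} ≤ e^{-ab} ∫_a^∞ e^{-s²/2}`.
* `Phib_add_ge`   : restrict the same integral to `s ∈ (a, a+2/a]`; by `Phib_add_le` with
  `b = 2/a` this interval carries at least `(1 - e^{-2}) Phib a`.
* `halfspaces`: `γ = stdGaussian (Sp n)`, `a = √(40000 n)`, `N = 1/(4 Phib a)`, `G = n²`.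
  Discretisation: for `g` with `‖g‖ ≤ G` let `pat g = {z ∈ Z : a < ⟪g, z⟫}`; index set = the
  (finitely many) patterns `σ ⊆ Z` that occur for some `‖g‖ ≤ G`, `g σ` a representative,
  `μ σ = N * γ {g : ‖g‖ ≤ G, pat g = σ}`.  For `z z' ∈ Z`:
  `μ {σ : a < ⟪g σ, z⟫ ∧ a < ⟪g σ, z'⟫} = N * γ {‖g‖ ≤ G, a < ⟪g,z⟫, a < ⟪g,z'⟫}`.
  Marginals: `γ {a < ⟪g, w⟫} = Phib (a / ‖w‖)` (`w ≠ 0`), and `γ{a < ⟪g,z⟫ ∧ a < ⟪g,z'⟫} ≤
  γ {a < ⟪g, (z+z')/2⟫}`, `‖(z+z')/2‖² = (‖z‖²+‖z'‖²)/2 - ‖z-z'‖²/4 ≤ 1 - ‖z-z'‖²/4`.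
  So with `r = ‖(z+z')/2‖ ≤ 1 - ‖z-z'‖²/8`, `b = a (1/r - 1) ≥ a (1-r)`:
  `N Phib (a/r) ≤ (1/4) e^{-a b} ≤ exp(-40000 n ‖z-z'‖²/8)`.
  Upper bound for `‖z‖ ≤ 1 + 1/n²`: `Phib_add_ge` with base `a' = a/(1+s)`, `b = a - a' ≤ a s`.
  Lower bound: `b = a(1/r-1) ≤ 2 a (1-r)` for `r ≥ 1/2`, `Phib_add_ge`; the truncation loses at
  most `N γ(‖g‖ > n²) ≤ N * 2 n Phib (n²/√n)`, `Phib(1+b) ≤ e^{-b}`, and
  `N ≤ C e^{3a + a²/2}` (`Phib_add_ge` with base `1`), which is `≤` half of `exp(-C1 (1+ n/2))`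
  (choose `C1` large; `n^{3/2} ≫ n`).
-/

open MeasureTheory ProbabilityTheory Filter Finset

namespace Vale.Agent.P230

/-- Upper tail of the standard normal distribution. -/
noncomputable def Phib (s : ℝ) : ℝ := (gaussianReal 0 1 (Set.Ioi s)).toReal

theorem Phib_eq (s : ℝ) : Phib s = Phibar s := (Phibar_eq_real s).symm

theorem Phib_pos (s : ℝ) : 0 < Phib s := by
  rw [Phib_eq]; exact Phibar_pos s

theorem Phib_le_one (s : ℝ) : Phib s ≤ 1 := by
  rw [Phib_eq]; exact Phibar_le_one s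

theorem Phib_anti {s t : ℝ} (h : s ≤ t) : Phib t ≤ Phib s := by
  rw [Phib_eq, Phib_eq]; exact Phibar_anti h

theorem Phib_add_le (a : ℝ) {b : ℝ} (hb : 0 ≤ b) : Phib (a + b) ≤ Real.exp (-(a * b)) * Phib a := by
  rw [Phib_eq, Phib_eq]; exact Phibar_add_le a hb

theorem Phib_add_ge {a b : ℝ} (ha : 0 < a) (hb : 0 ≤ b) :
    (1 - Real.exp (-2)) * Real.exp (-((a + 2 / a) * b + b ^ 2 / 2)) * Phib a ≤ Phib (a + b) := by
  rw [Phib_eq, Phib_eq, neg_add, ← sub_eq_add_neg]; exact le_Phibar_add ha hb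

theorem stdGaussian_halfspace {n : ℕ} (a : ℝ) {w : Sp n} (hw : w ≠ 0) :
    (stdGaussian (Sp n) {g | a < inner ℝ g w}).toReal = Phib (a / ‖w‖) := by
  have hw' : 0 < ‖w‖ := norm_pos_iff.mpr hw
  have hmap := IsGaussian.map_eq_gaussianReal (μ := stdGaussian (Sp n))
    (innerSL ℝ (‖w‖⁻¹ • w) : StrongDual ℝ (Sp n))
  rw [variance_dual_stdGaussian, integral_strongDual_stdGaussian] at hmap
  have hnorm : ‖(innerSL ℝ (‖w‖⁻¹ • w) : StrongDual ℝ (Sp n))‖ = 1 := by
    rw [innerSL_apply_norm, norm_smul, norm_inv, norm_norm, inv_mul_cancel₀ hw'.ne']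
  rw [hnorm] at hmap
  have hset : {g : Sp n | a < inner ℝ g w} =
      (innerSL ℝ (‖w‖⁻¹ • w) : StrongDual ℝ (Sp n)) ⁻¹' (Set.Ioi (a / ‖w‖)) := by
    ext g
    simp only [Set.mem_ofPred_eq, Set.mem_preimage, Set.mem_Ioi, innerSL_apply_apply]
    rw [real_inner_smul_left, real_inner_comm, div_eq_inv_mul,
      mul_lt_mul_iff_right₀ (inv_pos.mpr hw')]
  unfold Phib
  rw [hset, ← Measure.map_apply (by fun_prop) measurableSet_Ioi, hmap]
  simp

theorem stdGaussian_norm_gt {n : ℕ} {G : ℝ} (hn : 0 < n) (hG : 0 ≤ G) :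
    (stdGaussian (Sp n) {g | G < ‖g‖}).toReal ≤ 2 * n * Phib (G / Real.sqrt n) := by
  classical
  have hn' : (0 : ℝ) < n := by exact_mod_cast hn
  set e : Fin n → Sp n := fun i => EuclideanSpace.single i (1 : ℝ) with he
  have hsub : {g : Sp n | G < ‖g‖} ⊆ ⋃ i ∈ (univ : Finset (Fin n)),
      ({g : Sp n | G / Real.sqrt n < inner ℝ g (e i)} ∪
        {g : Sp n | G / Real.sqrt n < inner ℝ g (-(e i))}) := by
    intro g hg
    by_contra hcon
    simp only [Set.mem_iUnion, Set.mem_union, Set.mem_ofPred_eq, exists_prop, mem_univ,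
      true_and, not_exists, not_or, not_lt] at hcon
    have h1 : ∀ i, |g i| ≤ G / Real.sqrt n := by
      intro i
      obtain ⟨ha, hb⟩ := hcon i
      rw [inner_neg_right] at hb
      have hi : inner ℝ g (e i) = g i := by
        simp [he, EuclideanSpace.inner_single_right]
      rw [hi] at ha hb
      exact abs_le.mpr ⟨by linarith, ha⟩
    have h2 : ‖g‖ ^ 2 ≤ G ^ 2 := by
      rw [EuclideanSpace.real_norm_sq_eq]
      calc ∑ i, g i ^ 2 ≤ ∑ _i : Fin n, (G / Real.sqrt n) ^ 2 := by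
            refine Finset.sum_le_sum fun i _ => ?_
            rw [← sq_abs (g i)]
            exact pow_le_pow_left₀ (abs_nonneg _) (h1 i) 2
        _ = G ^ 2 := by
            rw [Finset.sum_const, Finset.card_univ, Fintype.card_fin, nsmul_eq_mul, div_pow,
              Real.sq_sqrt hn'.le]
            field_simp
    have h3 : ‖g‖ ≤ G := by
      exact abs_le_of_sq_le_sq' h2 hG |>.2
    exact absurd hg (not_lt.mpr h3)
  have hmeas : ∀ w : Sp n, ‖w‖ = 1 →
      (stdGaussian (Sp n) {g | G / Real.sqrt n < inner ℝ g w}).toReal = Phib (G / Real.sqrt n) := by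
    intro w hw
    rw [stdGaussian_halfspace _ (by rw [← norm_pos_iff, hw]; exact one_pos), hw, div_one]
  have hene : ∀ i, ‖e i‖ = 1 := by
    intro i; simp [he]
  calc (stdGaussian (Sp n) {g | G < ‖g‖}).toReal
      ≤ (stdGaussian (Sp n) (⋃ i ∈ (univ : Finset (Fin n)),
        ({g : Sp n | G / Real.sqrt n < inner ℝ g (e i)} ∪
        {g : Sp n | G / Real.sqrt n < inner ℝ g (-(e i))}))).toReal :=
        ENNReal.toReal_mono (measure_ne_top _ _) (measure_mono hsub)
    _ ≤ ∑ i : Fin n, ((stdGaussian (Sp n)) ({g : Sp n | G / Real.sqrt n < inner ℝ g (e i)} ∪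
        {g : Sp n | G / Real.sqrt n < inner ℝ g (-(e i))})).toReal := by
        have := measureReal_biUnion_finset_le (μ := stdGaussian (Sp n)) (univ : Finset (Fin n))
          (fun i => ({g : Sp n | G / Real.sqrt n < inner ℝ g (e i)} ∪
          {g : Sp n | G / Real.sqrt n < inner ℝ g (-(e i))}))
        simpa [measureReal_def] using this
    _ ≤ ∑ i : Fin n, (Phib (G / Real.sqrt n) + Phib (G / Real.sqrt n)) := by
        refine Finset.sum_le_sum fun i _ => ?_
        have h4 := measureReal_union_le (μ := stdGaussian (Sp n))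
          {g : Sp n | G / Real.sqrt n < inner ℝ g (e i)}
          {g : Sp n | G / Real.sqrt n < inner ℝ g (-(e i))}
        simp only [measureReal_def] at h4
        rw [hmeas _ (hene i), hmeas _ (by rw [norm_neg]; exact hene i)] at h4
        exact h4
    _ = 2 * n * Phib (G / Real.sqrt n) := by
        rw [Finset.sum_const, Finset.card_univ, Fintype.card_fin, nsmul_eq_mul]
        ring

open Classical in
theorem discretise {n : ℕ} (a G : ℝ) (hG : 0 ≤ G) (Z : Finset (Sp n)) :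
    ∃ (N : ℕ) (μ : Fin N → ℝ) (g : Fin N → Sp n), (∀ i, 0 ≤ μ i) ∧ (∀ i, ‖g i‖ ≤ G) ∧
      ∀ Q : Finset (Sp n) → Prop,
        ∑ i with Q (Z.filter (fun z => a < inner ℝ (g i) z)), μ i =
          (stdGaussian (Sp n) {g | ‖g‖ ≤ G ∧ Q (Z.filter (fun z => a < inner ℝ g z))}).toReal := by
  set γ := stdGaussian (Sp n) with hγ
  set pat : Sp n → Finset (Sp n) := fun g => Z.filter (fun z => a < inner ℝ g z) with hpat
  set A : Finset (Sp n) → Set (Sp n) := fun σ => {g | ‖g‖ ≤ G ∧ pat g = σ} with hA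
  set rep : Finset (Sp n) → Sp n := fun σ => if h : (A σ).Nonempty then h.some else 0 with hrep
  have hrepG : ∀ σ, ‖rep σ‖ ≤ G := by
    intro σ
    simp only [hrep]
    split_ifs with h
    · exact h.some_mem.1
    · simpa using hG
  have hrepPat : ∀ σ, (A σ).Nonempty → pat (rep σ) = σ := by
    intro σ h
    simp only [hrep, dif_pos h]
    exact h.some_mem.2
  have hmeasA : ∀ σ ∈ Z.powerset, MeasurableSet (A σ) := by
    intro σ hσ
    have hσ' : σ ⊆ Z := Finset.mem_powerset.mp hσ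
    have hset : A σ = Metric.closedBall 0 G ∩ ⋂ z ∈ Z, {g : Sp n | a < inner ℝ g z ↔ z ∈ σ} := by
      ext g
      simp only [hA, hpat, Set.mem_ofPred_eq, Set.mem_inter_iff, Metric.mem_closedBall,
        dist_zero_right, Set.mem_iInter]
      refine and_congr_right fun _ => ?_
      constructor
      · intro h z hz
        rw [← h]; simp [hz]
      · intro h
        ext z
        rw [Finset.mem_filter]
        constructor
        · rintro ⟨h1, h2⟩; exact (h z h1).mp h2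
        · intro h1; exact ⟨hσ' h1, (h z (hσ' h1)).mpr h1⟩
    rw [hset]
    refine Metric.isClosed_closedBall.measurableSet.inter
      (Finset.measurableSet_biInter _ fun z _ => ?_)
    have hm : MeasurableSet {g : Sp n | a < inner ℝ g z} :=
      measurableSet_lt measurable_const (by fun_prop)
    by_cases hz : z ∈ σ
    · simp only [hz, iff_true]
      exact hm
    · simp only [hz, iff_false]
      exact hm.compl
  refine ⟨Z.powerset.card, fun i => (γ (A (Z.powerset.equivFin.symm i))).toReal,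
    fun i => rep (Z.powerset.equivFin.symm i), fun i => ENNReal.toReal_nonneg,
    fun i => hrepG _, fun Q => ?_⟩
  have hun : {g | ‖g‖ ≤ G ∧ Q (pat g)} = ⋃ σ ∈ Z.powerset.filter Q, A σ := by
    ext g
    simp only [hA, Set.mem_ofPred_eq, Set.mem_iUnion, Finset.mem_filter, exists_prop]
    constructor
    · rintro ⟨h1, h2⟩
      exact ⟨pat g, ⟨by simp [hpat], h2⟩, h1, rfl⟩
    · rintro ⟨σ, ⟨_, h2⟩, h3, h4⟩
      exact ⟨h3, h4 ▸ h2⟩
  have hdisj : Set.PairwiseDisjoint (↑(Z.powerset.filter Q)) A := by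
    intro σ _ τ _ hne
    refine Set.disjoint_left.mpr fun g h1 h2 => hne ?_
    rw [← h1.2, ← h2.2]
  have hR : (γ {g | ‖g‖ ≤ G ∧ Q (pat g)}).toReal = ∑ σ ∈ Z.powerset.filter Q, (γ (A σ)).toReal := by
    rw [hun, measure_biUnion_finset hdisj (fun σ hσ => hmeasA σ (Finset.mem_filter.mp hσ).1),
      ENNReal.toReal_sum fun σ _ => measure_ne_top _ _]
  change _ = (γ {g | ‖g‖ ≤ G ∧ Q (pat g)}).toReal
  rw [hR, Finset.sum_filter, Finset.sum_filter,
    ← Finset.sum_coe_sort Z.powerset (fun σ => if Q σ then (γ (A σ)).toReal else 0),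
    ← Equiv.sum_comp Z.powerset.equivFin.symm]
  refine Finset.sum_congr rfl fun i _ => ?_
  set σ : Finset (Sp n) := ↑(Z.powerset.equivFin.symm i)
  by_cases h : (A σ).Nonempty
  · have := hrepPat σ h
    simp only [hpat] at this
    rw [this]
  · rw [Set.not_nonempty_iff_eq_empty] at h
    simp [h]

/-- The offset `a = √(40000 n)`. -/
noncomputable def aa (n : ℕ) : ℝ := Real.sqrt (40000 * n)

/-- A finite weighted family of halfspaces `{w : aa n < ⟪g i, w⟫}` adapted to the finite set `Z`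
of points. -/
structure HalfFam (n : ℕ) (C1 : ℝ) (Z : Finset (Sp n)) where
  N : ℕ
  μ : Fin N → ℝ
  g : Fin N → Sp n
  μ_nonneg : ∀ i, 0 ≤ μ i
  g_le : ∀ i, ‖g i‖ ≤ (n : ℝ) ^ 2
  upper : ∀ z ∈ Z, ‖z‖ ≤ 1 + 1 / (n : ℝ) ^ 2 →
    ∑ i with aa n < inner ℝ (g i) z, μ i ≤ 1 / 3
  lower : ∀ z ∈ Z, 1 / 2 ≤ ‖z‖ → ‖z‖ ≤ 1 →
    Real.exp (-(C1 * (1 + n * (1 - ‖z‖)))) ≤ ∑ i with aa n < inner ℝ (g i) z, μ i
  pair : ∀ z ∈ Z, ∀ z' ∈ Z, ‖z‖ ≤ 1 → ‖z'‖ ≤ 1 →
    ∑ i with (aa n < inner ℝ (g i) z ∧ aa n < inner ℝ (g i) z'), μ i ≤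
      Real.exp (-(5000 * n * ‖z - z'‖ ^ 2))

/-- The halfspaces cutting off `z`. -/
noncomputable def HalfFam.cut {n : ℕ} {C1 : ℝ} {Z : Finset (Sp n)} (F : HalfFam n C1 Z)
    (z : Sp n) : Finset (Fin F.N) :=
  univ.filter (fun i => aa n < inner ℝ (F.g i) z)

theorem aa_sq (n : ℕ) : aa n ^ 2 = 40000 * n := by
  unfold aa; exact Real.sq_sqrt (by positivity)

theorem aa_pos {n : ℕ} (hn : 0 < n) : 0 < aa n := by
  unfold aa; have : (0 : ℝ) < n := by exact_mod_cast hn
  positivity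

theorem exp_neg_two_lt : Real.exp (-2) < 7 / 50 := by
  have h : Real.exp (-2) = Real.exp (-1) * Real.exp (-1) := by rw [← Real.exp_add]; norm_num
  have h1 := Real.exp_neg_one_lt_d9
  have h0 := Real.exp_pos (-1)
  rw [h]; nlinarith

theorem upper_aux {n : ℕ} (hn : 10 ^ 6 ≤ n) {r : ℝ} (hr0 : 0 < r) (hr : r ≤ 1 + 1 / (n : ℝ) ^ 2) :
    Phib (aa n / r) ≤ 4 / 3 * Phib (aa n) := by
  have hn0 : 0 < n := by omega
  have hnR : (1000000 : ℝ) ≤ n := by
    have : 1000000 ≤ n := by norm_num at hn; exact hn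
    exact_mod_cast this
  have hnpos : (0 : ℝ) < n := by linarith
  set s : ℝ := 1 / (n : ℝ) ^ 2 with hs
  have hs0 : 0 < s := by positivity
  set a := aa n with ha
  have ha0 : 0 < a := aa_pos hn0
  have hasq : a ^ 2 = 40000 * n := aa_sq n
  have h1s : 0 < 1 + s := by linarith
  set a' := a / (1 + s) with ha'
  have ha'0 : 0 < a' := by positivity
  have ha'a : a' ≤ a := by rw [ha']; exact div_le_self ha0.le (by linarith)
  have hmono : Phib (a / r) ≤ Phib a' := Phib_anti (by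
    rw [ha']; exact div_le_div_of_nonneg_left ha0.le hr0 hr)
  have hb : a - a' = a' * s := by rw [ha']; field_simp; ring
  have key := Phib_add_ge ha'0 (b := a - a') (by linarith)
  rw [add_sub_cancel] at key
  have hE : (a' + 2 / a') * (a - a') + (a - a') ^ 2 / 2 ≤ 1 / 10 := by
    rw [hb]
    have e1 : (a' + 2 / a') * (a' * s) = a' ^ 2 * s + 2 * s := by field_simp
    rw [e1]
    have ha2 : a' ^ 2 ≤ 40000 * n := by rw [← hasq]; exact pow_le_pow_left₀ ha'0.le ha'a 2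
    have h2 : a' ^ 2 * s ≤ 1 / 25 := by
      calc a' ^ 2 * s ≤ 40000 * n * s := mul_le_mul_of_nonneg_right ha2 hs0.le
        _ = 40000 / n := by rw [hs]; field_simp
        _ ≤ 1 / 25 := by rw [div_le_iff₀ hnpos]; linarith
    have h3 : s ≤ 1 / 1000 := by
      rw [hs, div_le_iff₀ (by positivity)]
      nlinarith
    have h4 : (a' * s) ^ 2 / 2 = (a' ^ 2 * s) * s / 2 := by ring
    rw [h4]
    have h5 : a' ^ 2 * s * s ≤ 1 / 25 * (1 / 1000) := mul_le_mul h2 h3 hs0.le (by norm_num)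
    linarith
  have hexp : (9 / 10 : ℝ) ≤ Real.exp (-((a' + 2 / a') * (a - a') + (a - a') ^ 2 / 2)) := by
    have := Real.add_one_le_exp (-((a' + 2 / a') * (a - a') + (a - a') ^ 2 / 2))
    linarith
  have h2 := exp_neg_two_lt
  have h3 : (43 / 50 : ℝ) * (9 / 10) * Phib a' ≤ Phib a := by
    refine le_trans ?_ key
    refine mul_le_mul_of_nonneg_right ?_ (Phib_pos _).le
    exact mul_le_mul (by linarith) hexp (by norm_num) (by linarith)
  have h4 : Phib a' ≤ 4 / 3 * Phib a := by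
    have := Phib_pos a'
    linarith
  exact hmono.trans h4

theorem lower_aux {a r : ℝ} (ha : 0 < a) (hr : 1 / 2 ≤ r) (hr1 : r ≤ 1) :
    1 / 2 * Real.exp (-((3 * a ^ 2 + 4) * (1 - r))) * Phib a ≤ Phib (a / r) := by
  have hr0 : 0 < r := by linarith
  have hb0 : 0 ≤ a / r - a := by
    rw [sub_nonneg, le_div_iff₀ hr0]; nlinarith
  have key := Phib_add_ge ha hb0
  rw [add_sub_cancel] at key
  refine le_trans ?_ key
  refine mul_le_mul_of_nonneg_right ?_ (Phib_pos _).le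
  have h2 := exp_neg_two_lt
  refine mul_le_mul (by linarith) (Real.exp_le_exp.mpr ?_)
    (Real.exp_nonneg _) (by linarith)
  refine neg_le_neg ?_
  set t := 1 - r with ht
  have ht0 : 0 ≤ t := by linarith
  have ht1 : t ≤ 1 / 2 := by linarith
  have hb : a / r - a ≤ 2 * a * t := by
    rw [sub_le_iff_le_add, div_le_iff₀ hr0]
    have : r = 1 - t := by linarith
    rw [this]
    nlinarith [mul_nonneg ha.le ht0, mul_nonneg (mul_nonneg ha.le ht0) (by linarith : 0 ≤ 1 - 2 * t)]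
  have h5 : (a + 2 / a) * (a / r - a) ≤ (a + 2 / a) * (2 * a * t) :=
    mul_le_mul_of_nonneg_left hb (by positivity)
  have h6 : (a + 2 / a) * (2 * a * t) = (2 * a ^ 2 + 4) * t := by field_simp; ring
  have h7 : (a / r - a) ^ 2 ≤ (2 * a * t) ^ 2 := pow_le_pow_left₀ hb0 hb 2
  have h8 : (2 * a * t) ^ 2 / 2 ≤ a ^ 2 * t := by
    have : (2 * a * t) ^ 2 / 2 = a ^ 2 * t * (2 * t) := by ring
    rw [this]
    have h9 : 0 ≤ a ^ 2 * t := by positivity
    nlinarith
  nlinarith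

theorem trunc_aux : ∀ᶠ n : ℕ in atTop,
    2 * n * Phib ((n : ℝ) ^ 2 / Real.sqrt n) ≤
      1 / 4 * Real.exp (-(60002 * n)) * Phib (aa n) := by
  have hc0 : 0 < (1 - Real.exp (-2)) * Phib 1 / 8 := by
    have := exp_neg_two_lt
    have h1 := Phib_pos 1
    have : 0 < 1 - Real.exp (-2) := by linarith
    positivity
  have hlim : Tendsto (fun n : ℕ => Real.exp (1 - (n : ℝ))) atTop (nhds 0) := by
    have h1 : Tendsto (fun n : ℕ => (1 : ℝ) - n) atTop atBot := by
      have : Tendsto (fun n : ℕ => (n : ℝ) + (-1)) atTop atTop :=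
        tendsto_atTop_add_const_right _ _ tendsto_natCast_atTop_atTop
      have h2 := tendsto_neg_atTop_atBot.comp this
      refine h2.congr fun n => ?_
      simp only [Function.comp_apply]
      ring
    exact Real.tendsto_exp_atBot.comp h1
  have hsq : Tendsto (fun n : ℕ => Real.sqrt n) atTop atTop :=
    Real.tendsto_sqrt_atTop.comp tendsto_natCast_atTop_atTop
  filter_upwards [hlim.eventually (gt_mem_nhds hc0), hsq.eventually_ge_atTop 80610,
    eventually_ge_atTop 1] with n hn1 hn2 hn3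
  have hnR : (1 : ℝ) ≤ n := by exact_mod_cast hn3
  have hn0 : (0 : ℝ) < n := by linarith
  set q := Real.sqrt n with hq
  have hqq : q * q = n := Real.mul_self_sqrt hn0.le
  have hq0 : 0 < q := by linarith
  have ha : aa n = 200 * q := by
    unfold aa
    rw [Real.sqrt_mul (by norm_num), show (40000 : ℝ) = 200 ^ 2 by norm_num,
      Real.sqrt_sq (by norm_num)]
  have hdiv : (n : ℝ) ^ 2 / q = n * q := by
    rw [div_eq_iff hq0.ne', ← hqq]; ring
  rw [hdiv]
  -- upper bound for the truncation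
  have h1 : Phib ((n : ℝ) * q) ≤ Real.exp (-(n * q - 1)) := by
    have := Phib_add_le 1 (b := n * q - 1) (by nlinarith)
    rw [add_sub_cancel, one_mul] at this
    exact this.trans (mul_le_of_le_one_right (Real.exp_nonneg _) (Phib_le_one _))
  have h2 : (1 - Real.exp (-2)) * Real.exp (-(20600 * n)) * Phib 1 ≤ Phib (aa n) := by
    have hb : 0 ≤ aa n - 1 := by rw [ha]; linarith
    have := Phib_add_ge one_pos hb
    rw [add_sub_cancel] at this
    refine le_trans ?_ this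
    refine mul_le_mul_of_nonneg_right ?_ (Phib_pos _).le
    refine mul_le_mul_of_nonneg_left (Real.exp_le_exp.mpr (neg_le_neg ?_)) ?_
    · rw [ha]; nlinarith
    · have := exp_neg_two_lt; linarith
  have h3 : (n : ℝ) ≤ Real.exp n := by
    have := Real.add_one_le_exp (n : ℝ); linarith
  have hprod : (2 : ℝ) * n * Phib (n * q) ≤ 2 * Real.exp (n - (n * q - 1)) := by
    calc (2 : ℝ) * n * Phib (n * q) ≤ 2 * Real.exp n * Real.exp (-(n * q - 1)) := by
          refine mul_le_mul (by linarith) h1 (Phib_pos _).le (by positivity)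
      _ = 2 * Real.exp (n - (n * q - 1)) := by rw [mul_assoc, ← Real.exp_add]; ring_nf
  have hexp2 : Real.exp (n - (n * q - 1)) ≤
      Real.exp (1 - n) * (Real.exp (-(60002 * n)) * Real.exp (-(20600 * n))) := by
    rw [← Real.exp_add, ← Real.exp_add]
    refine Real.exp_le_exp.mpr ?_
    nlinarith
  calc (2 : ℝ) * n * Phib (n * q) ≤ 2 * Real.exp (n - (n * q - 1)) := hprod
    _ ≤ 2 * (Real.exp (1 - n) * (Real.exp (-(60002 * n)) * Real.exp (-(20600 * n)))) := by
        linarith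
    _ ≤ 2 * ((1 - Real.exp (-2)) * Phib 1 / 8 *
        (Real.exp (-(60002 * n)) * Real.exp (-(20600 * n)))) := by
        refine mul_le_mul_of_nonneg_left ?_ (by norm_num)
        exact mul_le_mul_of_nonneg_right hn1.le (by positivity)
    _ = 1 / 4 * Real.exp (-(60002 * n)) *
        ((1 - Real.exp (-2)) * Real.exp (-(20600 * n)) * Phib 1) := by ring
    _ ≤ 1 / 4 * Real.exp (-(60002 * n)) * Phib (aa n) :=
        mul_le_mul_of_nonneg_left h2 (by positivity)

theorem pair_aux {a r d : ℝ} (ha : 0 < a) (hr : 0 < r) (h : r ^ 2 ≤ 1 - d ^ 2 / 4) :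
    Phib (a / r) ≤ Real.exp (-(a ^ 2 * d ^ 2 / 8)) * Phib a := by
  have hr1 : r ≤ 1 := by nlinarith [sq_nonneg d]
  have hb0 : 0 ≤ a / r - a := by
    rw [sub_nonneg, le_div_iff₀ hr]; nlinarith
  have key := Phib_add_le a hb0
  rw [add_sub_cancel] at key
  refine key.trans (mul_le_mul_of_nonneg_right (Real.exp_le_exp.mpr (neg_le_neg ?_))
    (Phib_pos _).le)
  have h1 : a * (1 - r) ≤ a / r - a := by
    rw [le_sub_iff_add_le, le_div_iff₀ hr]
    nlinarith [mul_nonneg ha.le (sq_nonneg (1 - r))]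
  have h2 : d ^ 2 / 8 ≤ 1 - r := by nlinarith [sq_nonneg (1 - r)]
  calc a ^ 2 * d ^ 2 / 8 = a * (a * (d ^ 2 / 8)) := by ring
    _ ≤ a * (a * (1 - r)) := by gcongr
    _ ≤ a * (a / r - a) := by gcongr

theorem halfspaces : ∃ C1 : ℝ, 0 < C1 ∧ ∀ᶠ n : ℕ in atTop, ∀ Z : Finset (Sp n),
    Nonempty (HalfFam n C1 Z) := by
  classical
  refine ⟨120004, by norm_num, ?_⟩
  filter_upwards [trunc_aux, eventually_ge_atTop (10 ^ 6)] with n htr hn Z
  have hn0 : 0 < n := by omega
  have hnpos : (0 : ℝ) < n := by exact_mod_cast hn0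
  have hn1 : (1 : ℝ) ≤ n := by exact_mod_cast hn0
  have ha0 := aa_pos hn0
  have hP0 := Phib_pos (aa n)
  obtain ⟨N, μ, g, hμ, hg, hQ⟩ := discretise (aa n) ((n : ℝ) ^ 2) (by positivity) Z
  set γ := stdGaussian (Sp n) with hγ
  set c : ℝ := 1 / (4 * Phib (aa n)) with hc
  have hc0 : 0 < c := by positivity
  have hcP : c * Phib (aa n) = 1 / 4 := by rw [hc]; field_simp
  -- sums over single cuts
  have hS1 : ∀ z ∈ Z, ∑ i with aa n < inner ℝ (g i) z, c * μ i =
      c * (γ {h | ‖h‖ ≤ (n : ℝ) ^ 2 ∧ aa n < inner ℝ h z}).toReal := by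
    intro z hz
    rw [← Finset.mul_sum]
    congr 1
    have h1 := hQ (fun σ => z ∈ σ)
    simp only [Finset.mem_filter, hz, true_and] at h1
    rw [← h1]
  have hS2 : ∀ z ∈ Z, ∀ z' ∈ Z,
      ∑ i with (aa n < inner ℝ (g i) z ∧ aa n < inner ℝ (g i) z'), c * μ i =
      c * (γ {h | ‖h‖ ≤ (n : ℝ) ^ 2 ∧ (aa n < inner ℝ h z ∧ aa n < inner ℝ h z')}).toReal := by
    intro z hz z' hz'
    rw [← Finset.mul_sum]
    congr 1
    have h1 := hQ (fun σ => z ∈ σ ∧ z' ∈ σ)
    simp only [Finset.mem_filter, hz, hz', true_and] at h1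
    rw [← h1]
  refine ⟨⟨N, fun i => c * μ i, g, fun i => mul_nonneg hc0.le (hμ i), hg, ?_, ?_, ?_⟩⟩
  · -- upper
    intro z hz hzn
    rw [hS1 z hz]
    rcases eq_or_ne z 0 with rfl | hz0
    · have : {h : Sp n | ‖h‖ ≤ (n : ℝ) ^ 2 ∧ aa n < inner ℝ h (0 : Sp n)} = ∅ := by
        ext h; simp [ha0.le]
      rw [this]; simp
    · have hzpos : 0 < ‖z‖ := norm_pos_iff.mpr hz0
      have h1 : (γ {h | ‖h‖ ≤ (n : ℝ) ^ 2 ∧ aa n < inner ℝ h z}).toReal ≤ Phib (aa n / ‖z‖) := by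
        rw [← stdGaussian_halfspace (aa n) hz0]
        exact ENNReal.toReal_mono (measure_ne_top _ _) (measure_mono fun h hh => hh.2)
      have h2 := upper_aux hn hzpos hzn
      calc c * (γ {h | ‖h‖ ≤ (n : ℝ) ^ 2 ∧ aa n < inner ℝ h z}).toReal
          ≤ c * (4 / 3 * Phib (aa n)) := mul_le_mul_of_nonneg_left (h1.trans h2) hc0.le
        _ = 4 / 3 * (c * Phib (aa n)) := by ring
        _ = 1 / 3 := by rw [hcP]; norm_num
  · -- lower
    intro z hz hz1 hz2
    rw [hS1 z hz]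
    have hz0 : z ≠ 0 := by
      intro h; rw [h, norm_zero] at hz1; norm_num at hz1
    have hzpos : 0 < ‖z‖ := norm_pos_iff.mpr hz0
    set r := ‖z‖ with hr
    have h1 : Phib (aa n / r) - 2 * n * Phib ((n : ℝ) ^ 2 / Real.sqrt n) ≤
        (γ {h | ‖h‖ ≤ (n : ℝ) ^ 2 ∧ aa n < inner ℝ h z}).toReal := by
      rw [sub_le_iff_le_add, ← stdGaussian_halfspace (aa n) hz0]
      have h3 := stdGaussian_norm_gt (n := n) (G := (n : ℝ) ^ 2) hn0 (by positivity)
      refine le_trans ?_ (add_le_add_right h3 _)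
      have h4 := measureReal_union_le (μ := γ)
        {h | ‖h‖ ≤ (n : ℝ) ^ 2 ∧ aa n < inner ℝ h z} {h : Sp n | (n : ℝ) ^ 2 < ‖h‖}
      simp only [measureReal_def] at h4
      refine le_trans (ENNReal.toReal_mono (measure_ne_top _ _) (measure_mono ?_)) h4
      intro h hh
      rcases le_or_gt ‖h‖ ((n : ℝ) ^ 2) with h5 | h5
      · exact Or.inl ⟨h5, hh⟩
      · exact Or.inr h5
    have h2 := lower_aux ha0 hz1 hz2
    rw [aa_sq] at h2
    have hE : Real.exp (-((3 * (40000 * (n : ℝ)) + 4) * (1 - r))) ≥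
        Real.exp (-(120004 * (n * (1 - r)))) := by
      refine Real.exp_le_exp.mpr (neg_le_neg ?_)
      have : 0 ≤ 1 - r := by linarith
      nlinarith
    have hE2 : Real.exp (-(60002 * (n : ℝ))) ≤ Real.exp (-(120004 * (n * (1 - r)))) := by
      refine Real.exp_le_exp.mpr (neg_le_neg ?_)
      have : 1 - r ≤ 1 / 2 := by linarith
      nlinarith
    have hfin : 1 / 16 ≥ Real.exp (-(120004 : ℝ)) := by
      have h7 : Real.exp (-(120004 : ℝ)) ≤ Real.exp (-2) * Real.exp (-2) := by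
        rw [← Real.exp_add]; exact Real.exp_le_exp.mpr (by norm_num)
      have h8 := exp_neg_two_lt
      have h9 := Real.exp_pos (-2)
      nlinarith
    set X := Real.exp (-(120004 * (n * (1 - r)))) with hX
    have hX0 : 0 < X := Real.exp_pos _
    calc Real.exp (-(120004 * (1 + n * (1 - r)))) = Real.exp (-(120004 : ℝ)) * X := by
          rw [hX, ← Real.exp_add]; ring_nf
      _ ≤ 1 / 16 * X := mul_le_mul_of_nonneg_right hfin hX0.le
      _ = c * ((1 / 2 * X - 1 / 4 * X) * Phib (aa n)) := by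
          rw [show c * ((1 / 2 * X - 1 / 4 * X) * Phib (aa n)) =
            (1 / 2 * X - 1 / 4 * X) * (c * Phib (aa n)) by ring, hcP]; ring
      _ ≤ c * (Phib (aa n / r) - 2 * n * Phib ((n : ℝ) ^ 2 / Real.sqrt n)) := by
          refine mul_le_mul_of_nonneg_left ?_ hc0.le
          have e1 : 1 / 2 * X * Phib (aa n) ≤ Phib (aa n / r) :=
            le_trans (mul_le_mul_of_nonneg_right (mul_le_mul_of_nonneg_left hE (by norm_num))
              hP0.le) h2
          have e2 : 2 * n * Phib ((n : ℝ) ^ 2 / Real.sqrt n) ≤ 1 / 4 * X * Phib (aa n) :=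
            htr.trans (mul_le_mul_of_nonneg_right (mul_le_mul_of_nonneg_left hE2 (by norm_num))
              hP0.le)
          linarith
      _ ≤ _ := mul_le_mul_of_nonneg_left h1 hc0.le
  · -- pair
    intro z hz z' hz' hz1 hz1'
    rw [hS2 z hz z' hz']
    set w : Sp n := (1 / 2 : ℝ) • (z + z') with hw
    have hsub : {h : Sp n | ‖h‖ ≤ (n : ℝ) ^ 2 ∧ (aa n < inner ℝ h z ∧ aa n < inner ℝ h z')} ⊆
        {h | aa n < inner ℝ h w} := by
      rintro h ⟨_, h1, h2⟩
      change aa n < inner ℝ h w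
      rw [hw, inner_smul_right, inner_add_right]
      linarith
    have hwsq : ‖w‖ ^ 2 ≤ 1 - ‖z - z'‖ ^ 2 / 4 := by
      have hpar := parallelogram_law_with_norm ℝ z z'
      have h1 : ‖w‖ = 1 / 2 * ‖z + z'‖ := by
        rw [hw, norm_smul]; norm_num
      rw [h1]
      have h2 : ‖z‖ ^ 2 ≤ 1 := by nlinarith [norm_nonneg z]
      have h3 : ‖z'‖ ^ 2 ≤ 1 := by nlinarith [norm_nonneg z']
      nlinarith
    rcases eq_or_ne w 0 with hw0 | hw0
    · have : {h : Sp n | ‖h‖ ≤ (n : ℝ) ^ 2 ∧ (aa n < inner ℝ h z ∧ aa n < inner ℝ h z')} = ∅ := by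
        rw [Set.eq_empty_iff_forall_notMem]
        intro h hh
        have := hsub hh
        rw [hw0] at this
        simp only [Set.mem_ofPred_eq, inner_zero_right] at this
        linarith
      rw [this]; simp [Real.exp_nonneg]
    · have hwpos : 0 < ‖w‖ := norm_pos_iff.mpr hw0
      have h1 : (γ {h : Sp n | ‖h‖ ≤ (n : ℝ) ^ 2 ∧
          (aa n < inner ℝ h z ∧ aa n < inner ℝ h z')}).toReal ≤ Phib (aa n / ‖w‖) := by
        rw [← stdGaussian_halfspace (aa n) hw0]
        exact ENNReal.toReal_mono (measure_ne_top _ _) (measure_mono hsub)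
      have h2 := pair_aux ha0 hwpos hwsq
      rw [aa_sq] at h2
      calc c * (γ {h : Sp n | ‖h‖ ≤ (n : ℝ) ^ 2 ∧
          (aa n < inner ℝ h z ∧ aa n < inner ℝ h z')}).toReal
          ≤ c * (Real.exp (-(40000 * n * ‖z - z'‖ ^ 2 / 8)) * Phib (aa n)) :=
            mul_le_mul_of_nonneg_left (h1.trans h2) hc0.le
        _ = 1 / 4 * Real.exp (-(40000 * n * ‖z - z'‖ ^ 2 / 8)) := by
            rw [← hcP]; ring
        _ ≤ Real.exp (-(40000 * n * ‖z - z'‖ ^ 2 / 8)) := by
            have := Real.exp_pos (-(40000 * n * ‖z - z'‖ ^ 2 / 8))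
            linarith
        _ = Real.exp (-(5000 * n * ‖z - z'‖ ^ 2)) := by ring_nf

end Vale.Agent.P230
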