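import Vale.Agent.P230.Defs

/-!
# The grid `δ ℤ^n` (module M7b)

`rnd δ w` rounds every coordinate down (`δ * ⌊w i / δ⌋`); the fibre of a grid point
is a half-open cube of volume `δ^n` and diameter `≤ √n δ`.  Volume comparison gives
`#(grid ∩ B(w,r)) δ^n = vol(rnd⁻¹ (grid ∩ B(w,r)))`, which lies between `vol B(w, r - √n δ)` and
`vol B(w, r + √n δ)`.
-/

open MeasureTheory Filter Finset

namespace Vale.Agent.P230

/-- The grid `δ ℤ^n`. -/
def grid (n : ℕ) (δ : ℝ) : Set (Sp n) := {z | ∀ i, ∃ k : ℤ, z i = δ * k}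

/-- Volume of the closed unit ball, as a real number. -/
noncomputable def vB (n : ℕ) : ℝ := (volume (Metric.closedBall (0 : Sp n) 1)).toReal

theorem vB_pos (n : ℕ) : 0 < vB n := by
  unfold vB
  refine ENNReal.toReal_pos ?_ ?_
  · exact (Metric.measure_closedBall_pos volume _ one_pos).ne'
  · exact measure_closedBall_lt_top.ne

theorem volume_closedBall_eq {n : ℕ} (hn : 0 < n) (w : Sp n) {r : ℝ} (hr : 0 ≤ r) :
    (volume (Metric.closedBall w r)).toReal = r ^ n * vB n := by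
  have _ := hn
  unfold vB
  have h1 := Measure.addHaar_closedBall_mul volume w hr (zero_le_one (α := ℝ))
  rw [mul_one] at h1
  rw [h1, ENNReal.toReal_mul, ENNReal.toReal_ofReal (by positivity)]
  simp

theorem grid_sub {n : ℕ} {δ : ℝ} {x y : Sp n} (hx : x ∈ grid n δ) (hy : y ∈ grid n δ) :
    x - y ∈ grid n δ := by
  intro i
  obtain ⟨k, hk⟩ := hx i
  obtain ⟨l, hl⟩ := hy i
  exact ⟨k - l, by simp [hk, hl]; ring⟩

/-- Round every coordinate down to the grid. -/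
noncomputable def rnd {n : ℕ} (δ : ℝ) (w : Sp n) : Sp n :=
  WithLp.toLp 2 (fun i => δ * (⌊w i / δ⌋ : ℝ))

theorem rnd_mem {n : ℕ} (δ : ℝ) (w : Sp n) : rnd δ w ∈ grid n δ := fun i => ⟨⌊w i / δ⌋, rfl⟩

/-- The half open cell of a grid point. -/
def cell {n : ℕ} (δ : ℝ) (z : Sp n) : Set (Sp n) := {x | ∀ i, z i ≤ x i ∧ x i < z i + δ}

theorem mem_cell_rnd {n : ℕ} {δ : ℝ} (hδ : 0 < δ) (w : Sp n) : w ∈ cell δ (rnd δ w) := by
  intro i
  have h1 := Int.floor_le (w i / δ)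
  have h2 := Int.lt_floor_add_one (w i / δ)
  rw [le_div_iff₀ hδ] at h1
  rw [div_lt_iff₀ hδ] at h2
  change δ * (⌊w i / δ⌋ : ℝ) ≤ w i ∧ w i < δ * (⌊w i / δ⌋ : ℝ) + δ
  constructor <;> linarith

theorem norm_sub_of_cell {n : ℕ} {δ : ℝ} (hδ : 0 < δ) {z w : Sp n} (h : w ∈ cell δ z) :
    ‖z - w‖ ≤ Real.sqrt n * δ := by
  have h1 : ‖z - w‖ ^ 2 ≤ (Real.sqrt n * δ) ^ 2 := by
    rw [EuclideanSpace.real_norm_sq_eq, mul_pow, Real.sq_sqrt (Nat.cast_nonneg n)]
    calc ∑ i, (z - w) i ^ 2 ≤ ∑ _i : Fin n, δ ^ 2 := by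
          refine Finset.sum_le_sum fun i _ => ?_
          have := h i
          have e : (z - w) i = z i - w i := rfl
          rw [e]
          nlinarith
      _ = n * δ ^ 2 := by simp
  exact (abs_le_of_sq_le_sq' h1 (by positivity)).2

theorem grid_round {n : ℕ} {δ : ℝ} (hδ : 0 < δ) (w : Sp n) :
    ∃ z ∈ grid n δ, ‖z - w‖ ≤ Real.sqrt n * δ :=
  ⟨rnd δ w, rnd_mem δ w, norm_sub_of_cell hδ (mem_cell_rnd hδ w)⟩

/-- The grid point with given integer coordinates. -/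
noncomputable def gpt {n : ℕ} (δ : ℝ) (k : Fin n → ℤ) : Sp n :=
  WithLp.toLp 2 (fun i => δ * (k i : ℝ))

theorem grid_subset_image {n : ℕ} {δ : ℝ} (hδ : 0 < δ) (w : Sp n) (r : ℝ) :
    grid n δ ∩ Metric.closedBall w r ⊆
      (gpt δ) '' (↑(Fintype.piFinset fun i => Finset.Icc ⌈(w i - r) / δ⌉ ⌊(w i + r) / δ⌋) :
        Set (Fin n → ℤ)) := by
  rintro z ⟨hz, hzr⟩
  choose k hk using hz
  refine ⟨k, ?_, ?_⟩
  · rw [Finset.mem_coe, Fintype.mem_piFinset]
    intro i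
    rw [Finset.mem_Icc, Int.ceil_le, Int.le_floor, div_le_iff₀ hδ, le_div_iff₀ hδ]
    have h1 : |z i - w i| ≤ r := by
      have h2 : ‖(z - w) i‖ ≤ ‖z - w‖ := PiLp.norm_apply_le (z - w) i
      rw [Metric.mem_closedBall, dist_eq_norm] at hzr
      exact h2.trans hzr
    rw [hk i] at h1
    obtain ⟨h3, h4⟩ := abs_le.mp h1
    constructor <;> linarith
  · ext i
    simp [gpt, hk i]

theorem grid_finite {n : ℕ} {δ : ℝ} (hδ : 0 < δ) (w : Sp n) (r : ℝ) :
    (grid n δ ∩ Metric.closedBall w r).Finite :=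
  ((Finset.finite_toSet _).image _).subset (grid_subset_image hδ w r)

theorem measurableSet_cell {n : ℕ} (δ : ℝ) (z : Sp n) : MeasurableSet (cell δ z) := by
  have : cell δ z = ⋂ i : Fin n, ({x : Sp n | z i ≤ x i} ∩ {x : Sp n | x i < z i + δ}) := by
    ext x; simp [cell]
  rw [this]
  refine MeasurableSet.iInter fun i => MeasurableSet.inter ?_ ?_
  · exact measurableSet_le measurable_const (by fun_prop)
  · exact measurableSet_lt (by fun_prop) measurable_const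

theorem volume_cell {n : ℕ} {δ : ℝ} (hδ : 0 < δ) (z : Sp n) :
    volume (cell δ z) = ENNReal.ofReal (δ ^ n) := by
  have hpre : cell δ z = (@WithLp.ofLp 2 (Fin n → ℝ)) ⁻¹'
      (Set.pi Set.univ fun i => Set.Ico (z i) (z i + δ)) := by
    ext x; simp [cell]
  rw [hpre, (PiLp.volume_preserving_ofLp (Fin n)).measure_preimage
    (MeasurableSet.univ_pi fun i => measurableSet_Ico).nullMeasurableSet, volume_pi_pi]
  simp [ENNReal.ofReal_pow hδ.le]

theorem cell_disjoint {n : ℕ} {δ : ℝ} (hδ : 0 < δ) {z z' : Sp n} (hz : z ∈ grid n δ)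
    (hz' : z' ∈ grid n δ) (hne : z ≠ z') : Disjoint (cell δ z) (cell δ z') := by
  rw [Set.disjoint_left]
  intro x hx hx'
  refine hne ?_
  ext i
  obtain ⟨k, hk⟩ := hz i
  obtain ⟨l, hl⟩ := hz' i
  obtain ⟨h1, h2⟩ := hx i
  obtain ⟨h3, h4⟩ := hx' i
  rw [hk] at h1 h2
  rw [hl] at h3 h4
  have e1 : (k : ℝ) < l + 1 := by
    by_contra hcon
    rw [not_lt] at hcon
    nlinarith
  have e2 : (l : ℝ) < k + 1 := by
    by_contra hcon
    rw [not_lt] at hcon
    nlinarith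
  have e3 : k = l := by
    have e1' : k < l + 1 := by exact_mod_cast e1
    have e2' : l < k + 1 := by exact_mod_cast e2
    omega
  rw [hk, hl, e3]

theorem volume_cells {n : ℕ} {δ : ℝ} (hδ : 0 < δ) (w : Sp n) (r : ℝ) :
    volume (⋃ z ∈ (grid_finite hδ w r).toFinset, cell δ z) =
      ENNReal.ofReal (((grid n δ ∩ Metric.closedBall w r).ncard : ℝ) * δ ^ n) := by
  have hG := grid_finite hδ w r
  rw [measure_biUnion_finset]
  · rw [Finset.sum_congr rfl fun z _ => volume_cell hδ z, Finset.sum_const,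
      ← Set.ncard_eq_toFinset_card _ hG, nsmul_eq_mul, ENNReal.ofReal_mul (Nat.cast_nonneg _),
      ENNReal.ofReal_natCast]
  · intro z hz z' hz' hne
    simp only [Set.Finite.coe_toFinset] at hz hz'
    exact cell_disjoint hδ hz.1 hz'.1 hne
  · intro z _
    exact measurableSet_cell δ z

theorem grid_card_le {n : ℕ} (hn : 0 < n) {δ : ℝ} (hδ : 0 < δ) (w : Sp n) {r : ℝ} (hr : 0 ≤ r) :
    ((grid n δ ∩ Metric.closedBall w r).ncard : ℝ) * δ ^ n ≤
      (r + Real.sqrt n * δ) ^ n * vB n := by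
  have hR : 0 ≤ r + Real.sqrt n * δ := by positivity
  rw [← volume_closedBall_eq hn w hR]
  have h0 : 0 ≤ ((grid n δ ∩ Metric.closedBall w r).ncard : ℝ) * δ ^ n := by positivity
  rw [← ENNReal.toReal_ofReal h0, ← volume_cells hδ w r]
  refine ENNReal.toReal_mono measure_closedBall_lt_top.ne (measure_mono ?_)
  refine Set.iUnion₂_subset fun z hz x hx => ?_
  rw [Set.Finite.mem_toFinset] at hz
  have h1 := norm_sub_of_cell hδ hx
  have h2 := hz.2
  rw [Metric.mem_closedBall] at h2 ⊢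
  calc dist x w ≤ dist x z + dist z w := dist_triangle _ _ _
    _ ≤ Real.sqrt n * δ + r := add_le_add (by rw [dist_comm, dist_eq_norm]; exact h1) h2
    _ = r + Real.sqrt n * δ := add_comm _ _

theorem grid_card_ge {n : ℕ} (hn : 0 < n) {δ : ℝ} (hδ : 0 < δ) (w : Sp n) {r : ℝ}
    (hr : Real.sqrt n * δ ≤ r) :
    (r - Real.sqrt n * δ) ^ n * vB n ≤
      ((grid n δ ∩ Metric.closedBall w r).ncard : ℝ) * δ ^ n := by
  rw [← volume_closedBall_eq hn w (sub_nonneg.mpr hr)]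
  have h0 : 0 ≤ ((grid n δ ∩ Metric.closedBall w r).ncard : ℝ) * δ ^ n := by positivity
  rw [← ENNReal.toReal_ofReal h0, ← volume_cells hδ w r]
  refine ENNReal.toReal_mono ?_ (measure_mono ?_)
  · rw [volume_cells hδ w r]; exact ENNReal.ofReal_ne_top
  · intro x hx
    rw [Metric.mem_closedBall] at hx
    rw [Set.mem_iUnion₂]
    refine ⟨rnd δ x, ?_, mem_cell_rnd hδ x⟩
    rw [Set.Finite.mem_toFinset]
    refine ⟨rnd_mem δ x, ?_⟩
    have h1 := norm_sub_of_cell hδ (mem_cell_rnd hδ x)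
    rw [Metric.mem_closedBall]
    calc dist (rnd δ x) w ≤ dist (rnd δ x) x + dist x w := dist_triangle _ _ _
      _ ≤ Real.sqrt n * δ + (r - Real.sqrt n * δ) :=
        add_le_add (by rw [dist_eq_norm]; exact h1) hx
      _ = r := by ring

/-- Crude bound used for the union bound over translate sets. -/
theorem grid_card_crude {n : ℕ} {δ : ℝ} (hδ : 0 < δ) {r : ℝ} (hr : 0 ≤ r) :
    ((grid n δ ∩ Metric.closedBall 0 r).ncard : ℝ) ≤ (2 * r / δ + 1) ^ n := by
  have h1 : (grid n δ ∩ Metric.closedBall 0 r).ncard ≤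
      (Fintype.piFinset fun i : Fin n => Finset.Icc ⌈((0 : Sp n) i - r) / δ⌉
        ⌊((0 : Sp n) i + r) / δ⌋).card := by
    refine (Set.ncard_le_ncard (grid_subset_image hδ 0 r) ((Finset.finite_toSet _).image _)).trans ?_
    refine (Set.ncard_image_le (Finset.finite_toSet _)).trans ?_
    rw [Set.ncard_coe_finset]
  have h2 : ∀ i : Fin n, (((Finset.Icc ⌈((0 : Sp n) i - r) / δ⌉
      ⌊((0 : Sp n) i + r) / δ⌋).card : ℕ) : ℝ) ≤ 2 * r / δ + 1 := by
    intro i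
    have e1 : ((0 : Sp n) i - r) / δ = -(r / δ) := by simp; ring
    have e2 : ((0 : Sp n) i + r) / δ = r / δ := by simp
    rw [e1, e2, Int.ceil_neg, Int.card_Icc]
    have h0 : 0 ≤ ⌊r / δ⌋ := Int.floor_nonneg.mpr (by positivity)
    have h3 : (((⌊r / δ⌋ + 1 - -⌊r / δ⌋).toNat : ℕ) : ℝ) = 2 * (⌊r / δ⌋ : ℝ) + 1 := by
      have h4 : (((⌊r / δ⌋ + 1 - -⌊r / δ⌋).toNat : ℕ) : ℤ) = 2 * ⌊r / δ⌋ + 1 := by
        rw [Int.toNat_of_nonneg (by omega)]; ring
      exact_mod_cast congrArg (Int.cast : ℤ → ℝ) h4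
    rw [h3]
    have h5 := Int.floor_le (r / δ)
    have : 2 * r / δ = 2 * (r / δ) := by ring
    linarith
  have h3 : ((grid n δ ∩ Metric.closedBall 0 r).ncard : ℝ) ≤
      (((Fintype.piFinset fun i : Fin n => Finset.Icc ⌈((0 : Sp n) i - r) / δ⌉
        ⌊((0 : Sp n) i + r) / δ⌋).card : ℕ) : ℝ) := Nat.cast_le.mpr h1
  refine h3.trans ?_
  rw [Fintype.card_piFinset, Nat.cast_prod]
  calc (∏ i : Fin n, (((Finset.Icc ⌈((0 : Sp n) i - r) / δ⌉
      ⌊((0 : Sp n) i + r) / δ⌋).card : ℕ) : ℝ))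
      ≤ ∏ _i : Fin n, (2 * r / δ + 1) := Finset.prod_le_prod (fun i _ => Nat.cast_nonneg _)
        fun i _ => h2 i
    _ = (2 * r / δ + 1) ^ n := by simp

end Vale.Agent.P230
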