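import Vale.Agent.P230.Defs
import Vale.Agent.P230.Bern
import Vale.Agent.P230.Gauss
import Vale.Agent.P230.Grid

/-!
# The random body (module M6)

`body a G ρ g S = {z : ‖z‖ ≤ 1 - ρ, ⟪g i, z⟫ ≤ a - G ρ for i ∈ S}` (`ρ` = rounding radius).

`body_prob`: for real `z` with `‖z‖ ≤ 1 - ρ` take `z' ∈ Z` with `‖z' - (1+s) z‖ ≤ ρ`.  If
`a - G ρ < ⟪g i, z⟫` then `⟪g i, z'⟫ ≥ (1+s)⟪g i,z⟫ - Gρ > (1+s)(a - Gρ) - Gρ ≥ a`, and
`‖z'‖ ≤ (1+s)(1-ρ) + ρ ≤ 1+s`.  So `Pr (z ∉ body) ≤ Pr (S ∩ {i : a < ⟪g i,z'⟫} ≠ ∅) ≤ 1/3`, hence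
`E vol(body) ≥ (2/3) (1-ρ)^n vB ≥ vB/2` (finite sum over `S` exchanged with the integral), and
`vol(body) ≤ vB`, so `Pr (vol(body) ≥ vB/4) ≥ 1/4`.
-/

open MeasureTheory Filter Finset

namespace Vale.Agent.P230

/-- The body cut out by the halfspaces in `S`, shrunk by the rounding radius `ρ`. -/
def body {n N : ℕ} (a G ρ : ℝ) (g : Fin N → Sp n) (S : Finset (Fin N)) : Set (Sp n) :=
  {z | ‖z‖ ≤ 1 - ρ ∧ ∀ i ∈ S, inner ℝ (g i) z ≤ a - G * ρ}

theorem body_subset {n N : ℕ} {a G ρ : ℝ} (hρ : 0 ≤ ρ) (g : Fin N → Sp n) (S : Finset (Fin N)) :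
    body a G ρ g S ⊆ Metric.closedBall 0 1 := by
  intro z hz
  rw [Metric.mem_closedBall, dist_zero_right]
  linarith [hz.1]

theorem body_isClosed {n N : ℕ} (a G ρ : ℝ) (g : Fin N → Sp n) (S : Finset (Fin N)) :
    IsClosed (body a G ρ g S) := by
  have h1 : IsClosed {z : Sp n | ‖z‖ ≤ 1 - ρ} := isClosed_le continuous_norm continuous_const
  have h2 : IsClosed {z : Sp n | ∀ i ∈ S, inner ℝ (g i) z ≤ a - G * ρ} := by
    have : {z : Sp n | ∀ i ∈ S, inner ℝ (g i) z ≤ a - G * ρ} =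
        ⋂ i ∈ S, {z : Sp n | inner ℝ (g i) z ≤ a - G * ρ} := by
      ext z
      simp
    rw [this]
    exact isClosed_biInter fun i _ =>
      isClosed_le (continuous_const.inner continuous_id) continuous_const
  exact h1.inter h2

theorem body_convexBody {n N : ℕ} {a G ρ : ℝ} (hρ : 0 ≤ ρ) (hρ1 : ρ < 1) (hG : 0 ≤ G)
    (hGρ : G * ρ < a)
    (g : Fin N → Sp n) (hg : ∀ i, ‖g i‖ ≤ G) (S : Finset (Fin N)) :
    IsConvexBody (body a G ρ g S) := by
  refine ⟨?_, ?_, ?_⟩
  · intro x hx y hy s t hs ht hst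
    refine ⟨?_, ?_⟩
    · calc ‖s • x + t • y‖ ≤ ‖s • x‖ + ‖t • y‖ := norm_add_le _ _
        _ = s * ‖x‖ + t * ‖y‖ := by
          rw [norm_smul, norm_smul, Real.norm_of_nonneg hs, Real.norm_of_nonneg ht]
        _ ≤ s * (1 - ρ) + t * (1 - ρ) := by
          gcongr
          · exact hx.1
          · exact hy.1
        _ = 1 - ρ := by rw [← add_mul, hst, one_mul]
    · intro i hi
      rw [inner_add_right, inner_smul_right, inner_smul_right]
      calc s * inner ℝ (g i) x + t * inner ℝ (g i) y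
          ≤ s * (a - G * ρ) + t * (a - G * ρ) := by
            gcongr
            · exact hx.2 i hi
            · exact hy.2 i hi
        _ = a - G * ρ := by rw [← add_mul, hst, one_mul]
  · exact (isCompact_closedBall (0 : Sp n) 1).of_isClosed_subset (body_isClosed a G ρ g S)
      (body_subset hρ g S)
  · set r : ℝ := min (1 - ρ) ((a - G * ρ) / (G + 1)) with hr
    have hr0 : 0 < r := lt_min (by linarith) (div_pos (by linarith) (by linarith))
    have hsub : Metric.ball (0 : Sp n) r ⊆ body a G ρ g S := by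
      intro z hz
      rw [mem_ball_zero_iff] at hz
      refine ⟨(hz.trans_le (min_le_left _ _)).le, fun i _ => ?_⟩
      have h1 : ‖z‖ ≤ (a - G * ρ) / (G + 1) := (hz.trans_le (min_le_right _ _)).le
      calc inner ℝ (g i) z ≤ ‖g i‖ * ‖z‖ := real_inner_le_norm _ _
        _ ≤ (G + 1) * ((a - G * ρ) / (G + 1)) := by
          gcongr
          linarith [hg i]
        _ = a - G * ρ := by field_simp
    exact ⟨0, mem_interior.mpr ⟨_, hsub, Metric.isOpen_ball, Metric.mem_ball_self hr0⟩⟩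

theorem body_round {n N : ℕ} {a G ρ : ℝ} (g : Fin N → Sp n) (hg : ∀ i, ‖g i‖ ≤ G)
    (S : Finset (Fin N)) {x t t' : Sp n} (ht : ‖t - t'‖ ≤ ρ) (h : x - t ∈ body a G ρ g S) :
    ‖x - t'‖ ≤ 1 ∧ ∀ i ∈ S, inner ℝ (g i) (x - t') ≤ a := by
  have hx : x - t' = (x - t) + (t - t') := by abel
  refine ⟨?_, fun i hi => ?_⟩
  · rw [hx]
    calc ‖(x - t) + (t - t')‖ ≤ ‖x - t‖ + ‖t - t'‖ := norm_add_le _ _
      _ ≤ (1 - ρ) + ρ := add_le_add h.1 ht
      _ = 1 := by ring
  · rw [hx, inner_add_right]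
    have h1 : inner ℝ (g i) (t - t') ≤ G * ρ :=
      (real_inner_le_norm _ _).trans
        (mul_le_mul (hg i) ht (norm_nonneg _) ((norm_nonneg _).trans (hg i)))
    have h2 := h.2 i hi
    linarith

/-- Pointwise bound: every point of the smaller ball is in the body with probability `≥ 2/3`. -/
theorem body_mem_prob {n N : ℕ} {a G ρ s : ℝ} (hρ : 0 ≤ ρ) (hG : 0 ≤ G)
    (hs : 0 ≤ s) (hs1 : s ≤ 1) (hsa : 2 * G * ρ ≤ s * (a - G * ρ))
    (μ : Fin N → ℝ) (hμ : ∀ i, 0 ≤ μ i) (g : Fin N → Sp n) (hg : ∀ i, ‖g i‖ ≤ G)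
    (Z : Finset (Sp n)) (hZ : ∀ w : Sp n, ‖w‖ ≤ 2 → ∃ z ∈ Z, ‖z - w‖ ≤ ρ)
    (hup : ∀ z ∈ Z, ‖z‖ ≤ 1 + s → ∑ i with a < inner ℝ (g i) z, μ i ≤ 1 / 3)
    {z : Sp n} (hz : ‖z‖ ≤ 1 - ρ) :
    2 / 3 ≤ Pr (qq 1 μ) univ (fun S => z ∈ body a G ρ g S) := by
  have hval : Valid (qq 1 μ) := valid_qq zero_le_one hμ
  have hn2 : ‖(1 + s) • z‖ ≤ 2 := by
    rw [norm_smul, Real.norm_of_nonneg (by linarith)]
    nlinarith [norm_nonneg z]
  obtain ⟨z', hz'Z, hz'⟩ := hZ ((1 + s) • z) hn2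
  have hz'n : ‖z'‖ ≤ 1 + s := by
    have h1 : z' = (z' - (1 + s) • z) + (1 + s) • z := by abel
    rw [h1]
    calc ‖(z' - (1 + s) • z) + (1 + s) • z‖ ≤ ‖z' - (1 + s) • z‖ + ‖(1 + s) • z‖ :=
          norm_add_le _ _
      _ ≤ ρ + (1 + s) * (1 - ρ) := by
          rw [norm_smul (1 + s) z, Real.norm_of_nonneg (by linarith : (0 : ℝ) ≤ 1 + s)]
          have : (1 + s) * ‖z‖ ≤ (1 + s) * (1 - ρ) :=
            mul_le_mul_of_nonneg_left hz (by linarith)
          linarith
      _ ≤ 1 + s := by nlinarith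
  have hsum := hup z' hz'Z hz'n
  set W : Finset (Fin N) := univ.filter (fun i => a < inner ℝ (g i) z') with hW
  have hhit : Pr (qq 1 μ) univ (fun S => (S ∩ W).Nonempty) ≤ 1 / 3 := by
    rw [Pr_hit_qq]
    have h1 := Real.add_one_le_exp (-(1 * ∑ i ∈ W, μ i))
    linarith
  have hsub : Pr (qq 1 μ) univ (fun S => ¬ z ∈ body a G ρ g S) ≤
      Pr (qq 1 μ) univ (fun S => (S ∩ W).Nonempty) := by
    apply Pr_mono hval
    intro S _ hS
    have hS' : ∃ i ∈ S, a - G * ρ < inner ℝ (g i) z := by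
      by_contra hcon
      push Not at hcon
      exact hS ⟨hz, hcon⟩
    obtain ⟨i, hiS, hi⟩ := hS'
    refine ⟨i, Finset.mem_inter.mpr ⟨hiS, ?_⟩⟩
    rw [hW, Finset.mem_filter]
    refine ⟨Finset.mem_univ _, ?_⟩
    have h1 : z' = (1 + s) • z + (z' - (1 + s) • z) := by abel
    rw [h1, inner_add_right, inner_smul_right]
    have h2 : -(G * ρ) ≤ inner ℝ (g i) (z' - (1 + s) • z) := by
      have h3 : |inner ℝ (g i) (z' - (1 + s) • z)| ≤ G * ρ :=
        (abs_real_inner_le_norm _ _).trans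
          (mul_le_mul (hg i) hz' (norm_nonneg _) hG)
      exact (abs_le.mp h3).1
    have h4 : (1 + s) * (a - G * ρ) < (1 + s) * inner ℝ (g i) z :=
      mul_lt_mul_of_pos_left hi (by linarith)
    nlinarith
  have hnot := Pr_not (qq 1 μ) univ (fun S => z ∈ body a G ρ g S)
  linarith

theorem body_prob {n N : ℕ} (hn : 0 < n) {a G ρ s : ℝ} (hρ : 0 ≤ ρ) (hρ1 : ρ < 1) (hG : 0 ≤ G)
    (hs : 0 ≤ s) (hs1 : s ≤ 1) (hGρ : G * ρ < a) (hsa : 2 * G * ρ ≤ s * (a - G * ρ))
    (hρn : 3 / 4 ≤ (1 - ρ) ^ n)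
    (μ : Fin N → ℝ) (hμ : ∀ i, 0 ≤ μ i) (g : Fin N → Sp n) (hg : ∀ i, ‖g i‖ ≤ G)
    (Z : Finset (Sp n)) (hZ : ∀ w : Sp n, ‖w‖ ≤ 2 → ∃ z ∈ Z, ‖z - w‖ ≤ ρ)
    (hup : ∀ z ∈ Z, ‖z‖ ≤ 1 + s → ∑ i with a < inner ℝ (g i) z, μ i ≤ 1 / 3) :
    1 / 4 ≤ Pr (qq 1 μ) univ (fun S => vB n / 4 ≤ (volume (body a G ρ g S)).toReal) := by
  classical
  have hval : Valid (qq 1 μ) := valid_qq zero_le_one hμ
  have hvB : 0 < vB n := vB_pos n
  set B : Set (Sp n) := Metric.closedBall 0 (1 - ρ) with hB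
  have hBfin : volume B < ⊤ := measure_closedBall_lt_top
  have hBvol : (volume B).toReal = (1 - ρ) ^ n * vB n :=
    volume_closedBall_eq hn 0 (by linarith)
  have hBmeas : MeasurableSet B := measurableSet_closedBall
  have hsubB : ∀ S, body a G ρ g S ⊆ B := by
    intro S z hz
    rw [hB, mem_closedBall_zero_iff]
    exact hz.1
  have hmeas : ∀ S, MeasurableSet (body a G ρ g S) := fun S =>
    (body_isClosed a G ρ g S).measurableSet
  -- volume as an integral
  have hvol : ∀ S, (volume (body a G ρ g S)).toReal =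
      ∫ z in B, (if z ∈ body a G ρ g S then (1 : ℝ) else 0) := by
    intro S
    have h1 : (fun z => if z ∈ body a G ρ g S then (1 : ℝ) else 0) =
        (body a G ρ g S).indicator (fun _ => (1 : ℝ)) := by
      ext z
      simp [Set.indicator_apply]
    rw [h1, integral_indicator (hmeas S), Measure.restrict_restrict (hmeas S),
      Set.inter_eq_left.mpr (hsubB S)]
    simp [Measure.real]
  have hint : ∀ S, IntegrableOn (fun z => if z ∈ body a G ρ g S then (1 : ℝ) else 0) B := by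
    intro S
    have h1 : (fun z => if z ∈ body a G ρ g S then (1 : ℝ) else 0) =
        (body a G ρ g S).indicator (fun _ => (1 : ℝ)) := by
      ext z
      simp [Set.indicator_apply]
    rw [h1]
    exact (integrableOn_const hBfin.ne).indicator (hmeas S)
  -- expected volume
  have hE : Ex (qq 1 μ) univ (fun S => (volume (body a G ρ g S)).toReal) =
      ∫ z in B, Pr (qq 1 μ) univ (fun S => z ∈ body a G ρ g S) := by
    have h2 : ∀ z, Pr (qq 1 μ) univ (fun S => z ∈ body a G ρ g S) =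
        ∑ S ∈ (univ : Finset (Fin N)).powerset,
          (∏ i ∈ S, (1 - qq 1 μ i)) * (∏ i ∈ univ \ S, qq 1 μ i) *
            (if z ∈ body a G ρ g S then (1 : ℝ) else 0) := by
      intro z
      unfold Pr Ex
      apply Finset.sum_congr rfl
      intro S _
      congr 1
    simp only [h2]
    rw [integral_finsetSum _ (fun S _ => (hint S).const_mul _)]
    unfold Ex
    apply Finset.sum_congr rfl
    intro S _
    rw [integral_const_mul]
    simp only [hvol S]
  have hElow : vB n / 2 ≤ Ex (qq 1 μ) univ (fun S => (volume (body a G ρ g S)).toReal) := by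
    rw [hE]
    have hPint : IntegrableOn (fun z => Pr (qq 1 μ) univ (fun S => z ∈ body a G ρ g S)) B := by
      have h2 : (fun z => Pr (qq 1 μ) univ (fun S => z ∈ body a G ρ g S)) = fun z =>
          ∑ S ∈ (univ : Finset (Fin N)).powerset,
            (∏ i ∈ S, (1 - qq 1 μ i)) * (∏ i ∈ univ \ S, qq 1 μ i) *
              (if z ∈ body a G ρ g S then (1 : ℝ) else 0) := by
        funext z
        unfold Pr Ex
        apply Finset.sum_congr rfl
        intro S _
        congr 1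
      rw [h2]
      exact integrable_finsetSum _ (fun S _ => (hint S).const_mul _)
    calc vB n / 2 ≤ ((1 - ρ) ^ n * vB n) * (2 / 3) := by nlinarith
      _ = ∫ _ in B, (2 / 3 : ℝ) := by
          rw [setIntegral_const, Measure.real, hBvol, smul_eq_mul]
      _ ≤ ∫ z in B, Pr (qq 1 μ) univ (fun S => z ∈ body a G ρ g S) := by
          apply setIntegral_mono_on (integrableOn_const hBfin.ne) hPint hBmeas
          intro z hz
          rw [hB, mem_closedBall_zero_iff] at hz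
          exact body_mem_prob hρ hG hs hs1 hsa μ hμ g hg Z hZ hup hz
  -- upper bound of the expectation
  have hvolle : ∀ S, (volume (body a G ρ g S)).toReal ≤ vB n := by
    intro S
    exact ENNReal.toReal_mono measure_closedBall_lt_top.ne (measure_mono (body_subset hρ g S))
  have hEup : Ex (qq 1 μ) univ (fun S => (volume (body a G ρ g S)).toReal) ≤
      vB n * Pr (qq 1 μ) univ (fun S => vB n / 4 ≤ (volume (body a G ρ g S)).toReal) +
        vB n / 4 := by
    unfold Pr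
    rw [← Ex_const_mul]
    have h3 := Ex_const (qq 1 μ) (univ : Finset (Fin N)) (vB n / 4)
    rw [← h3, ← Ex_add]
    rw [h3]
    apply Ex_mono hval
    intro S _
    by_cases h : vB n / 4 ≤ (volume (body a G ρ g S)).toReal
    · simp only [h, if_true]
      have := hvolle S
      linarith
    · simp only [h, if_false]
      push Not at h
      linarith
  have h5 : vB n * (1 / 4) ≤
      vB n * Pr (qq 1 μ) univ (fun S => vB n / 4 ≤ (volume (body a G ρ g S)).toReal) := by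
    linarith
  exact le_of_mul_le_mul_left h5 hvB

end Vale.Agent.P230
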