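import Vale.Agent.P230.Bern

/-!
# Chain Janson inequality for increasing events (module M2)

`A k` (`k : κ`) increasing events, `A k` depends only on `S ∩ W k`.

Proof of `chain_step`: put `D S := ∀ k' ∈ l, ¬ A k' S` and `D' S := D (S \ W k)`.  `D → D'`
(the `A k'` are increasing).  `A k` and `D'` are independent (`Pr_indep`).
`A k ∧ D' ∧ ¬ D` implies for some `k' ∈ l` : `A k ∧ A k' ∧ ¬ A k' (S \ W k)` and hence
`S ∩ (W k ∩ W k') ≠ ∅` (otherwise `S ∩ W k' = (S \ W k) ∩ W k'`).  The event
`E = A k ∧ A k' ∧ (S ∩ (W k ∩ W k')).Nonempty` is increasing and `D'` is decreasing, so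
`Pr (E ∧ D') ≤ Pr E * Pr D'` (`Pr_harris_anti`).  So
`Pr (A k ∧ D) ≥ Pr D' * (Pr (A k) - ∑ Pr E) ` and `Pr D' ≥ Pr D`; now split on the sign of
the bracket `b` and use `1 - b ≤ exp (-b)`.
-/

open Finset

namespace Vale.Agent.P230

variable {ι κ : Type*} [DecidableEq ι]

/-- The sharing event. -/
def Share (A : κ → Finset ι → Prop) (W : κ → Finset ι) (k k' : κ) (S : Finset ι) : Prop :=
  A k S ∧ A k' S ∧ (S ∩ (W k ∩ W k')).Nonempty

theorem Pr_exists_list_le {q : ι → ℝ} (hq : Valid q) (V : Finset ι) (l : List κ)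
    (B : κ → Finset ι → Prop) :
    Pr q V (fun S => ∃ k ∈ l, B k S) ≤ (l.map (fun k => Pr q V (B k))).sum := by
  induction l with
  | nil =>
    simp only [List.not_mem_nil, false_and, exists_false, List.map_nil, List.sum_nil]
    rw [Pr_false]
  | cons k l ih =>
    rw [List.map_cons, List.sum_cons]
    calc Pr q V (fun S => ∃ k' ∈ k :: l, B k' S)
        = Pr q V (fun S => B k S ∨ ∃ k' ∈ l, B k' S) := by
          refine Pr_congr fun S _ => ?_
          simp only [List.mem_cons, exists_eq_or_imp]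
      _ ≤ Pr q V (B k) + Pr q V (fun S => ∃ k' ∈ l, B k' S) := Pr_or_le hq V _ _
      _ ≤ _ := by linarith

theorem chain_step {q : ι → ℝ} (hq : Valid q) {V : Finset ι} (A : κ → Finset ι → Prop)
    (W : κ → Finset ι) (hA : ∀ k, Monotone (A k)) (hW : ∀ k S, A k S ↔ A k (S ∩ W k))
    (k : κ) (l : List κ) :
    Pr q V (fun S => ∀ k' ∈ k :: l, ¬ A k' S) ≤
      Pr q V (fun S => ∀ k' ∈ l, ¬ A k' S) *
        Real.exp (-(Pr q V (A k) - (l.map (fun k' => Pr q V (Share A W k k'))).sum)) := by
  set D : Finset ι → Prop := fun S => ∀ k' ∈ l, ¬ A k' S with hD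
  set D' : Finset ι → Prop := fun S => D (S \ W k) with hD'
  have hDD' : ∀ S, D S → D' S := by
    intro S h k' hk' hA'
    exact h k' hk' (hA k' Finset.sdiff_subset hA')
  have hD'anti : Antitone D' := by
    intro S T hST h k' hk' hA'
    exact h k' hk' (hA k' (Finset.sdiff_subset_sdiff hST (Finset.Subset.refl _)) hA')
  have hindep : Pr q V (fun S => A k S ∧ D' S) = Pr q V (A k) * Pr q V D' := by
    refine Pr_indep q (W := W k) (hW k) (fun S => ?_)
    simp only [hD']
    rw [Finset.sdiff_idem]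
  have hE : Pr q V (fun S => A k S ∧ D' S ∧ ¬ D S) ≤
      Pr q V D' * (l.map (fun k' => Pr q V (Share A W k k'))).sum := by
    calc Pr q V (fun S => A k S ∧ D' S ∧ ¬ D S)
        ≤ Pr q V (fun S => ∃ k' ∈ l, (Share A W k k' S ∧ D' S)) := by
          refine Pr_mono hq fun S _ hS => ?_
          obtain ⟨h1, h2, h3⟩ := hS
          simp only [hD] at h3
          push Not at h3
          obtain ⟨k', hk', hA'⟩ := h3
          refine ⟨k', hk', ⟨h1, hA', ?_⟩, h2⟩
          by_contra hne
          rw [Finset.not_nonempty_iff_eq_empty] at hne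
          apply h2 k' hk'
          rw [hW k']
          have he : (S \ W k) ∩ W k' = S ∩ W k' := by
            ext i
            simp only [Finset.mem_inter, Finset.mem_sdiff]
            constructor
            · rintro ⟨⟨a, _⟩, b⟩
              exact ⟨a, b⟩
            · rintro ⟨a, b⟩
              refine ⟨⟨a, fun c => ?_⟩, b⟩
              have : i ∈ S ∩ (W k ∩ W k') :=
                Finset.mem_inter.2 ⟨a, Finset.mem_inter.2 ⟨c, b⟩⟩
              rw [hne] at this
              exact absurd this (Finset.notMem_empty i)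
          rw [he, ← hW k']
          exact hA'
      _ ≤ (l.map (fun k' => Pr q V (fun S => Share A W k k' S ∧ D' S))).sum :=
          Pr_exists_list_le hq V l _
      _ ≤ (l.map (fun k' => Pr q V (Share A W k k') * Pr q V D')).sum := by
          refine List.sum_le_sum (fun k' _ => ?_)
          refine Pr_harris_anti hq ?_ hD'anti
          intro S T hST h
          refine ⟨hA k hST h.1, hA k' hST h.2.1, ?_⟩
          exact h.2.2.mono (Finset.inter_subset_inter hST (Finset.Subset.refl _))
      _ = Pr q V D' * (l.map (fun k' => Pr q V (Share A W k k'))).sum := by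
          rw [List.sum_map_mul_right, mul_comm]
  have hsplit : Pr q V (fun S => A k S ∧ D' S) ≤
      Pr q V (fun S => A k S ∧ D S) + Pr q V (fun S => A k S ∧ D' S ∧ ¬ D S) := by
    calc Pr q V (fun S => A k S ∧ D' S)
        ≤ Pr q V (fun S => (A k S ∧ D S) ∨ (A k S ∧ D' S ∧ ¬ D S)) := by
          refine Pr_mono hq fun S _ hS => ?_
          by_cases h : D S
          · exact Or.inl ⟨hS.1, h⟩
          · exact Or.inr ⟨hS.1, hS.2, h⟩
      _ ≤ _ := Pr_or_le hq V _ _
  have hcons : Pr q V (fun S => ∀ k' ∈ k :: l, ¬ A k' S) =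
      Pr q V D - Pr q V (fun S => A k S ∧ D S) := by
    calc Pr q V (fun S => ∀ k' ∈ k :: l, ¬ A k' S)
        = Pr q V (fun S => D S ∧ ¬ A k S) := by
          refine Pr_congr fun S _ => ?_
          simp only [List.mem_cons, forall_eq_or_imp, hD]
          exact and_comm
      _ = Pr q V D - Pr q V (fun S => D S ∧ A k S) := Pr_and_not q V _ _
      _ = _ := by
          congr 1
          exact Pr_congr fun S _ => and_comm
  set b : ℝ := Pr q V (A k) - (l.map (fun k' => Pr q V (Share A W k k'))).sum with hb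
  have hP0 : 0 ≤ Pr q V D := Pr_nonneg hq V _
  have hPD : Pr q V D ≤ Pr q V D' := Pr_mono hq fun S _ h => hDD' S h
  have hAD : 0 ≤ Pr q V (fun S => A k S ∧ D S) := Pr_nonneg hq V _
  have hmain : Pr q V D' * b ≤ Pr q V (fun S => A k S ∧ D S) := by
    rw [hb, mul_sub]
    have := hindep
    nlinarith
  rw [hcons]
  by_cases hb0 : 0 ≤ b
  · have h1 : Pr q V D * b ≤ Pr q V D' * b := mul_le_mul_of_nonneg_right hPD hb0
    have h2 : 1 - b ≤ Real.exp (-b) := by
      have := Real.add_one_le_exp (-b)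
      linarith
    have h3 := mul_le_mul_of_nonneg_left h2 hP0
    nlinarith
  · push Not at hb0
    have h2 : 1 ≤ Real.exp (-b) := by
      rw [Real.one_le_exp_iff]
      linarith
    have h3 := mul_le_mul_of_nonneg_left h2 hP0
    linarith

theorem chain_list {q : ι → ℝ} (hq : Valid q) {V : Finset ι} (A : κ → Finset ι → Prop)
    (W : κ → Finset ι) (hA : ∀ k, Monotone (A k)) (hW : ∀ k S, A k S ↔ A k (S ∩ W k))
    (G : Finset κ) (hG : G.Nonempty) {α s : ℝ} (hα : ∀ k ∈ G, α ≤ Pr q V (A k))
    (hrow : ∀ k' ∈ G, ∑ k ∈ G, Pr q V (Share A W k k') ≤ G.card * (s * α ^ 2)) (L : ℕ) :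
    ∃ l : List κ, l.length = L ∧ (∀ k ∈ l, k ∈ G) ∧
      Pr q V (fun S => ∀ k ∈ l, ¬ A k S) ≤
        Real.exp (-(L * α - s * α ^ 2 * (L * (L - 1) / 2))) := by
  induction L with
  | zero =>
    refine ⟨[], rfl, by simp, ?_⟩
    simp only [List.not_mem_nil, false_imp_iff, implies_true, Nat.cast_zero, zero_mul, zero_div,
      mul_zero, sub_zero, neg_zero, Real.exp_zero]
    exact Pr_le_one hq V _
  | succ L ih =>
    obtain ⟨l, hl, hlG, hlp⟩ := ih
    have hav : ∑ k ∈ G, (l.map (fun k' => Pr q V (Share A W k k'))).sum ≤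
        ∑ _k ∈ G, (L : ℝ) * (s * α ^ 2) := by
      rw [Finset.sum_const, nsmul_eq_mul]
      have h1 : ∀ l : List κ, (∀ k ∈ l, k ∈ G) →
          ∑ k ∈ G, (l.map (fun k' => Pr q V (Share A W k k'))).sum ≤
            (l.length : ℝ) * (G.card * (s * α ^ 2)) := by
        intro l
        induction l with
        | nil =>
          intro _
          simp
        | cons k0 l ih2 =>
          intro hl2
          simp only [List.map_cons, List.sum_cons, List.length_cons]
          rw [Finset.sum_add_distrib]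
          have e1 := hrow k0 (hl2 k0 List.mem_cons_self)
          have e2 := ih2 (fun k hk => hl2 k (List.mem_cons_of_mem _ hk))
          push_cast
          linarith
      have h2 := h1 l hlG
      rw [hl] at h2
      linarith
    obtain ⟨k, hkG, hk⟩ := Finset.exists_le_of_sum_le hG hav
    refine ⟨k :: l, by simp [hl], ?_, ?_⟩
    · intro k' hk'
      rcases List.mem_cons.1 hk' with h | h
      · rw [h]; exact hkG
      · exact hlG k' h
    · refine (chain_step hq A W hA hW k l).trans ?_
      have e1 := hα k hkG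
      calc Pr q V (fun S => ∀ k' ∈ l, ¬ A k' S) *
            Real.exp (-(Pr q V (A k) - (l.map (fun k' => Pr q V (Share A W k k'))).sum))
          ≤ Real.exp (-(L * α - s * α ^ 2 * (L * (L - 1) / 2))) *
            Real.exp (-(α - L * (s * α ^ 2))) := by
            refine mul_le_mul hlp ?_ (Real.exp_pos _).le (Real.exp_pos _).le
            rw [Real.exp_le_exp]
            linarith
        _ = Real.exp (-((L + 1 : ℕ) * α - s * α ^ 2 * ((L + 1 : ℕ) * ((L + 1 : ℕ) - 1) / 2))) := by
            rw [← Real.exp_add]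
            congr 1
            push_cast
            ring

/-- Greedy choice of a chain: if all rows `k'` have `∑_{k ∈ G} Pr (Share k k') ≤ |G| s α²`
(and `α ≤ Pr (A k)` on `G`), then some list of `L` elements of `G` has small probability.
(Choose the next `k ∈ G` minimising `∑_{k' ∈ l} Pr (Share k k')`, which is at most its average
over `G`, i.e. at most `l.length * s * α²`.) -/
theorem chain_greedy {q : ι → ℝ} (hq : Valid q) {V : Finset ι} (A : κ → Finset ι → Prop)
    (W : κ → Finset ι) (hA : ∀ k, Monotone (A k)) (hW : ∀ k S, A k S ↔ A k (S ∩ W k))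
    (G : Finset κ) (hG : G.Nonempty) {α s : ℝ} (hα : ∀ k ∈ G, α ≤ Pr q V (A k))
    (hrow : ∀ k' ∈ G, ∑ k ∈ G, Pr q V (Share A W k k') ≤ G.card * (s * α ^ 2)) (L : ℕ) :
    Pr q V (fun S => ∀ k ∈ G, ¬ A k S) ≤
      Real.exp (-(L * α - s * α ^ 2 * (L * (L - 1) / 2))) := by
  obtain ⟨l, _, hlG, hlp⟩ := chain_list hq A W hA hW G hG hα hrow L
  exact (Pr_mono hq fun S _ h k hk => h k (hlG k hk)).trans hlp

/-- The optimised form (`L = ⌈1/(s α)⌉`). -/
theorem chain_final {q : ι → ℝ} (hq : Valid q) {V : Finset ι} (A : κ → Finset ι → Prop)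
    (W : κ → Finset ι) (hA : ∀ k, Monotone (A k)) (hW : ∀ k S, A k S ↔ A k (S ∩ W k))
    (G : Finset κ) (hG : G.Nonempty) {α s : ℝ} (hα0 : 0 < α) (hs : 0 < s)
    (hα : ∀ k ∈ G, α ≤ Pr q V (A k))
    (hrow : ∀ k' ∈ G, ∑ k ∈ G, Pr q V (Share A W k k') ≤ G.card * (s * α ^ 2)) :
    Pr q V (fun S => ∀ k ∈ G, ¬ A k S) ≤ Real.exp (-(1 / (2 * s))) := by
  have h := chain_greedy hq A W hA hW G hG hα hrow ⌈1 / (s * α)⌉₊
  refine h.trans ?_
  rw [Real.exp_le_exp, neg_le_neg_iff]
  have hsα : 0 < s * α := mul_pos hs hα0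
  set L : ℝ := (⌈1 / (s * α)⌉₊ : ℝ) with hL
  have h1 : 1 / (s * α) ≤ L := Nat.le_ceil _
  have h2 : L < 1 / (s * α) + 1 := Nat.ceil_lt_add_one (by positivity)
  have h3 : 1 ≤ s * α * L := by
    rw [div_le_iff₀ hsα] at h1
    linarith
  have h4 : s * α * (L - 1) ≤ 1 := by
    have : L - 1 < 1 / (s * α) := by linarith
    rw [lt_div_iff₀ hsα] at this
    linarith
  rw [div_le_iff₀ (by positivity)]
  have h5 : 0 ≤ s * α * L := by linarith
  have h6 : 0 ≤ (s * α * L) * (1 - s * α * (L - 1)) := mul_nonneg h5 (by linarith)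
  nlinarith

end Vale.Agent.P230
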