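import Vale.Agent.P230.Bern

/-!
# Pair bound (part of module M4)

`pair_bound`: two increasing events `A, B`, depending on `S ∩ W`, `S ∩ W'`, both
`ψ`-smooth; `U = W ∩ W'`.  Condition on `S ∩ U = F` (`Ex_union` with `U`, `univ \ U`):
`Pr (A ∧ B | F) = Pr (A(F ∪ ·)) Pr (B (F ∪ ·)) ≤ e^{2ψ|F|} Pr A Pr B`, and
`E [e^{2ψ|F|} ; F ≠ ∅] = ∏ (q + (1-q) e^{2ψ}) - ∏ q ≤ e^{X} - (1 - b)`, `X = b (e^{2ψ} - 1) ≤ 1`,
`≤ 2X + b ≤ 2 e^{2ψ} b`.
-/

open Finset

namespace Vale.Agent.P230

set_option linter.unusedSectionVars false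

theorem pair_cond_le {ι : Type*} [DecidableEq ι] [Fintype ι] {q : ι → ℝ} (hq : Valid q)
    {A : Finset ι → Prop} (hA : Monotone A) (U F : Finset ι) :
    Pr q (univ \ U) (fun T => A (F ∪ T)) ≤ Pr q univ (fun S => A (S ∪ F)) := by
  have hU : U ∪ univ \ U = (univ : Finset ι) := Finset.union_sdiff_of_subset (subset_univ U)
  have hd : Disjoint U (univ \ U) := Finset.disjoint_sdiff
  have h1 : Pr q univ (fun S => A (S ∪ F)) =
      Ex q U (fun F' => Ex q (univ \ U) (fun T => indc (fun S => A (S ∪ F)) (F' ∪ T))) := by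
    conv_lhs => rw [← hU]
    rw [Pr_eq, Ex_union q hd]
  rw [h1, ← Ex_const q U (Pr q (univ \ U) (fun T => A (F ∪ T)))]
  refine Ex_mono hq fun F' _ => ?_
  rw [Pr_eq]
  refine Ex_mono hq fun T _ => ?_
  by_cases h : A (F ∪ T)
  · have h2 : A ((F' ∪ T) ∪ F) := by
      refine hA ?_ h
      intro i hi
      rw [Finset.mem_union] at hi
      rw [Finset.mem_union, Finset.mem_union]
      tauto
    rw [indc_pos (A := fun T => A (F ∪ T)) h, indc_pos (A := fun S => A (S ∪ F)) h2]
  · rw [indc_neg (A := fun T => A (F ∪ T)) h]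
    exact indc_nonneg _ _

theorem pair_cond_indep {ι : Type*} [DecidableEq ι] [Fintype ι] (q : ι → ℝ)
    {A B : Finset ι → Prop} {W W' : Finset ι}
    (hAW : ∀ S, A S ↔ A (S ∩ W)) (hBW : ∀ S, B S ↔ B (S ∩ W')) (F : Finset ι) :
    Ex q (univ \ (W ∩ W')) (fun T => indc A (F ∪ T) * indc B (F ∪ T)) =
      Pr q (univ \ (W ∩ W')) (fun T => A (F ∪ T)) *
        Pr q (univ \ (W ∩ W')) (fun T => B (F ∪ T)) := by
  set U := W ∩ W' with hU
  have hsd : ∀ T ⊆ univ \ U, T \ U = T := by
    intro T hT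
    apply Finset.sdiff_eq_self_of_disjoint
    rw [Finset.disjoint_left]
    intro i hi hiU
    exact (Finset.mem_sdiff.1 (hT hi)).2 hiU
  have hA' : ∀ S T : Finset ι, S ∩ W = T ∩ W → indc A S = indc A T := by
    intro S T h
    by_cases hS : A S
    · have hT : A T := by rw [hAW, ← h, ← hAW]; exact hS
      rw [indc_pos hS, indc_pos hT]
    · have hT : ¬ A T := by rw [hAW, ← h, ← hAW]; exact hS
      rw [indc_neg hS, indc_neg hT]
  have hB' : ∀ S T : Finset ι, S ∩ W' = T ∩ W' → indc B S = indc B T := by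
    intro S T h
    by_cases hS : B S
    · have hT : B T := by rw [hBW, ← h, ← hBW]; exact hS
      rw [indc_pos hS, indc_pos hT]
    · have hT : ¬ B T := by rw [hBW, ← h, ← hBW]; exact hS
      rw [indc_neg hS, indc_neg hT]
  have e1 : Ex q (univ \ U) (fun T => indc A (F ∪ T) * indc B (F ∪ T)) =
      Ex q (univ \ U) (fun T => indc A (F ∪ (T \ U)) * indc B (F ∪ (T \ U))) := by
    refine Ex_congr fun T hT => ?_
    rw [hsd T hT]
  have e2 : Pr q (univ \ U) (fun T => A (F ∪ T)) =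
      Ex q (univ \ U) (fun T => indc A (F ∪ (T \ U))) := by
    rw [Pr_eq]
    refine Ex_congr fun T hT => ?_
    rw [hsd T hT]
    rfl
  have e3 : Pr q (univ \ U) (fun T => B (F ∪ T)) =
      Ex q (univ \ U) (fun T => indc B (F ∪ (T \ U))) := by
    rw [Pr_eq]
    refine Ex_congr fun T hT => ?_
    rw [hsd T hT]
    rfl
  rw [e1, e2, e3]
  refine Ex_mul_indep q (W := W \ U) ?_ ?_
  · intro S
    apply hA'
    ext i
    simp only [hU, Finset.mem_inter, Finset.mem_union, Finset.mem_sdiff]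
    tauto
  · intro S
    apply hB'
    ext i
    simp only [hU, Finset.mem_inter, Finset.mem_union, Finset.mem_sdiff]
    tauto

theorem pair_gen {ι : Type*} [DecidableEq ι] (μ : ι → ℝ) (hμ : ∀ i, 0 ≤ μ i)
    {u : ℝ} (hu0 : 0 ≤ u) (hu1 : u ≤ 1) (U : Finset ι) {t b : ℝ} (ht : 1 ≤ t)
    (hb : ∑ i ∈ U, μ i ≤ b) (hb1 : t * b ≤ 1) :
    Ex (qq u μ) U (fun F => t ^ F.card) - Ex (qq u μ) U (fun F => indc (fun S => S = ∅) F) ≤
      2 * t * b := by
  have hsum0 : 0 ≤ ∑ i ∈ U, μ i := Finset.sum_nonneg fun i _ => hμ i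
  have hb0 : 0 ≤ b := hsum0.trans hb
  have h1 : Ex (qq u μ) U (fun F => t ^ F.card) ≤ Real.exp ((t - 1) * b) := by
    rw [Ex_pow_card]
    calc ∏ i ∈ U, (qq u μ i + (1 - qq u μ i) * t) ≤ ∏ i ∈ U, Real.exp ((t - 1) * μ i) := by
          refine Finset.prod_le_prod ?_ ?_
          · intro i _
            have hv := valid_qq hu0 hμ i
            have h2 : 0 ≤ (1 - qq u μ i) * t := mul_nonneg (by linarith [hv.2]) (by linarith)
            linarith [hv.1]
          · intro i _
            have hv := valid_qq hu0 hμ i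
            have h3 : 1 - qq u μ i ≤ μ i := by
              unfold qq
              have h4 := Real.add_one_le_exp (-(u * μ i))
              nlinarith [hμ i]
            have h5 : (1 - qq u μ i) * (t - 1) ≤ μ i * (t - 1) :=
              mul_le_mul_of_nonneg_right h3 (by linarith)
            have h6 := Real.add_one_le_exp ((t - 1) * μ i)
            nlinarith
      _ = Real.exp (∑ i ∈ U, (t - 1) * μ i) := (Real.exp_sum _ _).symm
      _ ≤ Real.exp ((t - 1) * b) := by
          rw [← Finset.mul_sum]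
          exact Real.exp_le_exp.mpr (mul_le_mul_of_nonneg_left hb (by linarith))
  have h2 : 1 - b ≤ Ex (qq u μ) U (fun F => indc (fun S => S = ∅) F) := by
    have e1 : Ex (qq u μ) U (fun F => indc (fun S => S = ∅) F) = ∏ i ∈ U, qq u μ i := by
      rw [← Pr_disjoint (qq u μ) (Finset.Subset.refl U), Pr_eq]
      refine Ex_congr fun S hS => ?_
      by_cases h : S = ∅
      · have h' : Disjoint S U := by rw [h]; exact Finset.disjoint_empty_left _
        rw [indc_pos (A := fun S => S = ∅) h, indc_pos (A := fun S => Disjoint S U) h']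
      · have h' : ¬ Disjoint S U := by
          intro hd
          apply h
          have := Finset.disjoint_of_subset_right hS hd
          rwa [Finset.disjoint_self_iff_empty] at this
        rw [indc_neg (A := fun S => S = ∅) h, indc_neg (A := fun S => Disjoint S U) h']
    rw [e1]
    have e2 : ∏ i ∈ U, qq u μ i = Real.exp (-(u * ∑ i ∈ U, μ i)) := by
      unfold qq
      rw [← Real.exp_sum, Finset.sum_neg_distrib, Finset.mul_sum]
    rw [e2]
    have h3 := Real.add_one_le_exp (-(u * ∑ i ∈ U, μ i))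
    nlinarith
  have hX0 : 0 ≤ (t - 1) * b := mul_nonneg (by linarith) hb0
  have hX1 : (t - 1) * b ≤ 1 := by nlinarith
  have h3 : Real.exp ((t - 1) * b) - 1 ≤ 2 * ((t - 1) * b) := by
    have h4 := Real.abs_exp_sub_one_le (x := (t - 1) * b) (by rw [abs_of_nonneg hX0]; exact hX1)
    rw [abs_of_nonneg hX0] at h4
    exact (le_abs_self _).trans h4
  nlinarith

theorem pair_bound {ι : Type*} [DecidableEq ι] [Fintype ι] (μ : ι → ℝ) (hμ : ∀ i, 0 ≤ μ i)
    {u : ℝ} (hu0 : 0 ≤ u) (hu1 : u ≤ 1) {A B : Finset ι → Prop} {W W' : Finset ι}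
    (hA : Monotone A) (hB : Monotone B) (hAW : ∀ S, A S ↔ A (S ∩ W))
    (hBW : ∀ S, B S ↔ B (S ∩ W')) {ψ b : ℝ} (hψ : 0 ≤ ψ)
    (hAs : ∀ F : Finset ι, Pr (qq u μ) univ (fun S => A (S ∪ F)) ≤
      Real.exp (ψ * F.card) * Pr (qq u μ) univ A)
    (hBs : ∀ F : Finset ι, Pr (qq u μ) univ (fun S => B (S ∪ F)) ≤
      Real.exp (ψ * F.card) * Pr (qq u μ) univ B)
    (hb : ∑ i ∈ W ∩ W', μ i ≤ b) (hb1 : Real.exp (2 * ψ) * b ≤ 1) :
    Pr (qq u μ) univ (fun S => A S ∧ B S ∧ (S ∩ (W ∩ W')).Nonempty) ≤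
      2 * Real.exp (2 * ψ) * b * (Pr (qq u μ) univ A * Pr (qq u μ) univ B) := by
  have hval : Valid (qq u μ) := valid_qq hu0 hμ
  set q : ι → ℝ := qq u μ with hqdef
  set U : Finset ι := W ∩ W' with hU
  set pA := Pr q univ A with hpA
  set pB := Pr q univ B with hpB
  have hpA0 : 0 ≤ pA := Pr_nonneg hval _ _
  have hpB0 : 0 ≤ pB := Pr_nonneg hval _ _
  have hUV : U ∪ univ \ U = (univ : Finset ι) := Finset.union_sdiff_of_subset (subset_univ U)
  have hd : Disjoint U (univ \ U) := Finset.disjoint_sdiff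
  have hcap : ∀ F ⊆ U, ∀ T ⊆ univ \ U, (F ∪ T) ∩ U = F := by
    intro F hF T hT
    ext i
    rw [Finset.mem_inter, Finset.mem_union]
    constructor
    · rintro ⟨h1 | h1, h2⟩
      · exact h1
      · exact absurd h2 (Finset.mem_sdiff.1 (hT h1)).2
    · intro h1
      exact ⟨Or.inl h1, hF h1⟩
  have h1 : Pr q univ (fun S => A S ∧ B S ∧ (S ∩ U).Nonempty) =
      Ex q U (fun F => indc (fun S => S.Nonempty) F *
        (Pr q (univ \ U) (fun T => A (F ∪ T)) * Pr q (univ \ U) (fun T => B (F ∪ T)))) := by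
    conv_lhs => rw [← hUV]
    rw [Pr_eq, Ex_union q hd]
    refine Ex_congr fun F hF => ?_
    rw [← pair_cond_indep q hAW hBW F, ← Ex_const_mul]
    refine Ex_congr fun T hT => ?_
    rw [indc_and A (fun S => B S ∧ (S ∩ U).Nonempty), indc_and B (fun S => (S ∩ U).Nonempty)]
    have e1 : indc (fun S => (S ∩ U).Nonempty) (F ∪ T) = indc (fun S => S.Nonempty) F := by
      have e0 := hcap F hF T hT
      by_cases hne : F.Nonempty
      · have hne' : ((F ∪ T) ∩ U).Nonempty := by rw [e0]; exact hne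
        rw [indc_pos (A := fun S => (S ∩ U).Nonempty) hne',
          indc_pos (A := fun S : Finset ι => S.Nonempty) hne]
      · have hne' : ¬ ((F ∪ T) ∩ U).Nonempty := by rw [e0]; exact hne
        rw [indc_neg (A := fun S => (S ∩ U).Nonempty) hne',
          indc_neg (A := fun S : Finset ι => S.Nonempty) hne]
    rw [e1]
    ring
  have h2 : Ex q U (fun F => indc (fun S => S.Nonempty) F *
        (Pr q (univ \ U) (fun T => A (F ∪ T)) * Pr q (univ \ U) (fun T => B (F ∪ T)))) ≤
      Ex q U (fun F => (pA * pB) *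
        ((Real.exp (2 * ψ)) ^ F.card + (-1) * indc (fun S => S = ∅) F)) := by
    refine Ex_mono hval fun F _ => ?_
    rcases Finset.eq_empty_or_nonempty F with h | h
    · rw [h, indc_neg (A := fun S : Finset ι => S.Nonempty) (by simp),
        indc_pos (A := fun S : Finset ι => S = ∅) rfl]
      simp
    · rw [indc_pos (A := fun S : Finset ι => S.Nonempty) h,
        indc_neg (A := fun S : Finset ι => S = ∅) h.ne_empty]
      have hAF : Pr q (univ \ U) (fun T => A (F ∪ T)) ≤ Real.exp (ψ * F.card) * pA :=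
        (pair_cond_le hval hA U F).trans (hAs F)
      have hBF : Pr q (univ \ U) (fun T => B (F ∪ T)) ≤ Real.exp (ψ * F.card) * pB :=
        (pair_cond_le hval hB U F).trans (hBs F)
      have hprod := mul_le_mul hAF hBF (Pr_nonneg hval _ _)
        (mul_nonneg (Real.exp_pos _).le hpA0)
      have hexp : (Real.exp (2 * ψ)) ^ F.card =
          Real.exp (ψ * F.card) * Real.exp (ψ * F.card) := by
        rw [← Real.exp_nat_mul, ← Real.exp_add]
        congr 1
        ring
      rw [hexp]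
      calc 1 * (Pr q (univ \ U) (fun T => A (F ∪ T)) * Pr q (univ \ U) (fun T => B (F ∪ T)))
          ≤ Real.exp (ψ * F.card) * pA * (Real.exp (ψ * F.card) * pB) := by
            rw [one_mul]; exact hprod
        _ = pA * pB * (Real.exp (ψ * F.card) * Real.exp (ψ * F.card) + (-1) * 0) := by ring
  have h3 : Ex q U (fun F => (pA * pB) *
        ((Real.exp (2 * ψ)) ^ F.card + (-1) * indc (fun S => S = ∅) F)) =
      (pA * pB) * (Ex q U (fun F => (Real.exp (2 * ψ)) ^ F.card) -
        Ex q U (fun F => indc (fun S => S = ∅) F)) := by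
    rw [Ex_const_mul, Ex_add, Ex_const_mul]
    ring
  have h4 := pair_gen μ hμ hu0 hu1 U (t := Real.exp (2 * ψ)) (b := b)
    (Real.one_le_exp (by linarith)) hb hb1
  rw [h1]
  refine h2.trans ?_
  rw [h3]
  calc (pA * pB) * (Ex q U (fun F => (Real.exp (2 * ψ)) ^ F.card) -
        Ex q U (fun F => indc (fun S => S = ∅) F))
      ≤ (pA * pB) * (2 * Real.exp (2 * ψ) * b) :=
        mul_le_mul_of_nonneg_left h4 (mul_nonneg hpA0 hpB0)
    _ = 2 * Real.exp (2 * ψ) * b * (pA * pB) := by ring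

end Vale.Agent.P230
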