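import Mathlib

/-!
# Pigeonhole on the level and on the dyadic size of the probability (part of module M4)
-/

open Finset

namespace Vale.Agent.P230

theorem pigeon {κ : Type*} [DecidableEq κ] (G : Finset κ) (hG : G.Nonempty) (lv : κ → ℕ)
    {H0 : ℕ} (hlv : ∀ x ∈ G, lv x < H0) (p : κ → ℝ) {Γ : ℝ}
    (hp : ∀ x ∈ G, Real.exp (-Γ) ≤ p x) (hp1 : ∀ x ∈ G, p x ≤ 1) :
    ∃ i < H0, ∃ α : ℝ, 0 < α ∧ ∃ G' ⊆ G, G'.Nonempty ∧
      (G.card : ℝ) ≤ H0 * (Γ + 1) * G'.card ∧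
      (∀ x ∈ G', lv x = i) ∧ (∀ x ∈ G', α ≤ p x) ∧ (∀ x ∈ G', p x ≤ Real.exp 1 * α) ∧
      1 / α ≤ Real.exp (Γ + 1) := by
  obtain ⟨x0, hx0⟩ := hG
  have hΓ : 0 ≤ Γ := by
    have h := (hp x0 hx0).trans (hp1 x0 hx0)
    rw [Real.exp_le_one_iff] at h
    linarith
  have hH0 : 0 < H0 := lt_of_le_of_lt (Nat.zero_le _) (hlv x0 hx0)
  have hH0' : (0 : ℝ) < H0 := by exact_mod_cast hH0
  have hlog0 : ∀ x ∈ G, 0 ≤ -Real.log (p x) := by
    intro x hx
    have h := Real.log_nonpos ((Real.exp_pos _).le.trans (hp x hx)) (hp1 x hx)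
    linarith
  have hlogΓ : ∀ x ∈ G, -Real.log (p x) ≤ Γ := by
    intro x hx
    have h := Real.log_le_log (Real.exp_pos _) (hp x hx)
    rw [Real.log_exp] at h
    linarith
  set f : κ → ℕ × ℕ := fun x => (lv x, ⌊-Real.log (p x)⌋₊) with hf
  set t : Finset (ℕ × ℕ) := range H0 ×ˢ range (⌊Γ⌋₊ + 1) with ht
  have hmaps : ∀ x ∈ G, f x ∈ t := by
    intro x hx
    rw [ht, Finset.mem_product, Finset.mem_range, Finset.mem_range]
    exact ⟨hlv x hx, Nat.lt_succ_of_le (Nat.floor_le_floor (hlogΓ x hx))⟩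
  have htcard : (t.card : ℝ) ≤ H0 * (Γ + 1) := by
    rw [ht, Finset.card_product, Finset.card_range, Finset.card_range]
    push_cast
    have := Nat.floor_le hΓ
    exact mul_le_mul_of_nonneg_left (by linarith) hH0'.le
  have htne : t.Nonempty := ⟨f x0, hmaps x0 hx0⟩
  have htpos : (0 : ℝ) < t.card := by exact_mod_cast htne.card_pos
  obtain ⟨y, -, hy⟩ := Finset.exists_le_card_fiber_of_nsmul_le_card_of_maps_to hmaps htne
    (b := (G.card : ℝ) / t.card) (by
      rw [nsmul_eq_mul]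
      exact le_of_eq (by field_simp))
  set G' : Finset κ := G.filter (fun x => f x = y) with hG'
  have hGpos : (0 : ℝ) < G.card := by exact_mod_cast (Finset.card_pos.mpr ⟨x0, hx0⟩)
  have hG'pos : (0 : ℝ) < G'.card := lt_of_lt_of_le (div_pos hGpos htpos) hy
  have hG'ne : G'.Nonempty := by
    rw [← Finset.card_pos]
    exact_mod_cast hG'pos
  obtain ⟨x1, hx1⟩ := hG'ne
  have hx1G : x1 ∈ G := (Finset.mem_filter.mp hx1).1
  have hx1y : f x1 = y := (Finset.mem_filter.mp hx1).2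
  refine ⟨y.1, ?_, Real.exp (-((y.2 : ℝ) + 1)), Real.exp_pos _, G', Finset.filter_subset _ _,
    ⟨x1, hx1⟩, ?_, ?_, ?_, ?_, ?_⟩
  · rw [← hx1y]
    exact hlv x1 hx1G
  · have h1 : (G.card : ℝ) ≤ G'.card * t.card := by
      rwa [div_le_iff₀ htpos] at hy
    calc (G.card : ℝ) ≤ G'.card * t.card := h1
      _ ≤ G'.card * (H0 * (Γ + 1)) := mul_le_mul_of_nonneg_left htcard hG'pos.le
      _ = H0 * (Γ + 1) * G'.card := by ring
  · intro x hx
    have h := (Finset.mem_filter.mp hx).2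
    rw [← h]
  · intro x hx
    have hxG := (Finset.mem_filter.mp hx).1
    have h := (Finset.mem_filter.mp hx).2
    have h2 : ⌊-Real.log (p x)⌋₊ = y.2 := by rw [← h]
    have h3 := Nat.lt_floor_add_one (-Real.log (p x))
    rw [h2] at h3
    have hpos : 0 < p x := lt_of_lt_of_le (Real.exp_pos _) (hp x hxG)
    calc Real.exp (-((y.2 : ℝ) + 1)) ≤ Real.exp (Real.log (p x)) :=
          Real.exp_le_exp.mpr (by linarith)
      _ = p x := Real.exp_log hpos
  · intro x hx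
    have hxG := (Finset.mem_filter.mp hx).1
    have h := (Finset.mem_filter.mp hx).2
    have h2 : ⌊-Real.log (p x)⌋₊ = y.2 := by rw [← h]
    have h3 := Nat.floor_le (hlog0 x hxG)
    rw [h2] at h3
    have hpos : 0 < p x := lt_of_lt_of_le (Real.exp_pos _) (hp x hxG)
    calc p x = Real.exp (Real.log (p x)) := (Real.exp_log hpos).symm
      _ ≤ Real.exp (1 + -((y.2 : ℝ) + 1)) := Real.exp_le_exp.mpr (by linarith)
      _ = Real.exp 1 * Real.exp (-((y.2 : ℝ) + 1)) := Real.exp_add _ _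
  · rw [one_div, ← Real.exp_neg, neg_neg]
    apply Real.exp_le_exp.mpr
    have h2 : ⌊-Real.log (p x1)⌋₊ = y.2 := by rw [← hx1y]
    have h3 := Nat.floor_le (hlog0 x1 hx1G)
    rw [h2] at h3
    linarith [hlogΓ x1 hx1G]

end Vale.Agent.P230
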