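import Vale.Agent.P230.Bern

/-!
# Lower bound for the probability of hitting all heavy constraints (part (d) of M3)
-/

open Finset

namespace Vale.Agent.P230

set_option linter.unusedSectionVars false

variable {ι τ : Type*} [DecidableEq ι] [Fintype ι] [DecidableEq τ]

theorem one_sub_exp_ge {t : ℝ} (h0 : 0 ≤ t) (h1 : t ≤ 1) : t / 2 ≤ 1 - Real.exp (-t) := by
  have h2 : Real.exp (-t) ≤ 1 - t / 2 := by
    have h3 : Real.exp t ≥ 1 + t + t ^ 2 / 2 := by
      have := Real.quadratic_le_exp_of_nonneg h0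
      linarith
    rw [Real.exp_neg, inv_le_comm₀ (Real.exp_pos t) (by linarith)]
    refine le_trans ?_ h3
    rw [inv_le_iff_one_le_mul₀ (by linarith)]
    nlinarith [mul_nonneg h0 (sub_nonneg.2 h1), mul_nonneg (mul_nonneg h0 h0) (sub_nonneg.2 h1)]
  linarith

/-- A set of mass at least `x / 2` is hit with probability at least `x / 8`. -/
theorem hit_lower (μ : ι → ℝ) (W : Finset ι) {u x : ℝ} (hu0 : 1 / 2 ≤ u) (hx0 : 0 ≤ x)
    (hx1 : x ≤ 1) (hW : x / 2 ≤ ∑ i ∈ W, μ i) :
    x / 8 ≤ Pr (qq u μ) univ (fun S => (S ∩ W).Nonempty) := by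
  rw [Pr_hit_qq]
  have h1 := one_sub_exp_ge (t := x / 4) (by linarith) (by linarith)
  have h2 : Real.exp (-(u * ∑ i ∈ W, μ i)) ≤ Real.exp (-(x / 4)) := by
    apply Real.exp_le_exp.2
    have : x / 4 ≤ u * ∑ i ∈ W, μ i := by
      calc x / 4 = 1 / 2 * (x / 2) := by ring
        _ ≤ u * ∑ i ∈ W, μ i := mul_le_mul hu0 hW (by linarith) (by linarith)
    linarith
  linarith

theorem monotone_hits (W : Finset ι) : Monotone (fun S : Finset ι => (S ∩ W).Nonempty) := by
  intro S T h hS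
  exact hS.mono (Finset.inter_subset_inter_right h)

theorem monotone_hits_all (K : Finset τ) (W : τ → Finset ι) :
    Monotone (fun S : Finset ι => ∀ j ∈ K, (S ∩ W j).Nonempty) := by
  intro S T h hS j hj
  exact monotone_hits (W j) h (hS j hj)

/-- Bernoulli inequality in exponential form. -/
theorem bern_exp {x R : ℝ} (hR : 1 ≤ R) : 1 - Real.exp (-(R * x)) ≤ R * (1 - Real.exp (-x)) := by
  have h := one_add_mul_self_le_rpow_one_add (s := Real.exp (-x) - 1)
    (by have := Real.exp_pos (-x); linarith) hR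
  have e1 : (1 + (Real.exp (-x) - 1)) ^ R = Real.exp (-(R * x)) := by
    rw [add_sub_cancel, ← Real.exp_mul]
    congr 1
    ring
  rw [e1] at h
  linarith

theorem heavy_lower_mass (μ : ι → ℝ) (hμ : ∀ i, 0 ≤ μ i) (J JH : Finset τ) (hJ : JH ⊆ J)
    (V : τ → Finset ι) (Hv : Finset ι) {lmin ls cL R d ψ u : ℝ} (hu0 : 1 / 2 ≤ u) (hu1 : u ≤ 1)
    (hlmin : 0 < lmin) (hls : 0 < ls) (hlmin1 : lmin ≤ 1) (hcL : 0 < cL) (hR1 : 1 ≤ R)
    (hd0 : 0 ≤ d)
    (h1 : ∀ j ∈ J, lmin ≤ ∑ i ∈ V j, μ i)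
    (h2 : ∀ j ∈ J, ∑ i ∈ V j, μ i ≤ 1)
    (hd : ((J.filter (fun j => ∑ i ∈ V j, μ i < ls)).card : ℝ) ≤ d)
    (hR : J.card * Real.exp (-(R * ls / 4)) ≤ 1 / 4)
    (hψ3 : 4 * R * (J.card / cL) * Real.log R + d * Real.log (8 / lmin) + Real.log 2 ≤ ψ / 2)
    (hHv : ∑ i ∈ Hv, μ i ≤ J.card / cL)
    (hJH : ∀ j ∈ JH, (∑ i ∈ V j, μ i) / 2 ≤ ∑ i ∈ V j ∩ Hv, μ i) :
    Real.exp (-(ψ / 2)) ≤
      Pr (qq u μ) univ (fun S => ∀ j ∈ JH, (S ∩ (V j ∩ Hv)).Nonempty) := by
  have hu : 0 ≤ u := by linarith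
  have hR0 : 0 < R := by linarith
  have hvq : Valid (qq u μ) := valid_qq hu hμ
  have hlogR : 0 ≤ Real.log R := Real.log_nonneg hR1
  have hlog8 : 0 ≤ Real.log (8 / lmin) := Real.log_nonneg (by
    rw [le_div_iff₀ hlmin]; linarith)
  have hlog2 : 0 < Real.log 2 := Real.log_pos (by norm_num)
  have hcard0 : (0 : ℝ) ≤ J.card := Nat.cast_nonneg _
  rcases JH.eq_empty_or_nonempty with hempty | hne
  · -- trivial case
    subst hempty
    have e1 : Pr (qq u μ) univ (fun S => ∀ j ∈ (∅ : Finset τ), (S ∩ (V j ∩ Hv)).Nonempty) = 1 := by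
      rw [← Pr_true (qq u μ) univ]
      exact Pr_congr fun S _ => by simp
    rw [e1, Real.exp_le_one_iff]
    have : 0 ≤ 4 * R * (J.card / cL) * Real.log R := by positivity
    have h3 : 0 ≤ d * Real.log (8 / lmin) := mul_nonneg hd0 hlog8
    linarith
  -- shallow and deep constraints
  set JS := JH.filter (fun j => ¬ (∑ i ∈ V j, μ i < ls)) with hJS
  set JD := JH.filter (fun j => ∑ i ∈ V j, μ i < ls) with hJD
  have hJcard : 0 < (J.card : ℝ) := by
    have : 0 < J.card := Finset.card_pos.2 (hne.mono hJ)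
    exact_mod_cast this
  -- the deep part
  have deep : Real.exp (-(d * Real.log (8 / lmin))) ≤
      Pr (qq u μ) univ (fun S => ∀ j ∈ JD, (S ∩ (V j ∩ Hv)).Nonempty) := by
    have h3 := Pr_harris_forall hvq (V := (univ : Finset ι)) JD
      (A := fun j S => (S ∩ (V j ∩ Hv)).Nonempty) (fun j _ => monotone_hits _)
    refine le_trans ?_ h3
    have h4 : ∀ j ∈ JD, lmin / 8 ≤ Pr (qq u μ) univ (fun S => (S ∩ (V j ∩ Hv)).Nonempty) := by
      intro j hj
      have hjH : j ∈ JH := (Finset.mem_filter.1 hj).1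
      have hjJ : j ∈ J := hJ hjH
      have h5 := hit_lower μ (V j ∩ Hv) hu0 (hlmin.le.trans (h1 j hjJ)) (h2 j hjJ) (hJH j hjH)
      have h6 := h1 j hjJ
      linarith
    have h5 : (lmin / 8) ^ JD.card ≤
        ∏ j ∈ JD, Pr (qq u μ) univ (fun S => (S ∩ (V j ∩ Hv)).Nonempty) := by
      rw [← Finset.prod_const]
      exact Finset.prod_le_prod (fun _ _ => by positivity) h4
    refine le_trans ?_ h5
    have h6 : (JD.card : ℝ) ≤ d := by
      refine le_trans ?_ hd
      have : JD.card ≤ (J.filter (fun j => ∑ i ∈ V j, μ i < ls)).card :=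
        Finset.card_le_card (Finset.filter_subset_filter _ hJ)
      exact_mod_cast this
    have h7 : (lmin / 8) ^ JD.card = Real.exp (-((JD.card : ℝ) * Real.log (8 / lmin))) := by
      rw [← Real.rpow_natCast, Real.rpow_def_of_pos (by positivity)]
      congr 1
      have : Real.log (lmin / 8) = - Real.log (8 / lmin) := by
        rw [← Real.log_inv, inv_div]
      rw [this]
      ring
    rw [h7]
    apply Real.exp_le_exp.2
    have := mul_le_mul_of_nonneg_right h6 hlog8
    linarith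
  -- the shallow part
  set s : ℝ := 4 * R * (J.card / cL) with hs
  have hs0 : 0 < s := by positivity
  set AS : Finset ι → Prop := fun S => ∀ j ∈ JS, (S ∩ (V j ∩ Hv)).Nonempty with hAS
  have shallow : Real.exp (-(s * Real.log R + Real.log 2)) ≤ Pr (qq u μ) univ AS := by
    -- reduce the ground set to `Hv`
    have hdep : Pr (qq u μ) univ AS = Ex (qq u μ) Hv (indc AS) := by
      rw [Pr_eq]
      apply Ex_dep _ (Finset.subset_univ Hv)
      intro S
      have h3 : AS S ↔ AS (S ∩ Hv) := by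
        rw [hAS]
        constructor
        · intro h j hj
          obtain ⟨x, hx⟩ := h j hj
          refine ⟨x, ?_⟩
          simp only [Finset.mem_inter] at hx ⊢
          tauto
        · intro h j hj
          obtain ⟨x, hx⟩ := h j hj
          refine ⟨x, ?_⟩
          simp only [Finset.mem_inter] at hx ⊢
          tauto
      by_cases h4 : AS S
      · rw [indc_pos h4, indc_pos (h3.1 h4)]
      · rw [indc_neg h4, indc_neg (fun h => h4 (h3.2 h))]
    rw [hdep]
    -- boosted law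
    set r : ι → ℝ := qq (R * u) μ with hr
    have hRu : 0 ≤ R * u := by positivity
    have hvr : Valid r := valid_qq hRu hμ
    have hrq : ∀ i, r i ≤ qq u μ i := by
      intro i
      rw [hr]
      unfold qq
      apply Real.exp_le_exp.2
      have h3 : 0 ≤ u * μ i := mul_nonneg hu (hμ i)
      nlinarith
    have hrR : ∀ i, 1 - r i ≤ R * (1 - qq u μ i) := by
      intro i
      rw [hr]
      unfold qq
      have h3 := bern_exp (x := u * μ i) hR1
      rw [mul_assoc R u (μ i)]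
      exact h3
    have hchange := Ex_change hvq hvr hR1 hrq hrR (V := Hv) (f := indc AS)
      (fun S => indc_nonneg AS S)
    refine le_trans ?_ hchange
    -- number of present elements
    have hcardle : Pr r Hv (fun S => s < ((S ∩ Hv).card : ℝ)) ≤ 1 / 4 := by
      refine (Pr_card_gt_le hvr Hv Hv hs0).trans ?_
      rw [Finset.inter_self, div_le_iff₀ hs0]
      have h3 : ∀ i ∈ Hv, 1 - r i ≤ R * u * μ i := by
        intro i _
        rw [hr]
        unfold qq
        have := Real.add_one_le_exp (-(R * u * μ i))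
        linarith
      refine (Finset.sum_le_sum h3).trans ?_
      rw [← Finset.mul_sum]
      have h4 : 0 ≤ ∑ i ∈ Hv, μ i := Finset.sum_nonneg fun i _ => hμ i
      calc R * u * ∑ i ∈ Hv, μ i ≤ R * 1 * (J.card / cL) :=
            mul_le_mul (mul_le_mul_of_nonneg_left hu1 hR0.le) hHv h4 (by positivity)
        _ = 1 / 4 * s := by rw [hs]; ring
    have hmiss : Pr r Hv (fun S => ¬ AS S) ≤ 1 / 4 := by
      have h3 : Pr r Hv (fun S => ¬ AS S) ≤
          Pr r Hv (fun S => ∃ j ∈ JS, Disjoint S (V j ∩ Hv)) := by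
        refine Pr_mono hvr fun S _ h => ?_
        rw [hAS] at h
        push Not at h
        obtain ⟨j, hj, h4⟩ := h
        refine ⟨j, hj, ?_⟩
        rw [Finset.disjoint_iff_inter_eq_empty]
        exact h4
      refine h3.trans ((Pr_exists_le hvr Hv JS _).trans ?_)
      have h4 : ∀ j ∈ JS, Pr r Hv (fun S => Disjoint S (V j ∩ Hv)) ≤
          Real.exp (-(R * ls / 4)) := by
        intro j hj
        obtain ⟨hjH, hjs⟩ := Finset.mem_filter.1 hj
        rw [Pr_disjoint r Finset.inter_subset_right, hr]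
        unfold qq
        rw [← Real.exp_sum, Finset.sum_neg_distrib, ← Finset.mul_sum]
        apply Real.exp_le_exp.2
        have h5 := hJH j hjH
        have h6 : ls ≤ ∑ i ∈ V j, μ i := not_lt.1 hjs
        have h7 : R * ls / 4 ≤ R * u * ∑ i ∈ V j ∩ Hv, μ i := by
          calc R * ls / 4 = R * (1 / 2) * (ls / 2) := by ring
            _ ≤ R * u * ∑ i ∈ V j ∩ Hv, μ i :=
              mul_le_mul (mul_le_mul_of_nonneg_left hu0 hR0.le) (by linarith) (by positivity)
                (by positivity)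
        linarith
      refine (Finset.sum_le_sum h4).trans ?_
      rw [Finset.sum_const, nsmul_eq_mul]
      refine le_trans (mul_le_mul_of_nonneg_right ?_ (Real.exp_pos _).le) hR
      have : JS.card ≤ J.card := Finset.card_le_card ((Finset.filter_subset _ _).trans hJ)
      exact_mod_cast this
    -- good event
    have hgood : 1 / 2 ≤ Pr r Hv (fun S => AS S ∧ ¬ (s < ((S ∩ Hv).card : ℝ))) := by
      have h3 := Pr_and_not r Hv AS (fun S => s < ((S ∩ Hv).card : ℝ))
      have h4 : Pr r Hv (fun S => AS S ∧ s < ((S ∩ Hv).card : ℝ)) ≤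
          Pr r Hv (fun S => s < ((S ∩ Hv).card : ℝ)) := Pr_mono hvr fun S _ h => h.2
      have h5 := Pr_not r Hv AS
      linarith
    have hfin : Real.exp (-(s * Real.log R)) * (1 / 2) ≤
        Ex r Hv (fun S => (R⁻¹) ^ S.card * indc AS S) := by
      calc Real.exp (-(s * Real.log R)) * (1 / 2)
          ≤ Real.exp (-(s * Real.log R)) *
            Pr r Hv (fun S => AS S ∧ ¬ (s < ((S ∩ Hv).card : ℝ))) :=
              mul_le_mul_of_nonneg_left hgood (Real.exp_pos _).le
        _ ≤ Ex r Hv (fun S => (R⁻¹) ^ S.card * indc AS S) := by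
              rw [Pr_eq, ← Ex_const_mul]
              refine Ex_mono hvr fun S hS => ?_
              by_cases hg : AS S ∧ ¬ (s < ((S ∩ Hv).card : ℝ))
              · rw [indc_pos (A := fun S => AS S ∧ ¬ (s < ((S ∩ Hv).card : ℝ))) hg,
                  indc_pos hg.1, mul_one, mul_one]
                have h6 : (S.card : ℝ) ≤ s := by
                  have := not_lt.1 hg.2
                  rwa [Finset.inter_eq_left.2 hS] at this
                have h7 : (R⁻¹) ^ S.card = Real.exp (-((S.card : ℝ) * Real.log R)) := by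
                  rw [← Real.rpow_natCast, Real.rpow_def_of_pos (inv_pos.2 hR0), Real.log_inv]
                  congr 1
                  ring
                rw [h7]
                apply Real.exp_le_exp.2
                have := mul_le_mul_of_nonneg_right h6 hlogR
                linarith
              · rw [indc_neg (A := fun S => AS S ∧ ¬ (s < ((S ∩ Hv).card : ℝ))) hg, mul_zero]
                exact mul_nonneg (pow_nonneg (inv_nonneg.2 hR0.le) _) (indc_nonneg _ _)
    refine le_trans (le_of_eq ?_) hfin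
    rw [neg_add, Real.exp_add, Real.exp_neg (Real.log 2), Real.exp_log (by norm_num), one_div]
  -- combine
  have hsplit : Pr (qq u μ) univ (fun S => ∀ j ∈ JH, (S ∩ (V j ∩ Hv)).Nonempty) =
      Pr (qq u μ) univ (fun S => AS S ∧ ∀ j ∈ JD, (S ∩ (V j ∩ Hv)).Nonempty) := by
    refine Pr_congr fun S _ => ?_
    rw [hAS]
    constructor
    · intro h
      exact ⟨fun j hj => h j (Finset.mem_filter.1 hj).1, fun j hj => h j (Finset.mem_filter.1 hj).1⟩
    · rintro ⟨ha, hb⟩ j hj
      by_cases h3 : ∑ i ∈ V j, μ i < ls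
      · exact hb j (Finset.mem_filter.2 ⟨hj, h3⟩)
      · exact ha j (Finset.mem_filter.2 ⟨hj, h3⟩)
  rw [hsplit]
  have hH := Pr_harris hvq (V := (univ : Finset ι)) (A := AS)
    (B := fun S => ∀ j ∈ JD, (S ∩ (V j ∩ Hv)).Nonempty)
    (monotone_hits_all JS (fun j => V j ∩ Hv)) (monotone_hits_all JD (fun j => V j ∩ Hv))
  refine le_trans ?_ hH
  calc Real.exp (-(ψ / 2))
      ≤ Real.exp (-(s * Real.log R + Real.log 2) + -(d * Real.log (8 / lmin))) := by
        apply Real.exp_le_exp.2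
        linarith
    _ = Real.exp (-(s * Real.log R + Real.log 2)) * Real.exp (-(d * Real.log (8 / lmin))) :=
        Real.exp_add _ _
    _ ≤ _ := mul_le_mul shallow deep (Real.exp_pos _).le (Pr_nonneg hvq _ _)

/-- The mass of the elements that lie in at least `cL` of the sets. -/
theorem heavy_mass (μ : ι → ℝ) (hμ : ∀ i, 0 ≤ μ i) (J : Finset τ)
    (V : τ → Finset ι) (Hv : Finset ι) {cL : ℝ} (hcL : 0 < cL)
    (h2 : ∀ j ∈ J, ∑ i ∈ V j, μ i ≤ 1)
    (hHv : ∀ i ∈ Hv, cL ≤ ((J.filter (fun j => i ∈ V j)).card : ℝ)) :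
    ∑ i ∈ Hv, μ i ≤ J.card / cL := by
  rw [le_div_iff₀ hcL, Finset.sum_mul]
  calc ∑ i ∈ Hv, μ i * cL
      ≤ ∑ i ∈ Hv, μ i * ((J.filter (fun j => i ∈ V j)).card : ℝ) :=
        Finset.sum_le_sum fun i hi => mul_le_mul_of_nonneg_left (hHv i hi) (hμ i)
    _ = ∑ i ∈ Hv, ∑ j ∈ J, (if i ∈ V j then μ i else 0) := by
        refine Finset.sum_congr rfl fun i _ => ?_
        rw [← Finset.sum_filter, Finset.sum_const, nsmul_eq_mul, mul_comm]
    _ = ∑ j ∈ J, ∑ i ∈ Hv, (if i ∈ V j then μ i else 0) := Finset.sum_comm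
    _ ≤ ∑ _j ∈ J, (1 : ℝ) := by
        refine Finset.sum_le_sum fun j hj => ?_
        rw [← Finset.sum_filter]
        refine le_trans ?_ (h2 j hj)
        refine Finset.sum_le_sum_of_subset_of_nonneg ?_ fun i _ _ => hμ i
        intro i hi
        exact (Finset.mem_filter.1 hi).2
    _ = J.card := by rw [Finset.sum_const, nsmul_eq_mul, mul_one]

theorem heavy_lower (μ : ι → ℝ) (hμ : ∀ i, 0 ≤ μ i) (J JH : Finset τ) (hJH : JH ⊆ J)
    (V : τ → Finset ι) (Hv : Finset ι)
    {lmin ls cL R d ψ u : ℝ} (hlmin : 0 < lmin) (hls : 0 < ls)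
    (hlmin1 : lmin ≤ 1) (hcL : 0 < cL) (hR1 : 1 ≤ R) (hd0 : 0 ≤ d)
    (h1 : ∀ j ∈ J, lmin ≤ ∑ i ∈ V j, μ i)
    (h2 : ∀ j ∈ J, ∑ i ∈ V j, μ i ≤ 1)
    (hd : ((J.filter (fun j => ∑ i ∈ V j, μ i < ls)).card : ℝ) ≤ d)
    (hR : J.card * Real.exp (-(R * ls / 4)) ≤ 1 / 4)
    (hψ3 : 4 * R * (J.card / cL) * Real.log R + d * Real.log (8 / lmin) + Real.log 2 ≤ ψ / 2)
    (hHv : ∀ i ∈ Hv, cL ≤ ((J.filter (fun j => i ∈ V j)).card : ℝ))
    (hhalf : ∀ j ∈ JH, (∑ i ∈ V j, μ i) / 2 ≤ ∑ i ∈ V j ∩ Hv, μ i)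
    (hu0 : 1 / 2 ≤ u) (hu1 : u ≤ 1) :
    Real.exp (-(ψ / 2)) ≤
      Pr (qq u μ) univ (fun S => ∀ j ∈ JH, (S ∩ (V j ∩ Hv)).Nonempty) :=
  heavy_lower_mass μ hμ J JH hJH V Hv hu0 hu1 hlmin hls hlmin1 hcL hR1 hd0 h1 h2 hd hR hψ3
    (heavy_mass μ hμ J V Hv hcL h2 hHv) hhalf

end Vale.Agent.P230
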