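import Vale.Agent.P230.Bern

/-!
# Auxiliary lemmas for module M3: hitting events, levels, light smoothness
-/

open Finset

namespace Vale.Agent.P230

set_option linter.unusedSectionVars false
set_option linter.unusedVariables false

variable {ι τ : Type*} [DecidableEq ι] [Fintype ι] [DecidableEq τ]

theorem one_sub_exp_ge_half {t : ℝ} (h0 : 0 ≤ t) (h1 : t ≤ 1) : t / 2 ≤ 1 - Real.exp (-t) := by
  have h2 : 1 + t ≤ Real.exp t := by linarith [Real.add_one_le_exp t]
  have h3 : Real.exp (-t) ≤ 1 / (1 + t) := by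
    rw [Real.exp_neg, one_div]
    exact inv_anti₀ (by linarith) h2
  have h4 : t / 2 ≤ 1 - 1 / (1 + t) := by
    have h5 : 1 - 1 / (1 + t) = t / (1 + t) := by
      field_simp
      ring
    rw [h5, div_le_div_iff₀ two_pos (by linarith)]
    nlinarith
  linarith

theorem hit_ge (μ : ι → ℝ) (W : Finset ι) {lam v : ℝ} (hl0 : 0 ≤ lam) (hl1 : lam ≤ 1)
    (hW : lam / 2 ≤ ∑ i ∈ W, μ i) (hv : 0 ≤ v) (hv1 : v ≤ 1) :
    v * lam / 4 ≤ Pr (qq v μ) univ (fun S => (S ∩ W).Nonempty) := by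
  rw [Pr_hit_qq]
  have h1 : Real.exp (-(v * ∑ i ∈ W, μ i)) ≤ Real.exp (-(v * lam / 2)) := by
    apply Real.exp_le_exp.2
    have := mul_le_mul_of_nonneg_left hW hv
    linarith
  have h2 := one_sub_exp_ge_half (t := v * lam / 2) (by positivity) (by nlinarith)
  linarith

/-- All the sets `W j`, `j ∈ J`, are hit. -/
def HitAll (J : Finset τ) (W : τ → Finset ι) (S : Finset ι) : Prop :=
  ∀ j ∈ J, (S ∩ W j).Nonempty

theorem hitAll_mono (J : Finset τ) (W : τ → Finset ι) : Monotone (HitAll J W) := by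
  intro S T h h1 j hj
  exact (h1 j hj).mono (Finset.inter_subset_inter_right h)

theorem hitAll_inter (J : Finset τ) (W : τ → Finset ι) (U : Finset ι) (hU : ∀ j ∈ J, W j ⊆ U)
    (S : Finset ι) : HitAll J W S ↔ HitAll J W (S ∩ U) := by
  unfold HitAll
  refine forall₂_congr fun j hj => ?_
  have : S ∩ U ∩ W j = S ∩ W j := by
    rw [Finset.inter_assoc, Finset.inter_eq_right.2 (hU j hj)]
  rw [this]

theorem hitAll_ge (μ : ι → ℝ) (hμ : ∀ i, 0 ≤ μ i) (J : Finset τ) (W : τ → Finset ι)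
    (lam : τ → ℝ) (hl0 : ∀ j ∈ J, 0 < lam j) (hl1 : ∀ j ∈ J, lam j ≤ 1)
    (hW : ∀ j ∈ J, lam j / 2 ≤ ∑ i ∈ W j, μ i) {v : ℝ} (hv : 0 < v) (hv1 : v ≤ 1) :
    Real.exp (-(∑ j ∈ J, Real.log (4 / (v * lam j)))) ≤ Pr (qq v μ) univ (HitAll J W) := by
  have h1 : ∏ j ∈ J, Pr (qq v μ) univ (fun S => (S ∩ W j).Nonempty) ≤
      Pr (qq v μ) univ (HitAll J W) :=
    Pr_harris_forall (valid_qq hv.le hμ) J
      (fun j _ S T h h1 => h1.mono (Finset.inter_subset_inter_right h))
  refine le_trans ?_ h1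
  rw [← Finset.sum_neg_distrib, Real.exp_sum]
  refine Finset.prod_le_prod (fun j _ => (Real.exp_pos _).le) fun j hj => ?_
  have h2 := hit_ge μ (W j) (hl0 j hj).le (hl1 j hj) (hW j hj) hv.le hv1
  refine le_trans (le_of_eq ?_) h2
  have h3 : 0 < 4 / (v * lam j) := div_pos (by norm_num) (mul_pos hv (hl0 j hj))
  rw [Real.exp_neg, Real.exp_log h3, inv_div]

/-- Some level has a small relative increase. -/
theorem level_exists (p : ℕ → ℝ) {H0 : ℕ} (hH0 : 0 < H0) {Γ : ℝ}
    (h0 : Real.exp (-Γ) ≤ p 0) (h1 : p H0 ≤ 1) :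
    ∃ i, i < H0 ∧ p (i + 1) ≤ Real.exp (Γ / H0) * p i := by
  by_contra hcon
  push Not at hcon
  have h2 : ∀ i, i + 1 ≤ H0 → Real.exp (Γ / H0) ^ (i + 1) * p 0 < p (i + 1) := by
    intro i
    induction i with
    | zero =>
      intro h
      simpa using hcon 0 (by omega)
    | succ i ih =>
      intro h
      have h3 := ih (by omega)
      have h4 := hcon (i + 1) (by omega)
      have h5 : Real.exp (Γ / H0) ^ (i + 1 + 1) * p 0 =
          Real.exp (Γ / H0) * (Real.exp (Γ / H0) ^ (i + 1) * p 0) := by ring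
      rw [h5]
      exact lt_trans (mul_lt_mul_of_pos_left h3 (Real.exp_pos _)) h4
  have h3 := h2 (H0 - 1) (by omega)
  have h4 : H0 - 1 + 1 = H0 := by omega
  rw [h4, ← Real.exp_nat_mul] at h3
  have h5 : (H0 : ℝ) * (Γ / H0) = Γ := by
    have : (H0 : ℝ) ≠ 0 := by exact_mod_cast hH0.ne'
    field_simp
  rw [h5] at h3
  have h6 : Real.exp Γ * Real.exp (-Γ) ≤ Real.exp Γ * p 0 :=
    mul_le_mul_of_nonneg_left h0 (Real.exp_pos _).le
  rw [← Real.exp_add, add_neg_cancel, Real.exp_zero] at h6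
  linarith

/-- Adding a finite set `F` costs at most a factor `(8 H0/lmin)^(cL |F|)` after raising the
intensity by `1/(2 H0)`. -/
theorem light_smooth (μ : ι → ℝ) (hμ : ∀ i, 0 ≤ μ i) (JL : Finset τ) (W : τ → Finset ι)
    (lam : τ → ℝ) {lmin cL u : ℝ} {H0 : ℕ} (hH0 : 0 < H0) (hu : 0 ≤ u) (F : Finset ι)
    (hlmin : 0 < lmin) (hlmin1 : lmin ≤ 1)
    (hlam : ∀ j ∈ JL, lmin ≤ lam j) (hlam1 : ∀ j ∈ JL, lam j ≤ 1)
    (hW : ∀ j ∈ JL, lam j / 2 ≤ ∑ i ∈ W j, μ i)
    (hlight : ∀ i, ((JL.filter (fun j => i ∈ W j)).card : ℝ) ≤ cL) :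
    Pr (qq u μ) univ (fun S => HitAll JL W (S ∪ F)) *
        Real.exp (-(F.card * (cL * Real.log (8 * H0 / lmin)))) ≤
      Pr (qq (u + 1 / (2 * H0)) μ) univ (HitAll JL W) := by
  have hH1 : (1 : ℝ) ≤ H0 := by exact_mod_cast hH0
  have hH2 : (0 : ℝ) < H0 := by linarith
  set v : ℝ := 1 / (2 * H0) with hv
  have hv0 : 0 < v := by positivity
  have hv1 : v ≤ 1 := by
    rw [hv, div_le_one (by positivity)]
    linarith
  set J' := JL.filter (fun j => (F ∩ W j).Nonempty) with hJ'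
  have hlog : 0 ≤ Real.log (8 * H0 / lmin) := by
    apply Real.log_nonneg
    rw [le_div_iff₀ hlmin]
    nlinarith
  -- the number of constraints hit by `F`
  have hcard : (J'.card : ℝ) ≤ F.card * cL := by
    have h1 : J' ⊆ F.biUnion (fun i => JL.filter (fun j => i ∈ W j)) := by
      intro j hj
      rw [hJ', Finset.mem_filter] at hj
      obtain ⟨i, hi⟩ := hj.2
      rw [Finset.mem_inter] at hi
      rw [Finset.mem_biUnion]
      exact ⟨i, hi.1, Finset.mem_filter.2 ⟨hj.1, hi.2⟩⟩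
    have h2 : J'.card ≤ ∑ i ∈ F, (JL.filter (fun j => i ∈ W j)).card :=
      (Finset.card_le_card h1).trans Finset.card_biUnion_le
    calc (J'.card : ℝ) ≤ ∑ i ∈ F, ((JL.filter (fun j => i ∈ W j)).card : ℝ) := by
          exact_mod_cast h2
      _ ≤ ∑ _i ∈ F, cL := Finset.sum_le_sum fun i _ => hlight i
      _ = F.card * cL := by rw [Finset.sum_const, nsmul_eq_mul]
  -- the second sprinkling hits them all
  have hc : Real.exp (-(F.card * (cL * Real.log (8 * H0 / lmin)))) ≤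
      Pr (qq v μ) univ (HitAll J' W) := by
    have hsub : ∀ j ∈ J', j ∈ JL := fun j hj => (Finset.mem_filter.1 hj).1
    have h1 := hitAll_ge μ hμ J' W (fun j => lmin) (fun _ _ => hlmin) (fun _ _ => hlmin1)
      (fun j hj => le_trans (by have := hlam j (hsub j hj); linarith) (hW j (hsub j hj))) hv0 hv1
    refine le_trans (Real.exp_le_exp.2 (neg_le_neg ?_)) h1
    rw [Finset.sum_const, nsmul_eq_mul]
    have h2 : 4 / (v * lmin) = 8 * H0 / lmin := by
      rw [hv]
      field_simp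
      norm_num
    rw [h2, ← mul_assoc]
    exact mul_le_mul_of_nonneg_right hcard hlog
  rw [Pr_superpose_qq]
  have h3 : Ex (qq u μ) univ (fun S => indc (fun S => HitAll JL W (S ∪ F)) S *
      Pr (qq v μ) univ (HitAll J' W)) ≤
      Ex (qq u μ) univ (fun S => Pr (qq v μ) univ (fun T => HitAll JL W (S ∪ T))) := by
    refine Ex_mono (valid_qq hu hμ) fun S _ => ?_
    by_cases h : HitAll JL W (S ∪ F)
    · rw [indc_pos (A := fun S => HitAll JL W (S ∪ F)) h, one_mul]
      refine Pr_mono (valid_qq hv0.le hμ) fun T _ hT => ?_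
      intro j hj
      by_cases hjF : (F ∩ W j).Nonempty
      · have h5 := hT j (Finset.mem_filter.2 ⟨hj, hjF⟩)
        exact h5.mono (Finset.inter_subset_inter_right Finset.subset_union_right)
      · have h5 := h j hj
        rw [Finset.union_inter_distrib_right] at h5
        rw [Finset.not_nonempty_iff_eq_empty] at hjF
        rw [hjF, Finset.union_empty] at h5
        exact h5.mono (Finset.inter_subset_inter_right Finset.subset_union_left)
    · rw [indc_neg (A := fun S => HitAll JL W (S ∪ F)) h, zero_mul]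
      exact Pr_nonneg (valid_qq hv0.le hμ) _ _
  refine le_trans ?_ h3
  rw [Ex_mul_const, ← Pr_eq]
  exact mul_le_mul_of_nonneg_left hc (Pr_nonneg (valid_qq hu hμ) _ _)

end Vale.Agent.P230
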