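import Vale.Agent.P230.Bern
import Vale.Agent.P230.SmoothAux
import Vale.Agent.P230.Heavy

/-!
# The smooth sub-event for one test point (module M3)

Finite ground set `ι` with masses `μ i ≥ 0`, finitely many sets `V j` (`j ∈ J`),
`lam j = μ(V j) = ∑ i ∈ V j, μ i`.  Intensity levels `u_i = 1/2 + i/(2 H0)`, `i = 0..H0`,
absence probabilities `qq u μ`.

Definitions.  `i : ι` is *light* if it lies in at most `cL` of the `V j` (`j ∈ J`), otherwise
*heavy*.  `Lt` = light set, `Hv` = heavy set.  `JL = {j ∈ J : μ(V j ∩ Lt) ≥ lam j / 2}`,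
`JH = J \ JL` (there `μ(V j ∩ Hv) > lam j / 2`).
`AL S := ∀ j ∈ JL, S ∩ (V j ∩ Lt) ≠ ∅`,  `AH S := ∀ j ∈ JH, S ∩ (V j ∩ Hv) ≠ ∅`,
`A := AL ∧ AH`.

(b) each hit has probability `1 - exp(-u x) ≥ lam j/8` (`x ≥ lam j/2`, `u ≥ 1/2`,
`1 - e^{-t} ≥ t/2` on `[0,1]`), so Harris gives `Pr A ≥ exp(-Γ)`, same for `AL`.
(c) level: if `Pr_{u_{i+1}} AL > e^{Γ/H0} Pr_{u_i} AL` for all `i < H0` then
`1 ≥ Pr_{u_H0} AL > e^{Γ} Pr_{u_0} AL ≥ 1`; so some `i < H0` has
`Pr_{u_{i+1}} AL ≤ e^{Γ/H0} Pr_{u_i} AL`.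
(d) `Pr_u AH ≥ e^{-ψ/2}`: shallow `j` (`lam j ≥ ls`): boost the intensity of heavy elements by
`R` (`Ex_change` on ground set `Hv`); under the boosted law the probability that all shallow
`j ∈ JH` are hit is `≥ 3/4` (union bound, `hR`), the number of present heavy elements exceeds
`s = 4 R |J|/cL` with probability `≤ 1/4` (`Pr_card_gt_le`, using
`μ(Hv) ≤ |J|/cL`), so `Pr_u (shallow) ≥ R^{-s}/2`; deep `j` (at most `d`): Harris, each factor
`≥ lmin/8`.
(e) smoothness: for `F = FL ∪ FH` nonempty.  `AL (S ∪ F)` iff `S` hits all light constraints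
not hit by `F ∩ Lt` (call this `B S`; the hit ones are at most `cL * |F|` many); superposition
`u_{i+1} = u_i + 1/(2 H0)` and Harris: `Pr_{u_{i+1}} AL ≥ Pr_{u_i} B * (lmin/(8 H0))^{cL |F|}`;
by (c) `Pr_{u_i} B ≤ e^{ψ/4 |F| + ψ/4} Pr_{u_i} AL`; `AH` costs at most `1/Pr AH ≤ e^{ψ/2}`;
`AL` and `AH` are independent.
-/

open Finset

namespace Vale.Agent.P230

variable {ι τ : Type*} [DecidableEq ι] [Fintype ι] [DecidableEq τ]

/-- Level number `i` of `H0`. -/
noncomputable def lvl (H0 i : ℕ) : ℝ := 1 / 2 + i / (2 * H0)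

theorem smooth_event (μ : ι → ℝ) (hμ : ∀ i, 0 ≤ μ i) (J : Finset τ) (V : τ → Finset ι)
    {lmin ls cL R d Γ ψ : ℝ} {H0 : ℕ} (hH0 : 0 < H0) (hlmin : 0 < lmin) (hls : 0 < ls)
    (hlmin1 : lmin ≤ 1) (hcL : 0 < cL) (hR1 : 1 ≤ R) (hd0 : 0 ≤ d)
    (h1 : ∀ j ∈ J, lmin ≤ ∑ i ∈ V j, μ i)
    (h2 : ∀ j ∈ J, ∑ i ∈ V j, μ i ≤ 1)
    (hd : ((J.filter (fun j => ∑ i ∈ V j, μ i < ls)).card : ℝ) ≤ d)
    (hΓ : ∑ j ∈ J, Real.log (8 / ∑ i ∈ V j, μ i) ≤ Γ)
    (hR : J.card * Real.exp (-(R * ls / 4)) ≤ 1 / 4)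
    (hψ1 : Γ / H0 ≤ ψ / 4)
    (hψ2 : cL * Real.log (8 * H0 / lmin) ≤ ψ / 4)
    (hψ3 : 4 * R * (J.card / cL) * Real.log R + d * Real.log (8 / lmin) + Real.log 2 ≤ ψ / 2) :
    ∃ (A : Finset ι → Prop) (i : ℕ), i < H0 ∧ Monotone A ∧
      (∀ S, A S ↔ A (S ∩ J.biUnion V)) ∧
      (∀ S, A S → ∀ j ∈ J, (S ∩ V j).Nonempty) ∧
      Real.exp (-Γ) ≤ Pr (qq (lvl H0 i) μ) univ A ∧
      (∀ F : Finset ι, Pr (qq (lvl H0 i) μ) univ (fun S => A (S ∪ F)) ≤
        Real.exp (ψ * F.card) * Pr (qq (lvl H0 i) μ) univ A) := by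
  classical
  have hH1 : (1 : ℝ) ≤ H0 := by exact_mod_cast hH0
  have hH2 : (0 : ℝ) < H0 := by linarith
  -- light and heavy elements
  set Lt : Finset ι := univ.filter (fun i => ((J.filter (fun j => i ∈ V j)).card : ℝ) ≤ cL)
    with hLt
  set Hv : Finset ι := univ.filter (fun i => ¬ ((J.filter (fun j => i ∈ V j)).card : ℝ) ≤ cL)
    with hHv
  set lam : τ → ℝ := fun j => ∑ i ∈ V j, μ i with hlam
  set JL : Finset τ := J.filter (fun j => lam j / 2 ≤ ∑ i ∈ V j ∩ Lt, μ i) with hJL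
  set JH : Finset τ := J.filter (fun j => ¬ lam j / 2 ≤ ∑ i ∈ V j ∩ Lt, μ i) with hJH
  have hJLs : JL ⊆ J := Finset.filter_subset _ _
  have hJHs : JH ⊆ J := Finset.filter_subset _ _
  have hLH : Disjoint Lt Hv := Finset.disjoint_filter_filter_not _ _ _
  have hLHu : Lt ∪ Hv = univ := Finset.filter_union_filter_not_eq _ _
  have hsplit : ∀ j, lam j = ∑ i ∈ V j ∩ Lt, μ i + ∑ i ∈ V j ∩ Hv, μ i := by
    intro j
    rw [← Finset.sum_union]
    · rw [← Finset.inter_union_distrib_left, hLHu, Finset.inter_univ]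
    · exact Finset.disjoint_of_subset_left Finset.inter_subset_right
        (Finset.disjoint_of_subset_right Finset.inter_subset_right hLH)
  have hWL : ∀ j ∈ JL, lam j / 2 ≤ ∑ i ∈ V j ∩ Lt, μ i := fun j hj => (Finset.mem_filter.1 hj).2
  have hWH : ∀ j ∈ JH, lam j / 2 ≤ ∑ i ∈ V j ∩ Hv, μ i := by
    intro j hj
    have h3 := (Finset.mem_filter.1 hj).2
    have h4 := hsplit j
    push Not at h3
    linarith
  have hl0 : ∀ j ∈ J, 0 < lam j := fun j hj => lt_of_lt_of_le hlmin (h1 j hj)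
  set AL : Finset ι → Prop := HitAll JL (fun j => V j ∩ Lt) with hAL
  set AH : Finset ι → Prop := HitAll JH (fun j => V j ∩ Hv) with hAH
  have mAL : Monotone AL := hitAll_mono _ _
  have mAH : Monotone AH := hitAll_mono _ _
  have dAL : ∀ S, AL S ↔ AL (S ∩ Lt) :=
    hitAll_inter _ _ _ (fun j _ => Finset.inter_subset_right)
  have dAH : ∀ S, AH S ↔ AH (S \ Lt) := by
    intro S
    have h3 := hitAll_inter JH (fun j => V j ∩ Hv) Hv (fun j _ => Finset.inter_subset_right) S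
    have h4 : S \ Lt = S ∩ Hv := by
      ext i
      rw [Finset.mem_sdiff, Finset.mem_inter, hLt, hHv, Finset.mem_filter, Finset.mem_filter]
      simp
    rw [h4]
    exact h3
  -- lower bounds
  have hlow : ∀ (K : Finset τ) (W : τ → Finset ι), K ⊆ J →
      (∀ j ∈ K, lam j / 2 ≤ ∑ i ∈ W j, μ i) → ∀ v : ℝ, 1 / 2 ≤ v → v ≤ 1 →
      Real.exp (-(∑ j ∈ K, Real.log (8 / lam j))) ≤ Pr (qq v μ) univ (HitAll K W) := by
    intro K W hK hW v hv hv1
    refine le_trans ?_ (hitAll_ge μ hμ K W lam (fun j hj => hl0 j (hK hj))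
      (fun j hj => h2 j (hK hj)) hW (by linarith) hv1)
    refine Real.exp_le_exp.2 (neg_le_neg (Finset.sum_le_sum fun j hj => ?_))
    have h3 := hl0 j (hK hj)
    apply Real.log_le_log (div_pos (by norm_num) (mul_pos (by linarith) h3))
    rw [div_le_div_iff₀ (mul_pos (by linarith) h3) h3]
    nlinarith
  have hsumJ : ∑ j ∈ JL, Real.log (8 / lam j) + ∑ j ∈ JH, Real.log (8 / lam j) ≤ Γ := by
    rw [hJL, hJH, Finset.sum_filter_add_sum_filter_not]
    exact hΓ
  have hpos : ∀ j ∈ J, 0 ≤ Real.log (8 / lam j) := by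
    intro j hj
    apply Real.log_nonneg
    rw [le_div_iff₀ (hl0 j hj)]
    have := h2 j hj
    linarith
  have hlogH : 0 ≤ Real.log (8 * H0 / lmin) := by
    apply Real.log_nonneg
    rw [le_div_iff₀ hlmin]
    nlinarith
  have hψ0 : 0 ≤ ψ := by
    have := mul_nonneg hcL.le hlogH
    linarith
  -- the level
  have hlvl0 : ∀ i : ℕ, (1 / 2 : ℝ) ≤ lvl H0 i := by
    intro i
    unfold lvl
    have : (0 : ℝ) ≤ i / (2 * H0) := by positivity
    linarith
  have hlvl1 : ∀ i : ℕ, i ≤ H0 → lvl H0 i ≤ 1 := by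
    intro i hi
    unfold lvl
    have h3 : (i : ℝ) / (2 * H0) ≤ 1 / 2 := by
      rw [div_le_div_iff₀ (by positivity) two_pos]
      have : (i : ℝ) ≤ H0 := by exact_mod_cast hi
      linarith
    linarith
  have hJL0 : ∑ j ∈ JL, Real.log (8 / lam j) ≤ Γ := by
    have := Finset.sum_nonneg (fun j hj => hpos j (hJHs hj))
    linarith
  obtain ⟨i, hi, hlev⟩ := level_exists (fun i => Pr (qq (lvl H0 i) μ) univ AL) hH0 (Γ := Γ)
    (le_trans (Real.exp_le_exp.2 (neg_le_neg hJL0))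
      (hlow JL _ hJLs hWL _ (hlvl0 0) (hlvl1 0 (Nat.zero_le _))))
    (Pr_le_one (valid_qq (by have := hlvl0 H0; linarith) hμ) _ _)
  have hu0 := hlvl0 i
  have hu1 := hlvl1 i hi.le
  have hval : Valid (qq (lvl H0 i) μ) := valid_qq (by linarith) hμ
  have hind : Pr (qq (lvl H0 i) μ) univ (fun S => AL S ∧ AH S) =
      Pr (qq (lvl H0 i) μ) univ AL * Pr (qq (lvl H0 i) μ) univ AH := Pr_indep _ dAL dAH
  refine ⟨fun S => AL S ∧ AH S, i, hi, fun S T h h3 => ⟨mAL h h3.1, mAH h h3.2⟩, ?_, ?_, ?_, ?_⟩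
  · intro S
    have e1 := hitAll_inter JL (fun j => V j ∩ Lt) (J.biUnion V)
      (fun j hj => Finset.inter_subset_left.trans (Finset.subset_biUnion_of_mem V (hJLs hj))) S
    have e2 := hitAll_inter JH (fun j => V j ∩ Hv) (J.biUnion V)
      (fun j hj => Finset.inter_subset_left.trans (Finset.subset_biUnion_of_mem V (hJHs hj))) S
    exact and_congr e1 e2
  · rintro S ⟨h3, h4⟩ j hj
    by_cases h5 : lam j / 2 ≤ ∑ i ∈ V j ∩ Lt, μ i
    · exact (h3 j (Finset.mem_filter.2 ⟨hj, h5⟩)).mono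
        (Finset.inter_subset_inter_left Finset.inter_subset_left)
    · exact (h4 j (Finset.mem_filter.2 ⟨hj, h5⟩)).mono
        (Finset.inter_subset_inter_left Finset.inter_subset_left)
  · rw [hind]
    have h3 := hlow JL _ hJLs hWL _ hu0 hu1
    have h4 := hlow JH _ hJHs hWH _ hu0 hu1
    calc Real.exp (-Γ) ≤ Real.exp (-(∑ j ∈ JL, Real.log (8 / lam j))) *
          Real.exp (-(∑ j ∈ JH, Real.log (8 / lam j))) := by
          rw [← Real.exp_add]
          apply Real.exp_le_exp.2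
          linarith
      _ ≤ _ := mul_le_mul h3 h4 (Real.exp_pos _).le (Pr_nonneg hval _ _)
  · intro F
    rcases Finset.eq_empty_or_nonempty F with rfl | hF
    · simp
    have hF1 : (1 : ℝ) ≤ F.card := by exact_mod_cast hF.card_pos
    -- heavy part
    have hHe : Real.exp (-(ψ / 2)) ≤ Pr (qq (lvl H0 i) μ) univ AH :=
      heavy_lower μ hμ J JH hJHs V Hv hlmin hls hlmin1 hcL hR1 hd0 h1 h2 hd hR hψ3
        (fun i hi => by
          have := (Finset.mem_filter.1 hi).2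
          push Not at this
          exact this.le) hWH hu0 hu1
    -- light part
    have hlight : ∀ i, ((JL.filter (fun j => i ∈ V j ∩ Lt)).card : ℝ) ≤ cL := by
      intro i
      by_cases hiL : i ∈ Lt
      · have h3 : (JL.filter (fun j => i ∈ V j ∩ Lt)).card ≤ (J.filter (fun j => i ∈ V j)).card := by
          apply Finset.card_le_card
          intro j hj
          rw [Finset.mem_filter, Finset.mem_inter] at hj
          exact Finset.mem_filter.2 ⟨hJLs hj.1, hj.2.1⟩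
        have h4 := (Finset.mem_filter.1 hiL).2
        refine le_trans ?_ h4
        exact_mod_cast h3
      · have h3 : JL.filter (fun j => i ∈ V j ∩ Lt) = ∅ := by
          apply Finset.filter_eq_empty_iff.2
          intro j _ hj
          exact hiL (Finset.mem_inter.1 hj).2
        rw [h3]
        simpa using hcL.le
    have hli := light_smooth μ hμ JL (fun j => V j ∩ Lt) lam hH0 (u := lvl H0 i)
      (by linarith) F hlmin hlmin1 (fun j hj => h1 j (hJLs hj)) (fun j hj => h2 j (hJLs hj))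
      hWL hlight
    have hnext : lvl H0 i + 1 / (2 * H0) = lvl H0 (i + 1) := by
      unfold lvl
      push_cast
      ring
    rw [hnext] at hli
    have hB : Pr (qq (lvl H0 i) μ) univ (fun S => AL (S ∪ F) ∧ AH (S ∪ F)) ≤
        Pr (qq (lvl H0 i) μ) univ (fun S => AL (S ∪ F)) := Pr_mono hval fun S _ h => h.1
    set b := Pr (qq (lvl H0 i) μ) univ (fun S => AL (S ∪ F)) with hb
    set a := Pr (qq (lvl H0 i) μ) univ AL with ha
    set c := Pr (qq (lvl H0 i) μ) univ AH with hc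
    have ha0 : 0 ≤ a := Pr_nonneg hval _ _
    have hb0 : 0 ≤ b := Pr_nonneg hval _ _
    refine hB.trans ?_
    rw [hind]
    have h5 : b * Real.exp (-(F.card * (ψ / 4))) ≤ Real.exp (ψ / 4) * a := by
      calc b * Real.exp (-(F.card * (ψ / 4)))
          ≤ b * Real.exp (-(F.card * (cL * Real.log (8 * H0 / lmin)))) := by
            apply mul_le_mul_of_nonneg_left _ hb0
            apply Real.exp_le_exp.2
            apply neg_le_neg
            exact mul_le_mul_of_nonneg_left hψ2 (by linarith)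
        _ ≤ Pr (qq (lvl H0 (i + 1)) μ) univ AL := hli
        _ ≤ Real.exp (Γ / H0) * a := hlev
        _ ≤ Real.exp (ψ / 4) * a :=
            mul_le_mul_of_nonneg_right (Real.exp_le_exp.2 hψ1) ha0
    have h6 : b ≤ Real.exp (F.card * (ψ / 4) + ψ / 4) * a := by
      have h7 := mul_le_mul_of_nonneg_left h5 (Real.exp_pos (F.card * (ψ / 4))).le
      have h8 : Real.exp (F.card * (ψ / 4)) * (b * Real.exp (-(F.card * (ψ / 4)))) = b := by
        rw [mul_left_comm, ← Real.exp_add, add_neg_cancel, Real.exp_zero, mul_one]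
      rw [h8, ← mul_assoc, ← Real.exp_add] at h7
      exact h7
    have h9 : Real.exp (F.card * (ψ / 4) + ψ / 4) ≤ Real.exp (ψ * F.card) * Real.exp (-(ψ / 2)) := by
      rw [← Real.exp_add]
      apply Real.exp_le_exp.2
      nlinarith
    calc b ≤ Real.exp (F.card * (ψ / 4) + ψ / 4) * a := h6
      _ ≤ (Real.exp (ψ * F.card) * Real.exp (-(ψ / 2))) * a := mul_le_mul_of_nonneg_right h9 ha0
      _ = Real.exp (ψ * F.card) * (a * Real.exp (-(ψ / 2))) := by ring
      _ ≤ Real.exp (ψ * F.card) * (a * c) := by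
          apply mul_le_mul_of_nonneg_left _ (Real.exp_pos _).le
          exact mul_le_mul_of_nonneg_left hHe ha0

end Vale.Agent.P230
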