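import Vale.Agent.P230.Bern
import Vale.Agent.P230.Chain
import Vale.Agent.P230.Smooth
import Vale.Agent.P230.Pair
import Vale.Agent.P230.Pigeon

/-!
# Pair bound and the abstract core estimate (module M4)

`pair_bound`: two increasing events `A, B`, depending on `S ∩ W`, `S ∩ W'`, both
`ψ`-smooth; `U = W ∩ W'`.  Condition on `S ∩ U = F` (`Ex_union` with `U`, `W \ U`, `W' \ U`):
`Pr (A ∧ B | F) = Pr (A(F ∪ ·)) Pr (B (F ∪ ·)) ≤ e^{2ψ|F|} Pr A Pr B`, and
`E [e^{2ψ|F|} ; F ≠ ∅] = ∏ (q + (1-q) e^{2ψ}) - ∏ q ≤ e^{X} - (1 - b)`, `X = b (e^{2ψ} - 1) ≤ 1`,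
`≤ 2X + b ≤ 2 e^{2ψ} b`.

`core`: apply `smooth_event` to every `x ∈ G`; get a level `i x < H0` and an event `A x` with
`p x = Pr A x ∈ [e^{-Γ}, 1]`; pigeonhole on the pair `(i x, ⌊-log (p x)⌋₊)` (at most
`H0 (Γ+1)` values) gives `G' ⊆ G`, `|G| ≤ H0 (Γ+1) |G'|`, common level `i` and
`α = e^{-(d+1)}` with `α ≤ p x ≤ e α` on `G'`, `1/α ≤ e^{Γ+1}`.
Row sums: `∑_{x ∈ G'} Pr (Share x y) ≤ f1 |G| e α + f2 |G| 2 e² α² + |G'| 2 e^{2ψ} b2 e² α²`
`≤ |G'| s α²`.  Then `chain_final` at level `i` and `Pr_anti_q` (from level `i` to `1`).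
-/

open Finset

namespace Vale.Agent.P230

theorem core {ι κ τ : Type*} [DecidableEq ι] [Fintype ι] [DecidableEq κ] [DecidableEq τ]
    (μ : ι → ℝ) (hμ : ∀ i, 0 ≤ μ i) (G : Finset κ) (hG : G.Nonempty)
    (J : κ → Finset τ) (V : κ → τ → Finset ι)
    {lmin ls cL R d Γ ψ k b1 b2 f1 f2 s : ℝ} {H0 : ℕ} (hH0 : 0 < H0) (hlmin : 0 < lmin)
    (hls : 0 < ls) (hlmin1 : lmin ≤ 1) (hcL : 0 < cL) (hR1 : 1 ≤ R) (hd0 : 0 ≤ d)
    (hk : ∀ x ∈ G, ((J x).card : ℝ) ≤ k)
    (h1 : ∀ x ∈ G, ∀ j ∈ J x, lmin ≤ ∑ i ∈ V x j, μ i)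
    (h2 : ∀ x ∈ G, ∀ j ∈ J x, ∑ i ∈ V x j, μ i ≤ 1)
    (hd : ∀ x ∈ G, (((J x).filter (fun j => ∑ i ∈ V x j, μ i < ls)).card : ℝ) ≤ d)
    (hΓ : ∀ x ∈ G, ∑ j ∈ J x, Real.log (8 / ∑ i ∈ V x j, μ i) ≤ Γ)
    (hR : k * Real.exp (-(R * ls / 4)) ≤ 1 / 4)
    (hψ1 : Γ / H0 ≤ ψ / 4)
    (hψ2 : cL * Real.log (8 * H0 / lmin) ≤ ψ / 4)
    (hψ3 : 4 * R * (k / cL) * Real.log R + d * Real.log (8 / lmin) + Real.log 2 ≤ ψ / 2)
    (hb1 : Real.exp (2 * ψ) * b1 ≤ 1) (hb2 : Real.exp (2 * ψ) * b2 ≤ 1)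
    (hf1 : ∀ y ∈ G, ((G.filter (fun x =>
      b1 < ∑ i ∈ ((J x).biUnion (V x)) ∩ ((J y).biUnion (V y)), μ i)).card : ℝ) ≤ f1 * G.card)
    (hf2 : ∀ y ∈ G, ((G.filter (fun x =>
      b2 < ∑ i ∈ ((J x).biUnion (V x)) ∩ ((J y).biUnion (V y)), μ i)).card : ℝ) ≤ f2 * G.card)
    (hs0 : 0 < s) (hb20 : 0 ≤ b2)
    (hs : H0 * (Γ + 1) * (f1 * Real.exp (Γ + 2) + 2 * Real.exp 2 * f2) +
      2 * Real.exp 2 * Real.exp (2 * ψ) * b2 ≤ s) :
    Pr (qq 1 μ) univ (fun S => ∀ x ∈ G, ∃ j ∈ J x, Disjoint S (V x j)) ≤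
      Real.exp (-(1 / (2 * s))) := by
  classical
  have hH1 : (1 : ℝ) ≤ H0 := by exact_mod_cast hH0
  have hH2 : (0 : ℝ) < H0 := by linarith
  have hlogR : 0 ≤ Real.log R := Real.log_nonneg hR1
  have hlogH : 0 ≤ Real.log (8 * H0 / lmin) := by
    apply Real.log_nonneg
    rw [le_div_iff₀ hlmin]
    nlinarith
  have hψ0 : 0 ≤ ψ := by
    have := mul_nonneg hcL.le hlogH
    linarith
  have hlvl0 : ∀ i : ℕ, (1 / 2 : ℝ) ≤ lvl H0 i := by
    intro i
    unfold lvl
    have : (0 : ℝ) ≤ i / (2 * H0) := by positivity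
    linarith
  have hlvl1 : ∀ i : ℕ, i ≤ H0 → lvl H0 i ≤ 1 := by
    intro i hi
    unfold lvl
    have h3 : (i : ℝ) / (2 * H0) ≤ 1 / 2 := by
      rw [div_le_div_iff₀ (by positivity) two_pos]
      have : (i : ℝ) ≤ H0 := by exact_mod_cast hi
      linarith
    linarith
  -- choose the events
  have key : ∀ x : κ, ∃ (A : Finset ι → Prop) (i : ℕ), (Monotone A ∧
      (∀ S, A S ↔ A (S ∩ (J x).biUnion (V x)))) ∧ (x ∈ G → i < H0 ∧
      (∀ S, A S → ∀ j ∈ J x, (S ∩ V x j).Nonempty) ∧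
      Real.exp (-Γ) ≤ Pr (qq (lvl H0 i) μ) univ A ∧
      (∀ F : Finset ι, Pr (qq (lvl H0 i) μ) univ (fun S => A (S ∪ F)) ≤
        Real.exp (ψ * F.card) * Pr (qq (lvl H0 i) μ) univ A)) := by
    intro x
    by_cases hx : x ∈ G
    · have hkx := hk x hx
      have hRx : ((J x).card : ℝ) * Real.exp (-(R * ls / 4)) ≤ 1 / 4 :=
        (mul_le_mul_of_nonneg_right hkx (Real.exp_pos _).le).trans hR
      have hψx : 4 * R * ((J x).card / cL) * Real.log R + d * Real.log (8 / lmin) + Real.log 2 ≤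
          ψ / 2 := by
        have h3 : ((J x).card : ℝ) / cL ≤ k / cL := div_le_div_of_nonneg_right hkx hcL.le
        have h4 : 4 * R * ((J x).card / cL) * Real.log R ≤ 4 * R * (k / cL) * Real.log R := by
          apply mul_le_mul_of_nonneg_right _ hlogR
          exact mul_le_mul_of_nonneg_left h3 (by linarith)
        linarith
      obtain ⟨A, i, hi, hA1, hA2, hA3, hA4, hA5⟩ := smooth_event μ hμ (J x) (V x) hH0 hlmin hls
        hlmin1 hcL hR1 hd0 (h1 x hx) (h2 x hx) (hd x hx) (hΓ x hx) hRx hψ1 hψ2 hψx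
      exact ⟨A, i, ⟨hA1, hA2⟩, fun _ => ⟨hi, hA3, hA4, hA5⟩⟩
    · exact ⟨fun _ => False, 0, ⟨fun _ _ _ h => h, fun _ => Iff.rfl⟩, fun h => absurd h hx⟩
  choose A lv hA hprop using key
  have hval : ∀ i : ℕ, Valid (qq (lvl H0 i) μ) := fun i =>
    valid_qq (by have := hlvl0 i; linarith) hμ
  obtain ⟨i, hi, α, hα0, G', hG'G, hG'ne, hcard, hlvG, hα1, hα2, hα3⟩ := pigeon G hG lv
    (fun x hx => (hprop x hx).1) (fun x => Pr (qq (lvl H0 (lv x)) μ) univ (A x)) (Γ := Γ)
    (fun x hx => (hprop x hx).2.2.1) (fun x _ => Pr_le_one (hval _) _ _)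
  set q := qq (lvl H0 i) μ with hq
  have hqv : Valid q := hval i
  have hpl : ∀ x ∈ G', α ≤ Pr q univ (A x) := by
    intro x hx
    have := hα1 x hx
    simp only [hlvG x hx] at this
    exact this
  have hpu : ∀ x ∈ G', Pr q univ (A x) ≤ Real.exp 1 * α := by
    intro x hx
    have := hα2 x hx
    simp only [hlvG x hx] at this
    exact this
  have hsm : ∀ x ∈ G', ∀ F : Finset ι, Pr q univ (fun S => A x (S ∪ F)) ≤
        Real.exp (ψ * F.card) * Pr q univ (A x) := by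
    intro x hx
    have := (hprop x (hG'G hx)).2.2.2
    rw [hlvG x hx] at this
    exact this
  have hGpos : (0 : ℝ) < G.card := by exact_mod_cast hG.card_pos
  have hG'pos : (0 : ℝ) < G'.card := by exact_mod_cast hG'ne.card_pos
  obtain ⟨y0, hy0⟩ := hG
  have hf10 : 0 ≤ f1 := by
    have h3 := (Nat.cast_nonneg _ : (0 : ℝ) ≤ _).trans (hf1 y0 hy0)
    by_contra hneg
    push Not at hneg
    have := mul_neg_of_neg_of_pos hneg hGpos
    linarith
  have hf20 : 0 ≤ f2 := by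
    have h3 := (Nat.cast_nonneg _ : (0 : ℝ) ≤ _).trans (hf2 y0 hy0)
    by_contra hneg
    push Not at hneg
    have := mul_neg_of_neg_of_pos hneg hGpos
    linarith
  have hΓ0 : 0 ≤ Γ := by
    have h3 := (hprop y0 hy0).2.2.1.trans (Pr_le_one (hval _) _ _)
    rw [Real.exp_le_one_iff] at h3
    linarith
  set W : κ → Finset ι := fun x => (J x).biUnion (V x) with hW
  have hlu0 : 0 ≤ lvl H0 i := by have := hlvl0 i; linarith
  have hlu1 : lvl H0 i ≤ 1 := hlvl1 i hi.le
  have hE1 : 0 < Real.exp 1 := Real.exp_pos _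
  -- products
  have hprod : ∀ x ∈ G', ∀ y ∈ G', Pr q univ (A x) * Pr q univ (A y) ≤
      Real.exp 2 * α ^ 2 := by
    intro x hx y hy
    calc Pr q univ (A x) * Pr q univ (A y) ≤ (Real.exp 1 * α) * (Real.exp 1 * α) :=
          mul_le_mul (hpu x hx) (hpu y hy) (Pr_nonneg hqv _ _) (by positivity)
      _ = Real.exp 2 * α ^ 2 := by
          have : Real.exp 2 = Real.exp 1 * Real.exp 1 := by
            rw [← Real.exp_add]
            norm_num
          rw [this]
          ring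
  have hrow : ∀ y ∈ G', ∑ x ∈ G', Pr q univ (Share A W x y) ≤ G'.card * (s * α ^ 2) := by
    intro y hy
    set m : κ → ℝ := fun x => ∑ i ∈ W x ∩ W y, μ i with hm
    -- pointwise bound
    have hpt : ∀ x ∈ G', Pr q univ (Share A W x y) ≤
        (if b1 < m x then Real.exp 1 * α else 0) +
        (if b2 < m x then 2 * (Real.exp 2 * α ^ 2) else 0) +
        2 * Real.exp (2 * ψ) * b2 * (Real.exp 2 * α ^ 2) := by
      intro x hx
      have hnn : 0 ≤ 2 * Real.exp (2 * ψ) * b2 * (Real.exp 2 * α ^ 2) := by positivity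
      by_cases c1 : b1 < m x
      · have h3 : Pr q univ (Share A W x y) ≤ Pr q univ (A x) := Pr_mono hqv fun S _ h => h.1
        rw [if_pos c1]
        have h4 : (0 : ℝ) ≤ (if b2 < m x then 2 * (Real.exp 2 * α ^ 2) else 0) := by
          split_ifs
          · positivity
          · exact le_rfl
        have := hpu x hx
        linarith
      · rw [if_neg c1]
        push Not at c1
        by_cases c2 : b2 < m x
        · rw [if_pos c2]
          have h3 := pair_bound μ hμ hlu0 hlu1 (hA x).1 (hA y).1 (hA x).2 (hA y).2 hψ0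
            (hsm x hx) (hsm y hy) c1 hb1
          have h4 : 2 * Real.exp (2 * ψ) * b1 * (Pr q univ (A x) * Pr q univ (A y)) ≤
              2 * (Real.exp 2 * α ^ 2) := by
            have h5 := hprod x hx y hy
            have h6 : 0 ≤ Pr q univ (A x) * Pr q univ (A y) :=
              mul_nonneg (Pr_nonneg hqv _ _) (Pr_nonneg hqv _ _)
            calc 2 * Real.exp (2 * ψ) * b1 * (Pr q univ (A x) * Pr q univ (A y))
                = 2 * ((Real.exp (2 * ψ) * b1) * (Pr q univ (A x) * Pr q univ (A y))) := by ring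
              _ ≤ 2 * (1 * (Pr q univ (A x) * Pr q univ (A y))) := by
                  apply mul_le_mul_of_nonneg_left _ (by norm_num)
                  exact mul_le_mul_of_nonneg_right hb1 h6
              _ ≤ 2 * (Real.exp 2 * α ^ 2) := by rw [one_mul]; linarith
          have h7 : Pr q univ (Share A W x y) ≤ 2 * (Real.exp 2 * α ^ 2) := h3.trans h4
          linarith
        · rw [if_neg c2]
          push Not at c2
          have h3 := pair_bound μ hμ hlu0 hlu1 (hA x).1 (hA y).1 (hA x).2 (hA y).2 hψ0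
            (hsm x hx) (hsm y hy) c2 hb2
          have h4 : 2 * Real.exp (2 * ψ) * b2 * (Pr q univ (A x) * Pr q univ (A y)) ≤
              2 * Real.exp (2 * ψ) * b2 * (Real.exp 2 * α ^ 2) :=
            mul_le_mul_of_nonneg_left (hprod x hx y hy) (by positivity)
          have h7 : Pr q univ (Share A W x y) ≤
              2 * Real.exp (2 * ψ) * b2 * (Real.exp 2 * α ^ 2) := h3.trans h4
          linarith
    have hc1 : (((G'.filter (fun x => b1 < m x)).card : ℕ) : ℝ) ≤ f1 * G.card := by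
      refine le_trans ?_ (hf1 y (hG'G hy))
      exact_mod_cast Finset.card_le_card (Finset.filter_subset_filter _ hG'G)
    have hc2 : (((G'.filter (fun x => b2 < m x)).card : ℕ) : ℝ) ≤ f2 * G.card := by
      refine le_trans ?_ (hf2 y (hG'G hy))
      exact_mod_cast Finset.card_le_card (Finset.filter_subset_filter _ hG'G)
    have hαα : α ≤ Real.exp (Γ + 1) * α ^ 2 := by
      have h3 := mul_le_mul_of_nonneg_right hα3 (sq_nonneg α)
      have h4 : 1 / α * α ^ 2 = α := by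
        field_simp
      rw [h4] at h3
      exact h3
    calc ∑ x ∈ G', Pr q univ (Share A W x y)
        ≤ ∑ x ∈ G', ((if b1 < m x then Real.exp 1 * α else 0) +
          (if b2 < m x then 2 * (Real.exp 2 * α ^ 2) else 0) +
          2 * Real.exp (2 * ψ) * b2 * (Real.exp 2 * α ^ 2)) := Finset.sum_le_sum hpt
      _ = (G'.filter (fun x => b1 < m x)).card * (Real.exp 1 * α) +
          (G'.filter (fun x => b2 < m x)).card * (2 * (Real.exp 2 * α ^ 2)) +
          G'.card * (2 * Real.exp (2 * ψ) * b2 * (Real.exp 2 * α ^ 2)) := by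
          rw [Finset.sum_add_distrib, Finset.sum_add_distrib, ← Finset.sum_filter,
            ← Finset.sum_filter, Finset.sum_const, Finset.sum_const, Finset.sum_const,
            nsmul_eq_mul, nsmul_eq_mul, nsmul_eq_mul]
      _ ≤ (f1 * G.card) * (Real.exp 1 * α) + (f2 * G.card) * (2 * (Real.exp 2 * α ^ 2)) +
          G'.card * (2 * Real.exp (2 * ψ) * b2 * (Real.exp 2 * α ^ 2)) := by
          have h3 : 0 ≤ Real.exp 1 * α := by positivity
          have h4 : 0 ≤ 2 * (Real.exp 2 * α ^ 2) := by positivity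
          have h5 := mul_le_mul_of_nonneg_right hc1 h3
          have h6 := mul_le_mul_of_nonneg_right hc2 h4
          linarith
      _ ≤ (f1 * (H0 * (Γ + 1) * G'.card)) * (Real.exp 1 * (Real.exp (Γ + 1) * α ^ 2)) +
          (f2 * (H0 * (Γ + 1) * G'.card)) * (2 * (Real.exp 2 * α ^ 2)) +
          G'.card * (2 * Real.exp (2 * ψ) * b2 * (Real.exp 2 * α ^ 2)) := by
          have h3 : f1 * G.card ≤ f1 * (H0 * (Γ + 1) * G'.card) :=
            mul_le_mul_of_nonneg_left hcard hf10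
          have h4 : f2 * G.card ≤ f2 * (H0 * (Γ + 1) * G'.card) :=
            mul_le_mul_of_nonneg_left hcard hf20
          have h5 : Real.exp 1 * α ≤ Real.exp 1 * (Real.exp (Γ + 1) * α ^ 2) :=
            mul_le_mul_of_nonneg_left hαα hE1.le
          have h6 : (f1 * G.card) * (Real.exp 1 * α) ≤
              (f1 * (H0 * (Γ + 1) * G'.card)) * (Real.exp 1 * (Real.exp (Γ + 1) * α ^ 2)) :=
            mul_le_mul h3 h5 (mul_nonneg hE1.le hα0.le)
              (mul_nonneg hf10 (mul_nonneg (mul_nonneg hH2.le (by linarith)) hG'pos.le))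
          have h7 : (f2 * G.card) * (2 * (Real.exp 2 * α ^ 2)) ≤
              (f2 * (H0 * (Γ + 1) * G'.card)) * (2 * (Real.exp 2 * α ^ 2)) :=
            mul_le_mul_of_nonneg_right h4
              (mul_nonneg two_pos.le (mul_nonneg (Real.exp_pos 2).le (sq_nonneg α)))
          linarith
      _ = G'.card * ((H0 * (Γ + 1) * (f1 * Real.exp (Γ + 2) + 2 * Real.exp 2 * f2) +
          2 * Real.exp 2 * Real.exp (2 * ψ) * b2) * α ^ 2) := by
          have : Real.exp (Γ + 2) = Real.exp 1 * Real.exp (Γ + 1) := by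
            rw [← Real.exp_add]
            congr 1
            ring
          rw [this]
          ring
      _ ≤ G'.card * (s * α ^ 2) := by
          apply mul_le_mul_of_nonneg_left _ hG'pos.le
          exact mul_le_mul_of_nonneg_right hs (sq_nonneg α)
  have hfin := chain_final hqv (V := univ) A W (fun x => (hA x).1) (fun x S => (hA x).2 S) G'
    hG'ne hα0 hs0 hpl hrow
  have hanti : Antitone (fun S : Finset ι => ∀ x ∈ G', ¬ A x S) := by
    intro S T hST hT x hx hAS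
    exact hT x hx ((hA x).1 hST hAS)
  have hv1 : Valid (qq 1 μ) := valid_qq zero_le_one hμ
  have hq1 : ∀ i', qq 1 μ i' ≤ q i' := by
    intro i'
    rw [hq]
    unfold qq
    apply Real.exp_le_exp.2
    apply neg_le_neg
    exact mul_le_mul_of_nonneg_right hlu1 (hμ i')
  calc Pr (qq 1 μ) univ (fun S => ∀ x ∈ G, ∃ j ∈ J x, Disjoint S (V x j))
      ≤ Pr (qq 1 μ) univ (fun S => ∀ x ∈ G', ¬ A x S) := by
        refine Pr_mono hv1 fun S _ hS x hx hAS => ?_
        obtain ⟨j, hj, hdis⟩ := hS x (hG'G hx)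
        have h3 := (hprop x (hG'G hx)).2.1 S hAS j hj
        rw [Finset.disjoint_iff_inter_eq_empty] at hdis
        rw [hdis] at h3
        exact Finset.not_nonempty_empty h3
    _ ≤ Pr q univ (fun S => ∀ x ∈ G', ¬ A x S) := Pr_anti_q hqv hv1 hq1 hanti
    _ ≤ Real.exp (-(1 / (2 * s))) := hfin

end Vale.Agent.P230
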