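import Mathlib

open MeasureTheory Filter
open scoped Pointwise ENNReal

namespace Vale.Agent.P230

/-- Euclidean `n`-space. -/
abbrev Sp (n : ℕ) : Type := EuclideanSpace ℝ (Fin n)

/-- A convex body: compact convex with nonempty interior. -/
def IsConvexBody {n : ℕ} (K : Set (Sp n)) : Prop :=
  Convex ℝ K ∧ IsCompact K ∧ (interior K).Nonempty

/-- The cube `Q_R = [-R, R]^n`. -/
def cube (n : ℕ) (R : ℝ) : Set (Sp n) := {x | ∀ i, |x i| ≤ R}

/-- Every bounded set contains only finitely many points of `X`. -/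
def LocFinite {n : ℕ} (X : Set (Sp n)) : Prop :=
  ∀ B : Set (Sp n), Bornology.IsBounded B → (X ∩ B).Finite

/-- `limsup_{R → ∞} #(X ∩ Q_R) / (2R)^n`, with values in `[0, ∞]`. -/
noncomputable def upperDensity {n : ℕ} (X : Set (Sp n)) : ℝ≥0∞ :=
  limsup (fun R : ℝ => ((X ∩ cube n R).encard : ℝ≥0∞) / ENNReal.ofReal ((2 * R) ^ n)) atTop

/-- The translative covering density `θ_T(K)`. -/
noncomputable def thetaT {n : ℕ} (K : Set (Sp n)) : ℝ≥0∞ :=
  ⨅ (X : Set (Sp n)) (_ : LocFinite X) (_ : K + X = Set.univ), volume K * upperDensity X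

end Vale.Agent.P230
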