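import Vale.Agent.P230.Defs

open MeasureTheory Filter
open scoped Pointwise ENNReal

namespace Vale.Agent.P230

/-- The lattice covering density `θ_L(K)`: the infimum of `vol(K) / det Λ` over the full-rank
lattices `Λ` with `K + Λ = ℝ^n`. -/
noncomputable def thetaL {n : ℕ} (K : Set (Sp n)) : ℝ≥0∞ :=
  ⨅ (L : Submodule ℤ (Sp n)) (_ : DiscreteTopology L) (_ : IsZLattice ℝ L)
    (_ : K + (L : Set (Sp n)) = Set.univ), volume K / ENNReal.ofReal (ZLattice.covolume L volume)

end Vale.Agent.P230
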