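import Vale.Agent.P230.DefsL

open MeasureTheory Filter
open scoped Pointwise ENNReal

namespace Vale.Agent.P230

/-- `Θ_T(n) = sup_K θ_T(K)`, the supremum over all convex bodies `K ⊂ ℝⁿ`. -/
noncomputable def ThetaT (n : ℕ) : ℝ≥0∞ :=
  ⨆ (K : Set (Sp n)) (_ : IsConvexBody K), thetaT K

/-- `Θ_L(n) = sup_K θ_L(K)`, the supremum over all convex bodies `K ⊂ ℝⁿ`. -/
noncomputable def ThetaL (n : ℕ) : ℝ≥0∞ :=
  ⨆ (K : Set (Sp n)) (_ : IsConvexBody K), thetaL K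

end Vale.Agent.P230
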