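import Vale.Agent.P230.Params

open Filter Topology

namespace Vale.Agent.P230

theorem union_num {c : ℝ} (hc : 0 < c) :
    ∀ᶠ n : ℕ in atTop,
      ((4 / dl n + 1) ^ n + 1) ^ (⌊20 * (c * n * Real.log n) * (11 / 10 : ℝ) ^ n⌋₊) *
        Real.exp (-(1 / (2 * Real.exp (-(2 / 5 * n))))) ≤ 1 / 8 := by
  have t1 : Tendsto (fun n : ℕ => (3 / 10 * (n : ℝ)) ^ 4 * Real.exp (-(3 / 10 * (n : ℝ)))) atTop
      (𝓝 0) :=
    (Real.tendsto_pow_mul_exp_neg_atTop_nhds_zero 4).comp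
      ((tendsto_natCast_atTop_atTop (R := ℝ)).const_mul_atTop (by norm_num))
  have t2 : Tendsto (fun n : ℕ => 120 * c / (3 / 10) ^ 4 *
      ((3 / 10 * (n : ℝ)) ^ 4 * Real.exp (-(3 / 10 * (n : ℝ))))) atTop (𝓝 0) := by
    simpa using t1.const_mul (120 * c / (3 / 10) ^ 4)
  have e1 := t2.eventually_lt_const (show (0 : ℝ) < 1 / 4 by norm_num)
  filter_upwards [e1, eventually_ge_atTop 30] with n hn1 hn2
  have hn : (30 : ℝ) ≤ n := by exact_mod_cast hn2
  have hn0 : (0 : ℝ) < n := by linarith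
  set K : ℕ := ⌊20 * (c * n * Real.log n) * (11 / 10 : ℝ) ^ n⌋₊ with hK
  have hlog0 : 0 ≤ Real.log n := Real.log_nonneg (by linarith)
  have hlogn : Real.log n ≤ n := (Real.log_le_sub_one_of_pos hn0).trans (by linarith)
  have h11 : (11 / 10 : ℝ) ^ n ≤ Real.exp (1 / 10 * n) := by
    have h1 : (11 / 10 : ℝ) ≤ Real.exp (1 / 10) := by
      have := Real.add_one_le_exp (1 / 10 : ℝ); linarith
    calc (11 / 10 : ℝ) ^ n ≤ (Real.exp (1 / 10)) ^ n := by gcongr
      _ = Real.exp (1 / 10 * n) := by rw [← Real.exp_nat_mul]; congr 1; ring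
  have hKle : (K : ℝ) ≤ 20 * c * n ^ 2 * Real.exp (1 / 10 * n) := by
    calc (K : ℝ) ≤ 20 * (c * n * Real.log n) * (11 / 10 : ℝ) ^ n := Nat.floor_le (by positivity)
      _ ≤ 20 * (c * n * n) * Real.exp (1 / 10 * n) := by gcongr
      _ = 20 * c * n ^ 2 * Real.exp (1 / 10 * n) := by ring
  have hB : (4 / dl n + 1) ^ n + 1 ≤ Real.exp (6 * n ^ 2) := by
    have h1 : 4 / dl n = 4 * (n : ℝ) ^ 5 := by unfold dl; field_simp
    have h2 : (1 : ℝ) ≤ (n : ℝ) ^ 5 := one_le_pow₀ (by linarith)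
    have h3 : (4 / dl n + 1) ^ n + 1 ≤ (4 / dl n + 1 + 1) ^ n := by
      have hx : (0 : ℝ) ≤ 4 / dl n + 1 := by rw [h1]; positivity
      have := pow_add_pow_le hx zero_le_one (show n ≠ 0 by omega)
      simpa using this
    refine h3.trans ?_
    have h4 : 4 / dl n + 1 + 1 ≤ Real.exp (6 * n) := by
      calc 4 / dl n + 1 + 1 ≤ 6 * (n : ℝ) ^ 5 := by rw [h1]; linarith
        _ ≤ n * (n : ℝ) ^ 5 := by gcongr; linarith
        _ = (n : ℝ) ^ 6 := by ring
        _ ≤ (Real.exp n) ^ 6 := by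
            gcongr
            have := Real.add_one_le_exp (n : ℝ); linarith
        _ = Real.exp (6 * n) := by rw [← Real.exp_nat_mul]; norm_num
    calc (4 / dl n + 1 + 1) ^ n ≤ (Real.exp (6 * n)) ^ n := by
          gcongr
          rw [h1]; positivity
      _ = Real.exp (6 * n ^ 2) := by rw [← Real.exp_nat_mul]; congr 1; ring
  have hBK : ((4 / dl n + 1) ^ n + 1) ^ K ≤ Real.exp (120 * c * n ^ 4 * Real.exp (1 / 10 * n)) := by
    calc ((4 / dl n + 1) ^ n + 1) ^ K ≤ (Real.exp (6 * n ^ 2)) ^ K := by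
          gcongr
          have : 0 ≤ dl n := by unfold dl; positivity
          positivity
      _ = Real.exp (K * (6 * n ^ 2)) := by rw [← Real.exp_nat_mul]
      _ ≤ Real.exp (120 * c * n ^ 4 * Real.exp (1 / 10 * n)) := by
          apply Real.exp_le_exp.2
          calc (K : ℝ) * (6 * n ^ 2) ≤ (20 * c * n ^ 2 * Real.exp (1 / 10 * n)) * (6 * n ^ 2) := by
                gcongr
            _ = 120 * c * n ^ 4 * Real.exp (1 / 10 * n) := by ring
  have hE : 1 / (2 * Real.exp (-(2 / 5 * (n : ℝ)))) = Real.exp (2 / 5 * n) / 2 := by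
    rw [Real.exp_neg]; field_simp
  have h5 : 120 * c * n ^ 4 * Real.exp (1 / 10 * n) ≤ 1 / 4 * Real.exp (2 / 5 * n) := by
    have h6 : Real.exp (1 / 10 * (n : ℝ)) = Real.exp (-(3 / 10 * (n : ℝ))) * Real.exp (2 / 5 * n) := by
      rw [← Real.exp_add]; congr 1; ring
    have h7 : 120 * c / (3 / 10) ^ 4 * ((3 / 10 * (n : ℝ)) ^ 4 * Real.exp (-(3 / 10 * (n : ℝ)))) =
        120 * c * n ^ 4 * Real.exp (-(3 / 10 * (n : ℝ))) := by
      field_simp
    rw [h7] at hn1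
    calc 120 * c * n ^ 4 * Real.exp (1 / 10 * n)
        = (120 * c * n ^ 4 * Real.exp (-(3 / 10 * (n : ℝ)))) * Real.exp (2 / 5 * n) := by
          rw [h6]; ring
      _ ≤ 1 / 4 * Real.exp (2 / 5 * n) := by gcongr
  have h8 : 12 ≤ Real.exp (2 / 5 * (n : ℝ)) := by
    have := Real.add_one_le_exp (2 / 5 * (n : ℝ))
    linarith
  rw [hE]
  calc ((4 / dl n + 1) ^ n + 1) ^ K * Real.exp (-(Real.exp (2 / 5 * n) / 2))
      ≤ Real.exp (1 / 4 * Real.exp (2 / 5 * n)) * Real.exp (-(Real.exp (2 / 5 * n) / 2)) := by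
        gcongr
        exact hBK.trans (Real.exp_le_exp.2 h5)
    _ = Real.exp (-(1 / 4 * Real.exp (2 / 5 * n))) := by rw [← Real.exp_add]; congr 1; ring
    _ ≤ Real.exp (-3) := Real.exp_le_exp.2 (by linarith)
    _ ≤ 1 / 8 := by
        rw [Real.exp_neg, inv_eq_one_div]
        apply one_div_le_one_div_of_le (by norm_num)
        have h9 : Real.exp 3 = Real.exp 1 ^ 3 := by rw [← Real.exp_nat_mul]; norm_num
        rw [h9]
        have h10 : (2 : ℝ) ≤ Real.exp 1 := by have := Real.exp_one_gt_d9; linarith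
        calc (8 : ℝ) = 2 ^ 3 := by norm_num
          _ ≤ Real.exp 1 ^ 3 := by gcongr

end Vale.Agent.P230
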