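import Mathlib

/-!
# Number of small subsets
-/

namespace Vale.Agent.P230

theorem card_small_subsets {α : Type*} [DecidableEq α] (Z : Finset α) (m : ℕ) :
    (Z.powerset.filter (fun T => T.card ≤ m)).card ≤ (Z.card + 1) ^ m := by
  have hmaps : ∀ T ∈ Z.powerset.filter (fun T => T.card ≤ m), T.card ∈ Finset.range (m + 1) := by
    intro T hT
    rw [Finset.mem_filter] at hT
    rw [Finset.mem_range]
    omega
  rw [Finset.card_eq_sum_card_fiberwise hmaps, add_pow]
  refine Finset.sum_le_sum fun j hj => ?_
  rw [Finset.mem_range] at hj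
  have h1 : (Finset.filter (fun T => T.card = j)
      (Z.powerset.filter (fun T => T.card ≤ m))).card ≤ Z.card.choose j := by
    rw [← Finset.card_powersetCard]
    apply Finset.card_le_card
    intro T hT
    rw [Finset.mem_filter, Finset.mem_filter, Finset.mem_powerset] at hT
    rw [Finset.mem_powersetCard]
    exact ⟨hT.1.1, hT.2⟩
  have h2 : 1 ≤ m.choose j := Nat.choose_pos (by omega)
  calc _ ≤ Z.card.choose j := h1
    _ ≤ Z.card ^ j := Nat.choose_le_pow _ _
    _ = Z.card ^ j * 1 ^ (m - j) * 1 := by rw [one_pow, mul_one, mul_one]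
    _ ≤ Z.card ^ j * 1 ^ (m - j) * m.choose j := Nat.mul_le_mul_left _ h2

end Vale.Agent.P230
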