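import Vale.Agent.P230.Defs
import Vale.Agent.P230.Grid

open MeasureTheory Filter Finset
open scoped ENNReal

namespace Vale.Agent.P230

theorem isClosed_cube (n : ℕ) (R : ℝ) : IsClosed (cube n R) := by
  have : cube n R = ⋂ i, {x : Sp n | |x i| ≤ R} := by
    ext x; simp [cube]
  rw [this]
  exact isClosed_iInter fun i => isClosed_le (by fun_prop) continuous_const

theorem volume_cube (n : ℕ) (R : ℝ) : volume (cube n R) = ENNReal.ofReal (2 * R) ^ n := by
  have h1 := EuclideanSpace.volume_preserving_symm_measurableEquiv_toLp (Fin n)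
  have h2 : cube n R = (MeasurableEquiv.toLp 2 (Fin n → ℝ)).symm ⁻¹'
      (Set.pi Set.univ fun _ => Set.Icc (-R) R) := by
    ext x
    simp only [cube, abs_le, Set.mem_preimage, Set.mem_pi, Set.mem_univ, forall_true_left,
      Set.mem_Icc]
    rfl
  rw [h2, h1.measure_preimage (MeasurableSet.univ_pi fun _ => measurableSet_Icc).nullMeasurableSet,
    volume_pi_pi]
  simp only [Real.volume_Icc, prod_const, Finset.card_univ, Fintype.card_fin]
  congr 2
  ring

theorem isBounded_cube (n : ℕ) (R : ℝ) : Bornology.IsBounded (cube n R) := by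
  rw [isBounded_iff_forall_norm_le]
  refine ⟨Real.sqrt n * |R|, fun x hx => ?_⟩
  rw [EuclideanSpace.norm_eq]
  have h1 : ∑ i, ‖x i‖ ^ 2 ≤ n * |R| ^ 2 := by
    calc ∑ i, ‖x i‖ ^ 2 ≤ ∑ _i : Fin n, |R| ^ 2 := by
          apply Finset.sum_le_sum
          intro i _
          have h2 : ‖x i‖ ≤ |R| := (hx i).trans (le_abs_self R)
          gcongr
      _ = n * |R| ^ 2 := by simp
  calc Real.sqrt (∑ i, ‖x i‖ ^ 2) ≤ Real.sqrt (n * |R| ^ 2) := Real.sqrt_le_sqrt h1
    _ = Real.sqrt n * |R| := by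
        rw [Real.sqrt_mul (by positivity), Real.sqrt_sq (abs_nonneg _)]

theorem integral_translates_le {n : ℕ} (T : Finset (Sp n)) {g : Sp n → ℝ} (hg : Integrable g)
    (hg0 : ∀ z, 0 ≤ g z) (S : Set (Sp n)) :
    ∫ y in S, ∑ t ∈ T, g (y - t) ≤ T.card * ∫ z, g z := by
  have hi : ∀ t ∈ T, Integrable (fun y => g (y - t)) := fun t _ => hg.comp_sub_right t
  calc ∫ y in S, ∑ t ∈ T, g (y - t) ≤ ∫ y, ∑ t ∈ T, g (y - t) := by
        apply setIntegral_le_integral (integrable_finsetSum T hi)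
        exact Eventually.of_forall fun y => Finset.sum_nonneg fun t _ => hg0 _
    _ = ∑ t ∈ T, ∫ y, g (y - t) := integral_finsetSum T hi
    _ = ∑ _t ∈ T, ∫ z, g z := by
        refine Finset.sum_congr rfl fun t _ => ?_
        exact integral_sub_right_eq_self (fun z => g z) t
    _ = T.card * ∫ z, g z := by simp

theorem eventually_pow_le (n : ℕ) : ∀ᶠ R : ℝ in atTop, (2 * (R + 2)) ^ n ≤ 5 / 4 * (2 * R) ^ n := by
  have h1 : Tendsto (fun R : ℝ => (1 + 2 * R⁻¹) ^ n) atTop (nhds ((1 + 2 * 0) ^ n)) :=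
    ((tendsto_const_nhds.add (tendsto_inv_atTop_zero.const_mul 2)).pow n)
  have h2 : (1 + 2 * (0 : ℝ)) ^ n < 5 / 4 := by norm_num
  filter_upwards [h1.eventually_lt_const h2, eventually_gt_atTop 0] with R hR hR0
  have h3 : (2 * (R + 2)) ^ n = (1 + 2 * R⁻¹) ^ n * (2 * R) ^ n := by
    rw [← mul_pow]
    congr 1
    field_simp
  rw [h3]
  exact mul_le_mul_of_nonneg_right hR.le (by positivity)

theorem exists_radius {n : ℕ} {K : Set (Sp n)} (hvol : vB n / 4 ≤ (volume K).toReal)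
    {X : Set (Sp n)} (hX : LocFinite X) {D : ℝ} (hD : 0 < D)
    (hθ : volume K * upperDensity X < ENNReal.ofReal D) :
    ∃ R : ℝ, 0 < R ∧ ((X ∩ cube n (R + 2)).ncard : ℝ) * vB n ≤ 5 * D * (2 * R) ^ n := by
  have hv := vB_pos n
  have hKtop : volume K ≠ ∞ := by
    intro h
    rw [h, ENNReal.toReal_top] at hvol
    linarith
  have hu : upperDensity X < ENNReal.ofReal (4 * D / vB n) := by
    by_contra hcon
    rw [not_lt] at hcon
    have h1 : ENNReal.ofReal (vB n / 4) ≤ volume K := by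
      rw [← ENNReal.ofReal_toReal hKtop]
      exact ENNReal.ofReal_le_ofReal hvol
    have h2 : ENNReal.ofReal (vB n / 4) * ENNReal.ofReal (4 * D / vB n) ≤
        volume K * upperDensity X := mul_le_mul' h1 hcon
    rw [← ENNReal.ofReal_mul (by positivity)] at h2
    have h3 : vB n / 4 * (4 * D / vB n) = D := by field_simp
    rw [h3] at h2
    exact absurd (h2.trans_lt hθ) (lt_irrefl _)
  have hev : ∀ᶠ R : ℝ in atTop, ((X ∩ cube n R).encard : ℝ≥0∞) / ENNReal.ofReal ((2 * R) ^ n) <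
      ENNReal.ofReal (4 * D / vB n) := eventually_lt_of_limsup_lt hu
  have hev2 := (tendsto_atTop_add_const_right atTop (2 : ℝ) tendsto_id).eventually hev
  obtain ⟨R, hR1, hR2, hR3⟩ :=
    (hev2.and ((eventually_pow_le n).and (eventually_gt_atTop 0))).exists
  simp only [id] at hR1
  refine ⟨R, hR3, ?_⟩
  have hfin : (X ∩ cube n (R + 2)).Finite := hX _ (isBounded_cube n (R + 2))
  have hpos : 0 < (2 * (R + 2)) ^ n := by positivity
  have h4 : ((X ∩ cube n (R + 2)).encard : ℝ≥0∞) <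
      ENNReal.ofReal (4 * D / vB n) * ENNReal.ofReal ((2 * (R + 2)) ^ n) := by
    rwa [ENNReal.div_lt_iff (Or.inl (by simpa using hpos)) (Or.inl ENNReal.ofReal_ne_top)] at hR1
  have h5 : ((X ∩ cube n (R + 2)).encard : ℝ≥0∞) =
      ENNReal.ofReal ((X ∩ cube n (R + 2)).ncard : ℝ) := by
    rw [← hfin.cast_ncard_eq, ENNReal.ofReal_natCast]
    simp
  rw [h5, ← ENNReal.ofReal_mul (by positivity)] at h4
  have h6 := (ENNReal.ofReal_lt_ofReal_iff (by positivity)).1 h4
  calc ((X ∩ cube n (R + 2)).ncard : ℝ) * vB n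
      ≤ (4 * D / vB n * (2 * (R + 2)) ^ n) * vB n := mul_le_mul_of_nonneg_right h6.le hv.le
    _ = 4 * D * (2 * (R + 2)) ^ n := by field_simp
    _ ≤ 4 * D * (5 / 4 * (2 * R) ^ n) := by gcongr
    _ = 5 * D * (2 * R) ^ n := by ring

end Vale.Agent.P230
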