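import Vale.Agent.P230.Defs
import Vale.Agent.P230.Grid

open MeasureTheory Filter Finset
open scoped ENNReal

namespace Vale.Agent.P230

/-- the weight -/
noncomputable def Wf (n : ℕ) (ρ : ℝ) : Sp n → ℝ :=
  (Metric.closedBall (0 : Sp n) (1 + ρ)).indicator fun z => Real.exp (n * (1 - ‖z‖) / 2)

theorem Wf_nonneg (n : ℕ) (ρ : ℝ) (z : Sp n) : 0 ≤ Wf n ρ z :=
  Set.indicator_nonneg (fun _ _ => (Real.exp_pos _).le) z

theorem Wf_integrable (n : ℕ) (ρ : ℝ) : Integrable (Wf n ρ) := by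
  unfold Wf
  rw [integrable_indicator_iff Metric.isClosed_closedBall.measurableSet]
  exact (by fun_prop : Continuous fun z : Sp n => Real.exp (n * (1 - ‖z‖) / 2)).continuousOn.integrableOn_compact
    (isCompact_closedBall _ _)

theorem Wf_le {n : ℕ} (hn : 0 < n) {ρ : ℝ} (hρ : 0 ≤ ρ) (hρn : n * ρ ≤ 1) (z : Sp n) :
    Wf n ρ z ≤ ∑ i ∈ range (n + 1), Real.exp (((i : ℝ) + 1) / 2) *
      (Metric.closedBall (0 : Sp n) (1 - i / n + ρ)).indicator (fun _ => (1 : ℝ)) z := by
  have hn' : (0 : ℝ) < n := by exact_mod_cast hn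
  have hnn : ∀ i ∈ range (n + 1), 0 ≤ Real.exp (((i : ℝ) + 1) / 2) *
      (Metric.closedBall (0 : Sp n) (1 - i / n + ρ)).indicator (fun _ => (1 : ℝ)) z :=
    fun i _ => mul_nonneg (Real.exp_pos _).le (Set.indicator_nonneg (fun _ _ => zero_le_one) z)
  unfold Wf
  by_cases hz : z ∈ Metric.closedBall (0 : Sp n) (1 + ρ)
  · rw [Set.indicator_of_mem hz]
    rw [mem_closedBall_zero_iff] at hz
    set s : ℝ := n * (1 + ρ - ‖z‖) with hs
    have hs0 : 0 ≤ s := mul_nonneg hn'.le (by linarith)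
    have hsn : s ≤ n + 1 := by
      have := norm_nonneg z
      have h1 : s ≤ n * (1 + ρ) := by
        rw [hs]; gcongr; linarith
      linarith
    set i : ℕ := min ⌊s⌋₊ n with hi
    have hin : i ≤ n := min_le_right _ _
    have his : (i : ℝ) ≤ s := by
      calc (i : ℝ) ≤ (⌊s⌋₊ : ℝ) := by exact_mod_cast min_le_left _ _
        _ ≤ s := Nat.floor_le hs0
    have his2 : s ≤ i + 1 := by
      rcases le_total ⌊s⌋₊ n with h | h
      · have : i = ⌊s⌋₊ := min_eq_left h
        rw [this]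
        exact (Nat.lt_floor_add_one s).le
      · have : i = n := min_eq_right h
        rw [this]; exact hsn
    have hmem : z ∈ Metric.closedBall (0 : Sp n) (1 - i / n + ρ) := by
      rw [mem_closedBall_zero_iff]
      have h1 : (i : ℝ) / n ≤ 1 + ρ - ‖z‖ := by
        rw [div_le_iff₀ hn']
        calc (i : ℝ) ≤ s := his
          _ = (1 + ρ - ‖z‖) * n := by rw [hs]; ring
      linarith
    refine le_trans ?_ (Finset.single_le_sum hnn (mem_range.2 (Nat.lt_succ_of_le hin)))
    rw [Set.indicator_of_mem hmem, mul_one]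
    apply Real.exp_le_exp.2
    have h2 : n * (1 - ‖z‖) ≤ s := by
      rw [hs]; nlinarith
    linarith
  · rw [Set.indicator_of_notMem hz]
    exact Finset.sum_nonneg hnn

theorem integral_Wf_le {n : ℕ} (hn : 0 < n) {ρ : ℝ} (hρ : 0 ≤ ρ) (hρn : n * ρ ≤ 1) :
    ∫ z, Wf n ρ z ≤ 12 * vB n := by
  have hn' : (0 : ℝ) < n := by exact_mod_cast hn
  have hv := vB_pos n
  have hint : ∀ i ∈ range (n + 1), Integrable (fun z : Sp n => Real.exp (((i : ℝ) + 1) / 2) *
      (Metric.closedBall (0 : Sp n) (1 - i / n + ρ)).indicator (fun _ => (1 : ℝ)) z) := by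
    intro i _
    apply Integrable.const_mul
    rw [integrable_indicator_iff Metric.isClosed_closedBall.measurableSet]
    exact integrableOn_const (isCompact_closedBall _ _).measure_lt_top.ne
  have h1 : ∫ z, Wf n ρ z ≤ ∫ z : Sp n, ∑ i ∈ range (n + 1), Real.exp (((i : ℝ) + 1) / 2) *
      (Metric.closedBall (0 : Sp n) (1 - i / n + ρ)).indicator (fun _ => (1 : ℝ)) z :=
    integral_mono (Wf_integrable n ρ) (integrable_finsetSum _ hint) (Wf_le hn hρ hρn)
  rw [integral_finsetSum _ hint] at h1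
  set q : ℝ := Real.exp (1 / 2) with hq
  have hq1 : 1 < q := by rw [hq]; exact Real.one_lt_exp_iff.2 (by norm_num)
  have hqq : q * q = Real.exp 1 := by rw [hq, ← Real.exp_add]; norm_num
  have h2 : ∀ i ∈ range (n + 1), ∫ z : Sp n, Real.exp (((i : ℝ) + 1) / 2) *
      (Metric.closedBall (0 : Sp n) (1 - i / n + ρ)).indicator (fun _ => (1 : ℝ)) z ≤
      (q ^ 3 * vB n) * (q⁻¹) ^ i := by
    intro i hi
    rw [mem_range, Nat.lt_succ_iff] at hi
    have hin : (i : ℝ) / n ≤ 1 := by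
      rw [div_le_one hn']; exact_mod_cast hi
    have hr : 0 ≤ 1 - (i : ℝ) / n + ρ := by linarith
    rw [integral_const_mul, integral_indicator Metric.isClosed_closedBall.measurableSet]
    simp only [integral_const, smul_eq_mul, mul_one,
      Measure.real, Measure.restrict_apply_univ]
    rw [volume_closedBall_eq hn 0 hr]
    have h3 : (1 - (i : ℝ) / n + ρ) ^ n ≤ Real.exp (1 - i) := by
      have h4 : 1 - (i : ℝ) / n + ρ ≤ Real.exp (-((i : ℝ) / n) + ρ) := by
        have := Real.add_one_le_exp (-((i : ℝ) / n) + ρ)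
        linarith
      calc (1 - (i : ℝ) / n + ρ) ^ n ≤ (Real.exp (-((i : ℝ) / n) + ρ)) ^ n := by gcongr
        _ = Real.exp (n * (-((i : ℝ) / n) + ρ)) := by rw [← Real.exp_nat_mul]
        _ ≤ Real.exp (1 - i) := by
            apply Real.exp_le_exp.2
            have : n * (-((i : ℝ) / n) + ρ) = -i + n * ρ := by field_simp
            rw [this]; linarith
    have h5 : Real.exp (((i : ℝ) + 1) / 2) * Real.exp (1 - i) = q ^ 3 * (q⁻¹) ^ i := by
      have h6 : (q⁻¹) ^ i = Real.exp (-(i : ℝ) / 2) := by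
        rw [hq, ← Real.exp_neg, ← Real.exp_nat_mul]; congr 1; ring
      rw [h6, hq, ← Real.exp_nat_mul, ← Real.exp_add, ← Real.exp_add]
      congr 1
      push_cast
      ring
    calc Real.exp (((i : ℝ) + 1) / 2) * ((1 - (i : ℝ) / n + ρ) ^ n * vB n)
        ≤ Real.exp (((i : ℝ) + 1) / 2) * (Real.exp (1 - i) * vB n) := by gcongr
      _ = (Real.exp (((i : ℝ) + 1) / 2) * Real.exp (1 - i)) * vB n := by ring
      _ = (q ^ 3 * vB n) * (q⁻¹) ^ i := by rw [h5]; ring
  have h3 : ∑ i ∈ range (n + 1), (q ^ 3 * vB n) * (q⁻¹) ^ i ≤ (q ^ 3 * vB n) * (1 - q⁻¹)⁻¹ := by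
    rw [← Finset.mul_sum]
    apply mul_le_mul_of_nonneg_left _ (by positivity)
    have hq' : q⁻¹ < 1 := inv_lt_one_of_one_lt₀ hq1
    have hs := (hasSum_geometric_of_lt_one (by positivity : 0 ≤ q⁻¹) hq')
    exact sum_le_hasSum _ (fun i _ => by positivity) hs
  have h4 : (q ^ 3 * vB n) * (1 - q⁻¹)⁻¹ ≤ 12 * vB n := by
    have h5 : (1 - q⁻¹)⁻¹ = q / (q - 1) := by
      have : q - 1 ≠ 0 := by linarith
      have : q ≠ 0 := by linarith
      field_simp
    rw [h5]
    have h6 : 1.64 ≤ q := by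
      have he := Real.exp_one_gt_d9
      by_contra hcon
      rw [not_le] at hcon
      nlinarith
    have h7 : q ^ 3 * (q / (q - 1)) ≤ 12 := by
      rw [← mul_div_assoc, div_le_iff₀ (by linarith)]
      have he := Real.exp_one_lt_d9
      have h8 : q ^ 3 * q = Real.exp 1 * Real.exp 1 := by rw [← hqq]; ring
      rw [h8]
      nlinarith [Real.exp_pos 1]
    calc (q ^ 3 * vB n) * (q / (q - 1)) = (q ^ 3 * (q / (q - 1))) * vB n := by ring
      _ ≤ 12 * vB n := by gcongr
  exact h1.trans ((Finset.sum_le_sum h2).trans (h3.trans h4))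

end Vale.Agent.P230
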