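import Vale.Agent.P230.Defs
import Vale.Agent.P230.Grid
import Vale.Agent.P230.WindowAux
import Vale.Agent.P230.WindowAux2

/-!
# A good window of a thin covering (module M7)
-/

open MeasureTheory Filter Finset

namespace Vale.Agent.P230

theorem exists_window {n : ℕ} (hn : 0 < n) {ρ : ℝ} (hρ : 0 ≤ ρ) (hρn : n * ρ ≤ 1)
    (hρ1 : ρ ≤ 1 / 100)
    {K : Set (Sp n)} (hvol : vB n / 4 ≤ (volume K).toReal)
    {X : Set (Sp n)} (hX : LocFinite X) {D : ℝ} (hD : 0 < D)
    (hθ : volume K * upperDensity X < ENNReal.ofReal D)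
    (Q : Finset (Sp n)) (hQ : ∀ x ∈ Q, ‖x‖ ≤ 1 / 10) (hQne : Q.Nonempty) :
    ∃ (y : Sp n) (T0 : Finset (Sp n)),
      (∀ t, t ∈ T0 ↔ t ∈ X ∧ ‖t - y‖ ≤ 11 / 10) ∧
      (T0.card : ℝ) ≤ 20 * D * (11 / 10) ^ n ∧
      ∑ x ∈ Q, ∑ t ∈ T0 with ‖x + y - t‖ ≤ 1 + ρ, Real.exp (n * (1 - ‖x + y - t‖) / 2) ≤
        200 * D * Q.card := by
  have hv := vB_pos n
  obtain ⟨R, hR0, hR⟩ := exists_radius hvol hX hD hθ
  have hfin : (X ∩ cube n (R + 2)).Finite := hX _ (isBounded_cube n (R + 2))
  set T : Finset (Sp n) := hfin.toFinset with hT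
  have hTc : ((X ∩ cube n (R + 2)).ncard : ℝ) = T.card := by
    rw [Set.ncard_eq_toFinset_card _ hfin]
  rw [hTc] at hR
  have hQc : (0 : ℝ) < Q.card := by exact_mod_cast hQne.card_pos
  set g1 : Sp n → ℝ := (Metric.closedBall (0 : Sp n) (11 / 10)).indicator fun _ => (1 : ℝ)
    with hg1
  set g2 : Sp n → ℝ := fun z => ∑ x ∈ Q, Wf n ρ (x + z) with hg2
  set c1 : ℝ := 20 * D * (11 / 10) ^ n with hc1
  set c2 : ℝ := 200 * D * Q.card with hc2
  have hc1p : 0 < c1 := by positivity
  have hc2p : 0 < c2 := by positivity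
  have hg1i : Integrable g1 := by
    rw [hg1, integrable_indicator_iff Metric.isClosed_closedBall.measurableSet]
    exact integrableOn_const (isCompact_closedBall _ _).measure_lt_top.ne
  have hg2i' : ∀ x ∈ Q, Integrable (fun z => Wf n ρ (x + z)) := fun x _ =>
    (Wf_integrable n ρ).comp_add_left x
  have hg2i : Integrable g2 := integrable_finsetSum _ hg2i'
  have hg1n : ∀ z, 0 ≤ g1 z := fun z => Set.indicator_nonneg (fun _ _ => zero_le_one) z
  have hg2n : ∀ z, 0 ≤ g2 z := fun z => Finset.sum_nonneg fun x _ => Wf_nonneg n ρ _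
  have hI1 : ∫ z, g1 z = (11 / 10) ^ n * vB n := by
    rw [hg1, integral_indicator Metric.isClosed_closedBall.measurableSet]
    simp only [integral_const, smul_eq_mul, mul_one, Measure.real, Measure.restrict_apply_univ]
    exact volume_closedBall_eq hn 0 (by norm_num)
  have hI2 : ∫ z, g2 z ≤ Q.card * (12 * vB n) := by
    rw [hg2, integral_finsetSum _ hg2i']
    calc ∑ x ∈ Q, ∫ z, Wf n ρ (x + z) = ∑ _x ∈ Q, ∫ z, Wf n ρ z := by
          refine Finset.sum_congr rfl fun x _ => ?_
          exact integral_add_left_eq_self (fun z => Wf n ρ z) x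
      _ ≤ ∑ _x ∈ Q, 12 * vB n := Finset.sum_le_sum fun _ _ => integral_Wf_le hn hρ hρn
      _ = Q.card * (12 * vB n) := by simp
  set g : Sp n → ℝ := fun z => g1 z / c1 + g2 z / c2 with hg
  have hgi : Integrable g := (hg1i.div_const c1).add (hg2i.div_const c2)
  have hgn : ∀ z, 0 ≤ g z := fun z =>
    add_nonneg (div_nonneg (hg1n z) hc1p.le) (div_nonneg (hg2n z) hc2p.le)
  have hI : ∫ z, g z ≤ 11 / 100 * vB n / D := by
    rw [hg, integral_add (hg1i.div_const c1) (hg2i.div_const c2), integral_div, integral_div, hI1]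
    have h1 : (11 / 10 : ℝ) ^ n * vB n / c1 = vB n / (20 * D) := by
      rw [hc1]; field_simp
    have h2 : (∫ z, g2 z) / c2 ≤ 12 * vB n / (200 * D) := by
      rw [div_le_iff₀ hc2p]
      refine hI2.trans (le_of_eq ?_)
      rw [hc2]; field_simp
    rw [h1]
    have h3 : vB n / (20 * D) + 12 * vB n / (200 * D) = 11 / 100 * vB n / D := by
      field_simp; norm_num
    linarith
  have hsum := integral_translates_le T hgi hgn (cube n R)
  have hcubevol : volume (cube n R) = ENNReal.ofReal (2 * R) ^ n := volume_cube n R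
  have hcube0 : volume (cube n R) ≠ 0 := by
    rw [hcubevol]
    exact pow_ne_zero _ (by simpa using hR0)
  have hcubetop : volume (cube n R) ≠ ⊤ := by
    rw [hcubevol]
    exact ENNReal.pow_ne_top ENNReal.ofReal_ne_top
  have hGint : IntegrableOn (fun y => ∑ t ∈ T, g (y - t)) (cube n R) :=
    (integrable_finsetSum _ fun t _ => hgi.comp_sub_right t).integrableOn
  obtain ⟨y, hy, hGy⟩ := exists_le_setAverage hcube0 hcubetop hGint
  rw [setAverage_eq, Measure.real, hcubevol, ENNReal.toReal_pow,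
    ENNReal.toReal_ofReal (by positivity), smul_eq_mul] at hGy
  have hGy1 : ∑ t ∈ T, g (y - t) ≤ 1 := by
    refine hGy.trans ?_
    have hp : 0 < (2 * R) ^ n := by positivity
    rw [inv_mul_le_iff₀ hp, mul_one]
    refine hsum.trans ?_
    calc (T.card : ℝ) * ∫ z, g z ≤ T.card * (11 / 100 * vB n / D) := by gcongr
      _ = (T.card * vB n) * (11 / 100 / D) := by ring
      _ ≤ (5 * D * (2 * R) ^ n) * (11 / 100 / D) := by gcongr
      _ = 55 / 100 * (2 * R) ^ n := by field_simp; norm_num
      _ ≤ (2 * R) ^ n := by linarith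
  have hS1 : ∑ t ∈ T, g1 (y - t) ≤ c1 := by
    have h1 : ∑ t ∈ T, g1 (y - t) / c1 ≤ 1 := by
      refine le_trans (Finset.sum_le_sum fun t _ => ?_) hGy1
      have := div_nonneg (hg2n (y - t)) hc2p.le
      simp only [hg]
      linarith
    rw [← Finset.sum_div, div_le_one hc1p] at h1
    exact h1
  have hS2 : ∑ t ∈ T, g2 (y - t) ≤ c2 := by
    have h1 : ∑ t ∈ T, g2 (y - t) / c2 ≤ 1 := by
      refine le_trans (Finset.sum_le_sum fun t _ => ?_) hGy1
      have := div_nonneg (hg1n (y - t)) hc1p.le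
      simp only [hg]
      linarith
    rw [← Finset.sum_div, div_le_one hc2p] at h1
    exact h1
  have hfin0 : (X ∩ Metric.closedBall y (11 / 10)).Finite := hX _ Metric.isBounded_closedBall
  refine ⟨y, hfin0.toFinset, ?_, ?_, ?_⟩
  · intro t
    simp [Set.Finite.mem_toFinset, dist_eq_norm]
  · have hsub : hfin0.toFinset ⊆ T := by
      intro t ht
      rw [Set.Finite.mem_toFinset] at ht
      rw [hT, Set.Finite.mem_toFinset]
      refine ⟨ht.1, fun i => ?_⟩
      have h1 : ‖t - y‖ ≤ 11 / 10 := by simpa [dist_eq_norm] using ht.2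
      have h2 : |t i - y i| ≤ ‖t - y‖ := by
        have := PiLp.norm_apply_le (t - y) i
        simpa using this
      have h3 := hy i
      have h4 : |t i| ≤ |t i - y i| + |y i| := by
        have := abs_add_le (t i - y i) (y i)
        simpa using this
      linarith
    calc ((hfin0.toFinset).card : ℝ) = ∑ _t ∈ hfin0.toFinset, (1 : ℝ) := by simp
      _ = ∑ t ∈ hfin0.toFinset, g1 (y - t) := by
          refine Finset.sum_congr rfl fun t ht => ?_
          rw [Set.Finite.mem_toFinset] at ht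
          rw [hg1, Set.indicator_of_mem]
          rw [mem_closedBall_zero_iff, norm_sub_rev]
          simpa [dist_eq_norm] using ht.2
      _ ≤ ∑ t ∈ T, g1 (y - t) := Finset.sum_le_sum_of_subset_of_nonneg hsub fun t _ _ => hg1n _
      _ ≤ c1 := hS1
  · have hsub : ∀ x ∈ Q, (hfin0.toFinset.filter fun t => ‖x + y - t‖ ≤ 1 + ρ) ⊆ T := by
      intro x _ t ht
      rw [Finset.mem_filter, Set.Finite.mem_toFinset] at ht
      rw [hT, Set.Finite.mem_toFinset]
      refine ⟨ht.1.1, fun i => ?_⟩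
      have h1 : ‖t - y‖ ≤ 11 / 10 := by simpa [dist_eq_norm] using ht.1.2
      have h2 : |t i - y i| ≤ ‖t - y‖ := by
        have := PiLp.norm_apply_le (t - y) i
        simpa using this
      have h3 := hy i
      have h4 : |t i| ≤ |t i - y i| + |y i| := by
        have := abs_add_le (t i - y i) (y i)
        simpa using this
      linarith
    calc ∑ x ∈ Q, ∑ t ∈ hfin0.toFinset with ‖x + y - t‖ ≤ 1 + ρ,
          Real.exp (n * (1 - ‖x + y - t‖) / 2)
        ≤ ∑ x ∈ Q, ∑ t ∈ T, Wf n ρ (x + (y - t)) := by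
          refine Finset.sum_le_sum fun x hx => ?_
          refine le_trans (le_of_eq ?_)
            (Finset.sum_le_sum_of_subset_of_nonneg (hsub x hx) fun t _ _ => Wf_nonneg n ρ _)
          refine Finset.sum_congr rfl fun t ht => ?_
          rw [Finset.mem_filter] at ht
          have h1 : x + (y - t) = x + y - t := by abel
          rw [h1, Wf, Set.indicator_of_mem]
          rw [mem_closedBall_zero_iff]
          exact ht.2
      _ = ∑ t ∈ T, g2 (y - t) := by
          rw [Finset.sum_comm]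
      _ ≤ c2 := hS2

end Vale.Agent.P230
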