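import Vale.Agent.P230.Local
import Vale.Agent.P230.Body
import Vale.Agent.P230.Window
import Vale.Agent.P230.SmallSets
import Vale.Agent.P230.FinalNum

/-!
# Union bound and the final lower bound (module M8b)
-/

open MeasureTheory Filter Finset
open scoped Pointwise

namespace Vale.Agent.P230

/-- Rounding an exponential sum to a grid. -/
theorem round_sum {n : ℕ} {ρ : ℝ} (hρn : n * ρ ≤ 1) (r : Sp n → Sp n)
    (T0 : Finset (Sp n)) (x y : Sp n) (hr : ∀ t ∈ T0, ‖r (t - y) - (t - y)‖ ≤ ρ) :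
    ∑ t ∈ T0.image (fun t => r (t - y)) with ‖x - t‖ ≤ 1, Real.exp (n * (1 - ‖x - t‖) / 2) ≤
      2 * ∑ t ∈ T0 with ‖x + y - t‖ ≤ 1 + ρ, Real.exp (n * (1 - ‖x + y - t‖) / 2) := by
  classical
  have key : ∀ t ∈ T0, ‖x + y - t‖ ≤ ‖x - r (t - y)‖ + ρ := by
    intro t ht
    have h1 : x + y - t = (x - r (t - y)) + (r (t - y) - (t - y)) := by abel
    rw [h1]
    exact (norm_add_le _ _).trans (by linarith [hr t ht])
  calc ∑ t ∈ T0.image (fun t => r (t - y)) with ‖x - t‖ ≤ 1, Real.exp (n * (1 - ‖x - t‖) / 2)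
      ≤ ∑ t ∈ T0 with ‖x - r (t - y)‖ ≤ 1, Real.exp (n * (1 - ‖x - r (t - y)‖) / 2) := by
        rw [filter_image]
        exact sum_image_le_of_nonneg (g := fun t => r (t - y))
          (f := fun t => Real.exp (n * (1 - ‖x - t‖) / 2)) (fun t _ => (Real.exp_pos _).le)
    _ ≤ ∑ t ∈ T0 with ‖x - r (t - y)‖ ≤ 1, 2 * Real.exp (n * (1 - ‖x + y - t‖) / 2) := by
        refine sum_le_sum fun t ht => ?_
        obtain ⟨htT, ht1⟩ := mem_filter.mp ht
        have hk := key t htT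
        have h2 : Real.exp (n * (1 - ‖x - r (t - y)‖) / 2) ≤
            Real.exp (1 / 2 + n * (1 - ‖x + y - t‖) / 2) := by
          apply Real.exp_le_exp.mpr
          have hn0 : (0 : ℝ) ≤ n := Nat.cast_nonneg n
          nlinarith
        refine h2.trans ?_
        rw [Real.exp_add]
        have h3 : Real.exp (1 / 2) ≤ 2 := by
          have h4 := Real.exp_one_lt_d9
          have h5 : Real.exp (1 / 2) * Real.exp (1 / 2) = Real.exp 1 := by
            rw [← Real.exp_add]; norm_num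
          nlinarith [Real.exp_pos (1 / 2 : ℝ)]
        exact mul_le_mul_of_nonneg_right h3 (Real.exp_pos _).le
    _ ≤ ∑ t ∈ T0 with ‖x + y - t‖ ≤ 1 + ρ, 2 * Real.exp (n * (1 - ‖x + y - t‖) / 2) := by
        refine sum_le_sum_of_subset_of_nonneg ?_ fun t _ _ => by positivity
        intro t ht
        obtain ⟨htT, ht1⟩ := mem_filter.mp ht
        exact mem_filter.mpr ⟨htT, by linarith [key t htT]⟩
    _ = 2 * ∑ t ∈ T0 with ‖x + y - t‖ ≤ 1 + ρ, Real.exp (n * (1 - ‖x + y - t‖) / 2) := by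
        rw [mul_sum]

/-- The family of candidate translate sets. -/
noncomputable def cand (n : ℕ) (D : ℝ) (Q ZT : Finset (Sp n)) : Finset (Finset (Sp n)) := by
  classical
  exact (ZT.powerset.filter (fun T => T.card ≤ Nat.floor (20 * D * (11 / 10 : ℝ) ^ n))).filter
    (fun T => ∑ x ∈ Q, ∑ t ∈ T with ‖x - t‖ ≤ 1, Real.exp (n * (1 - ‖x - t‖) / 2) ≤
      400 * D * Q.card)

/-- The union bound over all candidate translate sets. -/
theorem union_bound {n : ℕ} {C1 D : ℝ} (P : Params n C1 D) (Z Q ZT : Finset (Sp n))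
    (F : HalfFam n C1 Z)
    (hZ : ∀ z ∈ grid n (dl n), ‖z‖ ≤ 1 → z ∈ Z)
    (hQ : ∀ x, x ∈ Q ↔ x ∈ grid n (dl n) ∧ ‖x‖ ≤ 1 / 10)
    (hZT : ∀ x, x ∈ ZT ↔ x ∈ grid n (dl n) ∧ ‖x‖ ≤ 2)
    (hnum : ((4 / dl n + 1) ^ n + 1) ^ (Nat.floor (20 * D * (11/10 : ℝ) ^ n)) *
      Real.exp (-(1 / (2 * P.s))) ≤ 1/8) :
    Pr (qq 1 F.μ) univ (fun S => ∃ T ∈ cand n D Q ZT,
      ∀ x ∈ Q, ∃ t ∈ T, ‖x - t‖ ≤ 1 ∧ Disjoint S (F.cut (x - t))) ≤ 1 / 8 := by
  classical
  have hn := P.hn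
  have hnr : (0 : ℝ) < n := by exact_mod_cast hn
  have hdl : 0 < dl n := by unfold dl; positivity
  have hD := P.hD
  have h1 := Pr_exists_le (valid_qq zero_le_one F.μ_nonneg) univ (cand n D Q ZT)
    (fun T S => ∀ x ∈ Q, ∃ t ∈ T, ‖x - t‖ ≤ 1 ∧ Disjoint S (F.cut (x - t)))
  refine h1.trans (le_trans ?_ hnum)
  have h2 : ∀ T ∈ cand n D Q ZT, Pr (qq 1 F.μ) univ
      (fun S => ∀ x ∈ Q, ∃ t ∈ T, ‖x - t‖ ≤ 1 ∧ Disjoint S (F.cut (x - t))) ≤
      Real.exp (-(1 / (2 * P.s))) := by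
    intro T hT
    unfold cand at hT
    obtain ⟨hT1, hT2⟩ := mem_filter.mp hT
    obtain ⟨hT3, hT4⟩ := mem_filter.mp hT1
    rw [mem_powerset] at hT3
    refine local_fixed P Z Q T F hZ hQ (fun t ht => ((hZT t).mp (hT3 ht)).1) ?_ hT2
    have h20 : 0 ≤ 20 * D * (11 / 10 : ℝ) ^ n := by positivity
    exact le_trans (by exact_mod_cast hT4) (Nat.floor_le h20)
  refine (sum_le_sum h2).trans ?_
  rw [sum_const, nsmul_eq_mul]
  apply mul_le_mul_of_nonneg_right _ (Real.exp_pos _).le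
  have h3 : (cand n D Q ZT).card ≤ (ZT.card + 1) ^ (Nat.floor (20 * D * (11 / 10 : ℝ) ^ n)) := by
    refine le_trans (card_le_card ?_) (card_small_subsets ZT _)
    unfold cand
    exact filter_subset _ _
  have h4 : (ZT.card : ℝ) ≤ (4 / dl n + 1) ^ n := by
    have h5 := grid_card_crude (n := n) hdl (r := 2) (by norm_num)
    have h6 : (grid n (dl n) ∩ Metric.closedBall (0 : Sp n) 2) = (ZT : Set (Sp n)) := by
      ext x
      simp only [Set.mem_inter_iff, Metric.mem_closedBall, dist_zero_right, mem_coe]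
      exact (hZT x).symm
    rw [h6, Set.ncard_coe_finset] at h5
    refine h5.trans (le_of_eq ?_)
    norm_num
  calc ((cand n D Q ZT).card : ℝ) ≤ ((ZT.card : ℝ) + 1) ^
        (Nat.floor (20 * D * (11 / 10 : ℝ) ^ n)) := by exact_mod_cast h3
    _ ≤ _ := by gcongr

theorem final_fixed {n : ℕ} {C1 D : ℝ} (P : Params n C1 D)
    (hHS : ∀ Z : Finset (Sp n), Nonempty (HalfFam n C1 Z)) (hn4 : 4 ≤ n)
    (hnum : ((4 / dl n + 1) ^ n + 1) ^ (Nat.floor (20 * D * (11/10 : ℝ) ^ n)) *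
      Real.exp (-(1 / (2 * P.s))) ≤ 1/8) :
    ∃ K : Set (Sp n), IsConvexBody K ∧ ENNReal.ofReal D ≤ thetaT K := by
  classical
  have hn := P.hn
  have hD := P.hD
  have hnr : (0 : ℝ) < n := by exact_mod_cast hn
  have hn4r : (4 : ℝ) ≤ n := by exact_mod_cast hn4
  have hdl : 0 < dl n := by unfold dl; positivity
  set ρ : ℝ := 1 / (n : ℝ) ^ 4 with hρdef
  have hρ0 : 0 < ρ := by positivity
  have hρn3 : n * ρ = 1 / (n : ℝ) ^ 3 := by
    rw [hρdef]; field_simp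
  have hn3 : (64 : ℝ) ≤ (n : ℝ) ^ 3 := by
    calc (64 : ℝ) = 4 ^ 3 := by norm_num
      _ ≤ (n : ℝ) ^ 3 := by gcongr
  have hn4' : (256 : ℝ) ≤ (n : ℝ) ^ 4 := by
    calc (256 : ℝ) = 4 ^ 4 := by norm_num
      _ ≤ (n : ℝ) ^ 4 := by gcongr
  have hρle : ρ ≤ 1 / 100 := by
    rw [hρdef]
    exact one_div_le_one_div_of_le (by norm_num) (by linarith)
  have hρn : n * ρ ≤ 1 / 4 := by
    rw [hρn3]
    exact one_div_le_one_div_of_le (by norm_num) (by linarith)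
  have hsqrt : Real.sqrt n * dl n ≤ ρ := by
    have h1 : Real.sqrt n ≤ n := by
      rw [Real.sqrt_le_left hnr.le]
      nlinarith
    calc Real.sqrt n * dl n ≤ n * dl n := mul_le_mul_of_nonneg_right h1 hdl.le
      _ = ρ := by rw [hρdef]; unfold dl; field_simp
  set Z : Finset (Sp n) := (grid_finite hdl (0 : Sp n) 3).toFinset with hZdef
  set Q : Finset (Sp n) := (grid_finite hdl (0 : Sp n) (1 / 10)).toFinset with hQdef
  set ZT : Finset (Sp n) := (grid_finite hdl (0 : Sp n) 2).toFinset with hZTdef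
  have hZ : ∀ x, x ∈ Z ↔ x ∈ grid n (dl n) ∧ ‖x‖ ≤ 3 := by
    intro x; simp [hZdef]
  have hQ : ∀ x, x ∈ Q ↔ x ∈ grid n (dl n) ∧ ‖x‖ ≤ 1 / 10 := by
    intro x; simp [hQdef]
  have hZT : ∀ x, x ∈ ZT ↔ x ∈ grid n (dl n) ∧ ‖x‖ ≤ 2 := by
    intro x; simp [hZTdef]
  obtain ⟨F⟩ := hHS Z
  have hval : Valid (qq 1 F.μ) := valid_qq zero_le_one F.μ_nonneg
  have hbad := union_bound P Z Q ZT F (fun z hz hz1 => (hZ z).mpr ⟨hz, by linarith⟩) hQ hZT hnum
  -- rounding map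
  have hround : ∀ w : Sp n, ∃ z ∈ grid n (dl n), ‖z - w‖ ≤ ρ := fun w => by
    obtain ⟨z, hz, hzw⟩ := grid_round hdl w
    exact ⟨z, hz, hzw.trans hsqrt⟩
  choose r hrg hrd using hround
  -- the offset
  have haa : 4 ≤ aa n := by
    unfold aa
    rw [show (4 : ℝ) = Real.sqrt 16 by rw [show (16:ℝ) = 4 ^ 2 by norm_num]; simp]
    apply Real.sqrt_le_sqrt
    linarith
  have hGρ : (n : ℝ) ^ 2 * ρ = 1 / (n : ℝ) ^ 2 := by rw [hρdef]; field_simp
  have hn2 : 1 / (n : ℝ) ^ 2 ≤ 1 := by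
    rw [div_le_one (by positivity)]
    nlinarith
  have hn2' : 0 < 1 / (n : ℝ) ^ 2 := by positivity
  have hgood := body_prob hn hρ0.le (by linarith) (by positivity : (0:ℝ) ≤ (n : ℝ) ^ 2)
    hn2'.le hn2
    (by rw [hGρ]; linarith) (a := aa n) (by rw [mul_assoc, hGρ]; nlinarith)
    (by
      have h1 := one_add_mul_le_pow (a := -ρ) (by linarith) n
      have h2 : (1 : ℝ) + n * (-ρ) ≤ (1 - ρ) ^ n := by
        simpa [sub_eq_add_neg] using h1
      linarith)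
    F.μ F.μ_nonneg F.g F.g_le Z
    (fun w hw => ⟨r w, (hZ _).mpr ⟨hrg w, by
      have h1 : ‖r w‖ ≤ ‖r w - w‖ + ‖w‖ := by
        simpa using norm_add_le (r w - w) w
      linarith [hrd w]⟩, hrd w⟩)
    F.upper
  -- choose a good outcome
  have hpos : 0 < Pr (qq 1 F.μ) univ (fun S =>
      (vB n / 4 ≤ (volume (body (aa n) ((n : ℝ) ^ 2) ρ F.g S)).toReal) ∧
      ¬ (∃ T ∈ cand n D Q ZT, ∀ x ∈ Q, ∃ t ∈ T, ‖x - t‖ ≤ 1 ∧ Disjoint S (F.cut (x - t)))) := by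
    rw [Pr_and_not]
    have h1 := Pr_mono hval (V := univ)
      (A := fun S => (vB n / 4 ≤ (volume (body (aa n) ((n : ℝ) ^ 2) ρ F.g S)).toReal) ∧
        (∃ T ∈ cand n D Q ZT, ∀ x ∈ Q, ∃ t ∈ T, ‖x - t‖ ≤ 1 ∧ Disjoint S (F.cut (x - t))))
      (B := fun S => (∃ T ∈ cand n D Q ZT, ∀ x ∈ Q, ∃ t ∈ T,
        ‖x - t‖ ≤ 1 ∧ Disjoint S (F.cut (x - t)))) (fun S _ h => h.2)
    linarith
  obtain ⟨S, -, hSvol, hSbad⟩ := Pr_exists_of_pos hpos
  refine ⟨body (aa n) ((n : ℝ) ^ 2) ρ F.g S,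
    body_convexBody hρ0.le (by linarith) (by positivity) (by rw [hGρ]; linarith) F.g F.g_le S, ?_⟩
  unfold thetaT
  refine le_iInf fun X => le_iInf fun hX => le_iInf fun hcov => ?_
  by_contra hlt
  push Not at hlt
  have hQne : Q.Nonempty := ⟨0, (hQ 0).mpr ⟨fun i => ⟨0, by simp⟩, by simp⟩⟩
  obtain ⟨y, T0, hT0, hT0c, hT0s⟩ := exists_window hn hρ0.le (by linarith) hρle hSvol hX hD hlt Q
    (fun x hx => ((hQ x).mp hx).2) hQne
  refine hSbad ⟨T0.image (fun t => r (t - y)), ?_, ?_⟩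
  · unfold cand
    rw [mem_filter, mem_filter, mem_powerset]
    refine ⟨⟨?_, ?_⟩, ?_⟩
    · intro z hz
      obtain ⟨t, ht, rfl⟩ := mem_image.mp hz
      rw [hZT]
      refine ⟨hrg _, ?_⟩
      have h1 : ‖r (t - y)‖ ≤ ‖r (t - y) - (t - y)‖ + ‖t - y‖ := by
        simpa using norm_add_le (r (t - y) - (t - y)) (t - y)
      have h2 := ((hT0 t).mp ht).2
      linarith [hrd (t - y)]
    · refine card_image_le.trans (Nat.le_floor hT0c)
    · calc ∑ x ∈ Q, ∑ t ∈ T0.image (fun t => r (t - y)) with ‖x - t‖ ≤ 1,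
            Real.exp (n * (1 - ‖x - t‖) / 2)
          ≤ ∑ x ∈ Q, 2 * ∑ t ∈ T0 with ‖x + y - t‖ ≤ 1 + ρ,
            Real.exp (n * (1 - ‖x + y - t‖) / 2) :=
            sum_le_sum fun x _ => round_sum (by linarith) r T0 x y (fun t _ => hrd _)
        _ = 2 * ∑ x ∈ Q, ∑ t ∈ T0 with ‖x + y - t‖ ≤ 1 + ρ,
            Real.exp (n * (1 - ‖x + y - t‖) / 2) := by rw [mul_sum]
        _ ≤ 400 * D * Q.card := by linarith
  · intro x hx
    have hxn := ((hQ x).mp hx).2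
    have h1 : x + y ∈ body (aa n) ((n : ℝ) ^ 2) ρ F.g S + X := by rw [hcov]; trivial
    obtain ⟨k, hk, t, ht, hkt⟩ := Set.mem_add.mp h1
    have hk1 : ‖k‖ ≤ 1 := by
      have := body_subset hρ0.le F.g S hk
      simpa using this
    have hxt : x - (t - y) = k := by
      rw [sub_sub_eq_add_sub, ← hkt]
      abel
    have htT0 : t ∈ T0 := by
      rw [hT0]
      refine ⟨ht, ?_⟩
      have h2 : t - y = x - k := by rw [← hxt]; abel
      rw [h2]
      exact (norm_sub_le _ _).trans (by linarith)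
    have h3 := body_round (a := aa n) (ρ := ρ) F.g F.g_le S (x := x) (t := t - y)
      (t' := r (t - y)) (by rw [norm_sub_rev]; exact hrd _) (by rw [hxt]; exact hk)
    refine ⟨r (t - y), mem_image_of_mem _ htT0, h3.1, ?_⟩
    rw [Finset.disjoint_left]
    intro i hiS hicut
    have h4 := h3.2 i hiS
    have h5 : aa n < inner ℝ (F.g i) (x - r (t - y)) := (mem_filter.mp hicut).2
    linarith

theorem lower_bound : ∃ c : ℝ, 0 < c ∧ ∀ᶠ n : ℕ in atTop, ∃ K : Set (Sp n),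
    IsConvexBody K ∧ ENNReal.ofReal (c * n * Real.log n) ≤ thetaT K := by
  obtain ⟨C1, hC1, hHS⟩ := halfspaces
  obtain ⟨c, hc, hpar⟩ := params_exist C1 hC1
  refine ⟨c, hc, ?_⟩
  filter_upwards [hHS, hpar, union_num hc, eventually_ge_atTop 4] with n hHS hP hnum hn4
  obtain ⟨P, hPs⟩ := hP
  refine final_fixed P hHS hn4 ?_
  rw [hPs]
  exact hnum

end Vale.Agent.P230
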