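import Vale.Agent.P230.WindowAux

/-!
# Greedy covering of a bounded region by translates
-/

open MeasureTheory Filter
open scoped Pointwise ENNReal

namespace Vale.Agent.P230

theorem greedy_step {n : ℕ} {K' G U : Set (Sp n)} (hK' : MeasurableSet K')
    (hG : MeasurableSet G) (hU : MeasurableSet U) (hGpos : volume G ≠ 0) (hGfin : volume G ≠ ∞)
    (hUfin : volume U ≠ ∞) (hKfin : volume K' ≠ ∞)
    (hsub : ∀ u ∈ U, ∀ k ∈ K', u - k ∈ G) :
    ∃ x ∈ G, volume U * volume K' / volume G ≤ volume (U ∩ {u | u - x ∈ K'}) := by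
  set f : Sp n → ℝ≥0∞ := fun x => volume (U ∩ {u | u - x ∈ K'}) with hf
  set S : Set (Sp n × Sp n) := {p | p.1 ∈ G ∧ p.2 ∈ U ∧ p.2 - p.1 ∈ K'} with hS
  have hSm : MeasurableSet S := by
    apply MeasurableSet.inter (measurable_fst hG)
    apply MeasurableSet.inter (measurable_snd hU)
    exact (measurable_snd.sub measurable_fst) hK'
  have h1 : (volume.prod volume) S = ∫⁻ x in G, f x := by
    rw [Measure.prod_apply hSm, ← lintegral_indicator hG]
    refine lintegral_congr fun x => ?_
    by_cases hx : x ∈ G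
    · rw [Set.indicator_of_mem hx, hf]
      congr 1
      ext u
      simp [hS, hx]
    · rw [Set.indicator_of_notMem hx]
      have : Prod.mk x ⁻¹' S = ∅ := by
        ext u
        simp [hS, hx]
      rw [this, measure_empty]
  have h2 : (volume.prod volume) S = volume U * volume K' := by
    rw [Measure.prod_apply_symm hSm]
    have h3 : ∀ u, volume ((fun x => (x, u)) ⁻¹' S) =
        U.indicator (fun _ => volume K') u := by
      intro u
      by_cases hu : u ∈ U
      · rw [Set.indicator_of_mem hu]
        have h4 : (fun x => (x, u)) ⁻¹' S = (fun x => u - x) ⁻¹' K' := by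
          ext x
          simp only [hS, Set.mem_preimage, Set.mem_setOf_eq]
          constructor
          · exact fun h => h.2.2
          · intro h
            refine ⟨?_, hu, h⟩
            have := hsub u hu _ h
            rwa [sub_sub_cancel] at this
        rw [h4]
        exact (Measure.measurePreserving_sub_left volume u).measure_preimage hK'.nullMeasurableSet
      · rw [Set.indicator_of_notMem hu]
        have : (fun x => (x, u)) ⁻¹' S = ∅ := by
          ext x
          simp [hS, hu]
        rw [this, measure_empty]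
    rw [lintegral_congr h3, lintegral_indicator hU, setLIntegral_const, mul_comm]
  have h5 : ∫⁻ x in G, f x = volume U * volume K' := by rw [← h1, h2]
  obtain ⟨x, hx, hle⟩ := exists_setLAverage_le hGpos hG.nullMeasurableSet (f := f)
    (by rw [h5]; exact ENNReal.mul_ne_top hUfin hKfin)
  refine ⟨x, hx, ?_⟩
  rw [setLAverage_eq, h5] at hle
  exact hle

theorem greedy_cover {n : ℕ} {K' G Q' : Set (Sp n)} (hK' : MeasurableSet K')
    (hG : MeasurableSet G) (hQ : MeasurableSet Q') (hGpos : volume G ≠ 0) (hGfin : volume G ≠ ∞)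
    (hQfin : volume Q' ≠ ∞) (hKfin : volume K' ≠ ∞) (hsub : ∀ u ∈ Q', ∀ k ∈ K', u - k ∈ G)
    (hle : (volume K').toReal / (volume G).toReal ≤ 1) (N : ℕ) :
    ∃ C : Finset (Sp n), C.card ≤ N ∧
      (volume (Q' \ {u | ∃ c ∈ C, u - c ∈ K'})).toReal ≤
        (1 - (volume K').toReal / (volume G).toReal) ^ N * (volume Q').toReal := by
  classical
  set p := (volume K').toReal / (volume G).toReal with hp
  have hGr : 0 < (volume G).toReal := ENNReal.toReal_pos hGpos hGfin
  induction N with
  | zero =>
    refine ⟨∅, by simp, ?_⟩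
    simp
  | succ N ih =>
    obtain ⟨C, hC, hvol⟩ := ih
    set U := Q' \ {u | ∃ c ∈ C, u - c ∈ K'} with hU
    have hcm : MeasurableSet {u : Sp n | ∃ c ∈ C, u - c ∈ K'} := by
      have : {u : Sp n | ∃ c ∈ C, u - c ∈ K'} = ⋃ c ∈ C, (fun u => u - c) ⁻¹' K' := by
        ext u
        simp
      rw [this]
      exact Finset.measurableSet_biUnion C fun c _ => (measurable_id.sub_const c) hK'
    have hUm : MeasurableSet U := hQ.diff hcm
    have hUfin : volume U ≠ ∞ :=
      ((measure_mono Set.diff_subset).trans_lt (lt_top_iff_ne_top.2 hQfin)).ne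
    obtain ⟨x, hx, hx2⟩ := greedy_step hK' hG hUm hGpos hGfin hUfin hKfin
      (fun u hu k hk => hsub u hu.1 k hk)
    refine ⟨insert x C, ?_, ?_⟩
    · exact (Finset.card_insert_le x C).trans (by omega)
    · have h1 : Q' \ {u | ∃ c ∈ insert x C, u - c ∈ K'} = U \ (U ∩ {u | u - x ∈ K'}) := by
        ext u
        simp only [hU, Set.mem_diff, Set.mem_setOf_eq, Set.mem_inter_iff, Finset.mem_insert]
        constructor
        · rintro ⟨h2, h3⟩
          refine ⟨⟨h2, fun ⟨c, hc, hc2⟩ => h3 ⟨c, Or.inr hc, hc2⟩⟩, ?_⟩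
          rintro ⟨_, h4⟩
          exact h3 ⟨x, Or.inl rfl, h4⟩
        · rintro ⟨⟨h2, h3⟩, h4⟩
          refine ⟨h2, ?_⟩
          rintro ⟨c, hc | hc, hc2⟩
          · subst hc
            exact h4 ⟨⟨h2, h3⟩, hc2⟩
          · exact h3 ⟨c, hc, hc2⟩
      have hxm : MeasurableSet (U ∩ {u | u - x ∈ K'}) :=
        hUm.inter ((measurable_id.sub_const x) hK')
      have hfin2 : volume (U ∩ {u | u - x ∈ K'}) ≠ ∞ :=
        ((measure_mono Set.inter_subset_left).trans_lt (lt_top_iff_ne_top.2 hUfin)).ne
      rw [h1, measure_diff Set.inter_subset_left hxm.nullMeasurableSet hfin2,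
        ENNReal.toReal_sub_of_le (measure_mono Set.inter_subset_left) hUfin]
      have h2 : (volume U).toReal * p ≤ (volume (U ∩ {u | u - x ∈ K'})).toReal := by
        have := (ENNReal.toReal_le_toReal (by
          apply ENNReal.div_ne_top (ENNReal.mul_ne_top hUfin hKfin) hGpos) hfin2).2 hx2
        rw [ENNReal.toReal_div, ENNReal.toReal_mul] at this
        rw [hp, ← mul_div_assoc]
        exact this
      have h3 : 0 ≤ 1 - p := by linarith
      calc (volume U).toReal - (volume (U ∩ {u | u - x ∈ K'})).toReal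
          ≤ (1 - p) * (volume U).toReal := by linarith
        _ ≤ (1 - p) * ((1 - p) ^ N * (volume Q').toReal) := mul_le_mul_of_nonneg_left hvol h3
        _ = (1 - p) ^ (N + 1) * (volume Q').toReal := by rw [pow_succ]; ring

end Vale.Agent.P230
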