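import Vale.Agent.P230.DefsL

open MeasureTheory Filter Topology
open scoped Pointwise ENNReal

namespace Vale.Agent.P230

section lat
variable {n : ℕ}

theorem lat_mem_cube {R : ℝ} (hR : 0 ≤ R) (x : Sp n) :
    x ∈ cube n R ↔ ‖(WithLp.ofLp x : Fin n → ℝ)‖ ≤ R := by
  rw [pi_norm_le_iff_of_nonneg hR]
  rfl

theorem lat_isClosed_cube (n : ℕ) (R : ℝ) : IsClosed (cube n R) := by
  have : cube n R = ⋂ i, {x : Sp n | |x i| ≤ R} := by
    ext x; simp [cube]
  rw [this]
  exact isClosed_iInter fun i => isClosed_le (by fun_prop) continuous_const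

theorem lat_volume_cube (n : ℕ) (R : ℝ) : volume (cube n R) = ENNReal.ofReal (2 * R) ^ n := by
  have h1 := EuclideanSpace.volume_preserving_symm_measurableEquiv_toLp (Fin n)
  have h2 : cube n R = (MeasurableEquiv.toLp 2 (Fin n → ℝ)).symm ⁻¹'
      (Set.pi Set.univ fun _ => Set.Icc (-R) R) := by
    ext x
    simp only [cube, abs_le, Set.mem_preimage, Set.mem_pi, Set.mem_univ, forall_true_left,
      Set.mem_Icc]
    rfl
  rw [h2, h1.measure_preimage (MeasurableSet.univ_pi fun _ => measurableSet_Icc).nullMeasurableSet,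
    volume_pi_pi]
  simp only [Real.volume_Icc, Finset.prod_const, Finset.card_univ, Fintype.card_fin]
  congr 2
  ring

theorem lat_isBounded_cube (n : ℕ) (R : ℝ) : Bornology.IsBounded (cube n R) := by
  rw [isBounded_iff_forall_norm_le]
  refine ⟨Real.sqrt n * |R|, fun x hx => ?_⟩
  rw [EuclideanSpace.norm_eq]
  have h1 : ∑ i, ‖x i‖ ^ 2 ≤ n * |R| ^ 2 := by
    calc ∑ i, ‖x i‖ ^ 2 ≤ ∑ _i : Fin n, |R| ^ 2 := by
          apply Finset.sum_le_sum
          intro i _
          have h2 : ‖x i‖ ≤ |R| := (hx i).trans (le_abs_self R)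
          gcongr
      _ = n * |R| ^ 2 := by simp
  calc Real.sqrt (∑ i, ‖x i‖ ^ 2) ≤ Real.sqrt (n * |R| ^ 2) := Real.sqrt_le_sqrt h1
    _ = Real.sqrt n * |R| := by
      rw [Real.sqrt_mul (Nat.cast_nonneg n), Real.sqrt_sq (abs_nonneg R)]

theorem lat_convex_cube (n : ℕ) (R : ℝ) : Convex ℝ (cube n R) := by
  have : cube n R = ⋂ i, {x : Sp n | |x i| ≤ R} := by
    ext x; simp [cube]
  rw [this]
  refine convex_iInter fun i => ?_
  intro x hx y hy a b ha hb hab
  simp only [Set.mem_setOf_eq] at hx hy ⊢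
  have : (a • x + b • y) i = a * x i + b * y i := rfl
  rw [this]
  calc |a * x i + b * y i| ≤ |a * x i| + |b * y i| := abs_add_le _ _
    _ = a * |x i| + b * |y i| := by rw [abs_mul, abs_mul, abs_of_nonneg ha, abs_of_nonneg hb]
    _ ≤ a * R + b * R := add_le_add (mul_le_mul_of_nonneg_left hx ha)
        (mul_le_mul_of_nonneg_left hy hb)
    _ = R := by rw [← add_mul, hab, one_mul]

variable (L : Submodule ℤ (Sp n)) [DiscreteTopology L] [IsZLattice ℝ L]

/-- counting lattice points in cubes of real side -/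
theorem lat_tendsto :
    Tendsto (fun R : ℝ => (Nat.card ((L : Set (Sp n)) ∩ cube n R : Set (Sp n)) : ℝ) / (2 * R) ^ n)
      atTop (𝓝 (ZLattice.covolume L volume)⁻¹) := by
  rcases Nat.eq_zero_or_pos n with hn | hn
  · subst hn
    have h1 := ZLattice.covolume.tendsto_card_div_pow' L (s := Set.univ)
      (Bornology.IsBounded.subset (lat_isBounded_cube 0 0) fun x _ i => i.elim0)
      MeasurableSet.univ (by rw [frontier_univ, measure_empty])
    have h2 : ∀ s : Set (Sp 0), (0 : Sp 0) ∈ s → s = Set.univ := fun s hs => by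
      ext x
      rw [Subsingleton.elim x 0]
      simp [hs]
    have h3 : volume.real (Set.univ : Set (Sp 0)) = 1 := by
      have := lat_volume_cube 0 0
      rw [h2 (cube 0 0) (fun i => i.elim0)] at this
      rw [Measure.real, this]
      simp
    have hc : ∀ s : Set (Sp 0), (0 : Sp 0) ∈ s → Nat.card s = 1 := fun s hs => by
      rw [h2 s hs]
      simp
    rw [h3, one_div] at h1
    have h4 : ∀ k : ℕ, (Nat.card (Set.univ ∩ (k : ℝ)⁻¹ • (L : Set (Sp 0)) : Set (Sp 0)) : ℝ) /
        (k : ℝ) ^ Module.finrank ℝ (Sp 0) = 1 := fun k => by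
      have hm : (0 : Sp 0) ∈ (Set.univ ∩ (k : ℝ)⁻¹ • (L : Set (Sp 0)) : Set (Sp 0)) :=
        ⟨trivial, ⟨0, L.zero_mem, smul_zero _⟩⟩
      rw [hc _ hm]
      simp
    simp only [h4] at h1
    have h5 := tendsto_nhds_unique h1 tendsto_const_nhds
    rw [h5]
    refine Tendsto.congr (fun R => ?_) tendsto_const_nhds
    have hm : (0 : Sp 0) ∈ ((L : Set (Sp 0)) ∩ cube 0 R : Set (Sp 0)) :=
      ⟨L.zero_mem, fun i => i.elim0⟩
    rw [hc _ hm]
    simp
  · haveI : Nonempty (Fin n) := ⟨⟨0, hn⟩⟩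
    haveI : Nontrivial (Sp n) := inferInstance
    have hset : ∀ R : ℝ, 0 ≤ R →
        {x : Sp n | x ∈ (Set.univ : Set (Sp n)) ∧ ‖(WithLp.ofLp x : Fin n → ℝ)‖ ^ n ≤ R ^ n} =
          cube n R := fun R hR => by
      ext x
      rw [lat_mem_cube hR]
      simp only [Set.mem_univ, true_and, Set.mem_setOf_eq]
      exact pow_le_pow_iff_left₀ (norm_nonneg _) hR hn.ne'
    have hset1 : {x : Sp n | x ∈ (Set.univ : Set (Sp n)) ∧ ‖(WithLp.ofLp x : Fin n → ℝ)‖ ^ n ≤ 1} =
          cube n 1 := by
      have := hset 1 zero_le_one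
      rwa [one_pow] at this
    have h1 := ZLattice.covolume.tendsto_card_le_div' L (X := Set.univ)
      (F := fun x => ‖(WithLp.ofLp x : Fin n → ℝ)‖ ^ n) (fun _ _ _ _ => trivial)
      (fun x r hr => by
        rw [finrank_euclideanSpace_fin, WithLp.ofLp_smul, norm_smul, mul_pow, Real.norm_of_nonneg hr])
      (by rw [hset1]; exact lat_isBounded_cube n 1)
      (by rw [hset1]; exact (lat_isClosed_cube n 1).measurableSet)
      (by rw [hset1]; exact (lat_convex_cube n 1).addHaar_frontier volume)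
    rw [hset1, Measure.real, lat_volume_cube] at h1
    have h2 := h1.comp (tendsto_pow_atTop (α := ℝ) hn.ne')
    have h3 := h2.div_const ((2 : ℝ) ^ n)
    have h4 : ((ENNReal.ofReal (2 * 1) ^ n).toReal / ZLattice.covolume L volume) / (2 : ℝ) ^ n =
        (ZLattice.covolume L volume)⁻¹ := by
      rw [ENNReal.toReal_pow, ENNReal.toReal_ofReal (by norm_num), mul_one]
      field_simp
    rw [h4] at h3
    refine h3.congr' ?_
    filter_upwards [eventually_ge_atTop 0] with R hR
    simp only [Function.comp_apply]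
    rw [hset R hR, Set.inter_comm, mul_pow, div_div, mul_comm ((2 : ℝ) ^ n)]

theorem lat_locFinite : LocFinite (L : Set (Sp n)) := by
  intro B hB
  rw [Set.inter_comm]
  refine Metric.finite_isBounded_inter_isClosed DiscreteTopology.isDiscrete hB ?_
  exact AddSubgroup.isClosed_of_discrete (H := L.toAddSubgroup)

theorem lat_upperDensity :
    upperDensity (L : Set (Sp n)) = (ENNReal.ofReal (ZLattice.covolume L volume))⁻¹ := by
  have hc := ZLattice.covolume_pos L volume
  rw [upperDensity, ← ENNReal.ofReal_inv_of_pos hc]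
  refine Tendsto.limsup_eq ?_
  refine (ENNReal.tendsto_ofReal (lat_tendsto L)).congr' ?_
  filter_upwards [eventually_gt_atTop 0] with R hR
  have hfin : ((L : Set (Sp n)) ∩ cube n R).Finite := lat_locFinite L _ (lat_isBounded_cube n R)
  rw [ENNReal.ofReal_div_of_pos (by positivity), ENNReal.ofReal_natCast]
  congr 1
  rw [hfin.encard_eq_coe_toFinset_card, ← Set.ncard_eq_toFinset_card _ hfin]
  rfl

end lat

theorem thetaT_le_thetaL {n : ℕ} (K : Set (Sp n)) : thetaT K ≤ thetaL K := by
  rw [thetaT, thetaL]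
  refine le_iInf fun L => le_iInf fun hd => le_iInf fun hz => le_iInf fun hcov => ?_
  have h1 : volume K * upperDensity (L : Set (Sp n)) =
      volume K / ENNReal.ofReal (ZLattice.covolume L volume) := by
    rw [lat_upperDensity L]
    rfl
  rw [← h1]
  exact iInf_le_of_le (L : Set (Sp n)) (iInf_le_of_le (lat_locFinite L)
    (iInf_le_of_le hcov le_rfl))

end Vale.Agent.P230
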