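import Mathlib

/-!
# Numerical parameters (module M8c): pure real analysis

Put `D = c n log n` with `c > 0` small depending only on `C1`, `β = 1/(64 (C1+1))`.  Choices:
* `lmin = exp(-(C1 (1 + 4 log n)))`  (for large `n`: `800 D ≤ n²`, so `exp(τ/2) ≤ 800 D` gives
  `τ ≤ 4 log n ≤ n/2`);
* `ls = n^(-1/4)`, `E0 = exp((log n/(4 C1) - 1)/2)`, `d = 800 D / E0`;
* `R = 12 n^(1/4) log n`, `cL = √n`, `H0 = ⌈√n⌉`, `ψ = n^(1-4β)`, `η1 = n^(-β)`;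
* `f1`, `f2` = the quotients making `hf1`, `hf2` equalities; `s = exp(-(2/5) n)`.
Key comparisons: `d ≤ C D n^(-8β)` since `1/(8 C1) ≥ 8β`; `n^(3/4) (log n)^3 ≪ ψ` since
`4β ≤ 1/16`; `5000 n η1² = 5000 n^(1-2β) ≫ 2ψ + 2 log(800 D)`;
`f1 exp(Γ+2)` with `Γ = (3+3 C1) 800 c n log n ≤ (β/2) n log n`:
`log f1 ≤ -β n log n + O(n)`; `f2 ≤ poly · (1.21 · 0.0101/0.0999)^n ≤ e^{-2n}`;
`exp(2ψ) (800 D)² exp(-n/2) ≤ exp(-0.45 n)`.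
-/

open Filter

namespace Vale.Agent.P230

/-- Grid width. -/
noncomputable def dl (n : ℕ) : ℝ := 1 / (n : ℝ) ^ 5

/-- Numerical parameters for the local estimate. -/
structure Params (n : ℕ) (C1 D : ℝ) where
  lmin : ℝ
  ls : ℝ
  cL : ℝ
  R : ℝ
  d : ℝ
  E0 : ℝ
  ψ : ℝ
  η1 : ℝ
  f1 : ℝ
  f2 : ℝ
  s : ℝ
  H0 : ℕ
  hn : 0 < n
  hC1 : 0 < C1
  hD : 0 < D
  hH0 : 0 < H0
  hlmin : 0 < lmin
  hlmin1 : lmin ≤ 1
  hls : 0 < ls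
  hcL : 0 < cL
  hR1 : 1 ≤ R
  hd0 : 0 ≤ d
  hE0 : 0 < E0
  hη1 : 0 ≤ η1
  htau : ∀ τ : ℝ, 0 ≤ τ → Real.exp (τ / 2) ≤ 800 * D →
    τ ≤ n / 2 ∧ lmin ≤ Real.exp (-(C1 * (1 + τ)))
  hdeep : ∀ τ : ℝ, 0 ≤ τ → Real.exp (-(C1 * (1 + τ))) < ls → E0 ≤ Real.exp (τ / 2)
  hdE : 800 * D ≤ d * E0
  hR : 800 * D * Real.exp (-(R * ls / 4)) ≤ 1 / 4
  hψ1 : (3 + 3 * C1) * (800 * D) / H0 ≤ ψ / 4
  hψ2 : cL * Real.log (8 * H0 / lmin) ≤ ψ / 4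
  hψ3 : 4 * R * (800 * D / cL) * Real.log R + d * Real.log (8 / lmin) + Real.log 2 ≤ ψ / 2
  hb1 : Real.exp (2 * ψ) * ((800 * D) ^ 2 * Real.exp (-(5000 * n * η1 ^ 2))) ≤ 1
  hb2 : Real.exp (2 * ψ) * ((800 * D) ^ 2 * Real.exp (-(5000 * n * (1 / 100) ^ 2))) ≤ 1
  hf1 : 2 * (20 * D * (11 / 10) ^ n) ^ 2 * (η1 + Real.sqrt n * dl n) ^ n ≤
    f1 * (1 / 10 - Real.sqrt n * dl n) ^ n
  hf2 : 2 * (20 * D * (11 / 10) ^ n) ^ 2 * (1 / 100 + Real.sqrt n * dl n) ^ n ≤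
    f2 * (1 / 10 - Real.sqrt n * dl n) ^ n
  hρ : Real.sqrt n * dl n < 1 / 10
  hs0 : 0 < s
  hs : H0 * ((3 + 3 * C1) * (800 * D) + 1) *
      (f1 * Real.exp ((3 + 3 * C1) * (800 * D) + 2) + 2 * Real.exp 2 * f2) +
      2 * Real.exp 2 * Real.exp (2 * ψ) *
        ((800 * D) ^ 2 * Real.exp (-(5000 * n * (1 / 100) ^ 2))) ≤ s

theorem ev (K a b : ℝ) (k : ℕ) (hab : a < b) :
    ∀ᶠ n : ℕ in atTop, K * (n:ℝ) ^ a * (Real.log n) ^ k ≤ (n:ℝ) ^ b := by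
  have h1 : (fun x : ℝ => Real.log x ^ (k : ℝ)) =o[atTop] fun x => x ^ (b - a) :=
    isLittleO_log_rpow_rpow_atTop _ (by linarith)
  have hK : 0 < 1 / (|K| + 1) := by positivity
  have h2 := (h1.def hK)
  have h3 : ∀ᶠ x : ℝ in atTop, K * x ^ a * (Real.log x) ^ k ≤ x ^ b := by
    filter_upwards [h2, eventually_ge_atTop (1:ℝ)] with x hx hx1
    have hx0 : 0 < x := by linarith
    have hlog : 0 ≤ Real.log x := Real.log_nonneg hx1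
    rw [Real.norm_of_nonneg (by positivity), Real.norm_of_nonneg (by positivity),
      Real.rpow_natCast] at hx
    have hxa : 0 < x ^ a := Real.rpow_pos_of_pos hx0 a
    have hK1 : K ≤ |K| + 1 := by have := le_abs_self K; linarith
    have hpos : 0 ≤ Real.log x ^ k := by positivity
    calc K * x ^ a * Real.log x ^ k ≤ (|K| + 1) * x ^ a * Real.log x ^ k := by
          gcongr
      _ ≤ (|K| + 1) * x ^ a * (1 / (|K| + 1) * x ^ (b - a)) := by gcongr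
      _ = x ^ a * x ^ (b - a) := by field_simp
      _ = x ^ b := by rw [← Real.rpow_add hx0]; congr 1; ring
  exact tendsto_natCast_atTop_atTop.eventually h3

theorem rho_bd {x : ℝ} (hx : (10:ℝ) ^ 8 ≤ x) {a : ℝ} (ha : -1 ≤ a) :
    Real.sqrt x * (1 / x ^ 5) ≤ x ^ a := by
  have hx0 : 0 < x := by linarith [show (0:ℝ) < 10 ^ 8 by norm_num]
  have h1 : Real.sqrt x * (1 / x ^ 5) = x ^ ((1:ℝ) / 2 + (-5)) := by
    rw [Real.rpow_add hx0, ← Real.sqrt_eq_rpow, Real.rpow_neg hx0.le, one_div]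
    congr 2
    rw [← Real.rpow_natCast]; norm_num
  rw [h1]
  apply Real.rpow_le_rpow_of_exponent_le (by linarith [show (1:ℝ) ≤ 10 ^ 8 by norm_num])
  linarith

theorem H0_bd {x : ℝ} (hx : (10:ℝ) ^ 8 ≤ x) :
    Real.sqrt x ≤ (⌈Real.sqrt x⌉₊ : ℝ) ∧ ((⌈Real.sqrt x⌉₊ : ℕ) : ℝ) ≤ x ∧
      (0:ℝ) < (⌈Real.sqrt x⌉₊ : ℝ) := by
  have hx0 : 0 < x := by linarith [show (0:ℝ) < 10 ^ 8 by norm_num]
  have hsx : (10:ℝ) ^ 4 ≤ Real.sqrt x := by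
    rw [show (10:ℝ) ^ 4 = Real.sqrt (10 ^ 8) by
      rw [show (10:ℝ) ^ 8 = (10 ^ 4) ^ 2 by norm_num, Real.sqrt_sq (by norm_num)]]
    exact Real.sqrt_le_sqrt hx
  have hss : Real.sqrt x * Real.sqrt x = x := Real.mul_self_sqrt hx0.le
  have h1 : ((⌈Real.sqrt x⌉₊ : ℕ) : ℝ) < Real.sqrt x + 1 :=
    Nat.ceil_lt_add_one (Real.sqrt_nonneg _)
  have h2 : Real.sqrt x ≤ (⌈Real.sqrt x⌉₊ : ℝ) := Nat.le_ceil _
  refine ⟨h2, ?_, ?_⟩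
  · have h3 : Real.sqrt x + 1 ≤ Real.sqrt x * Real.sqrt x := by
      nlinarith [hsx, show (2:ℝ) ≤ 10 ^ 4 by norm_num]
    linarith
  · linarith [show (0:ℝ) < 10 ^ 4 by norm_num]

theorem log8_bd {C1 L lmin : ℝ} (hC1 : 0 < C1) (hL : 12 ≤ L)
    (hl : lmin = Real.exp (-(C1 * (1 + 4 * L)))) :
    0 < lmin ∧ lmin ≤ 1 ∧ 0 ≤ Real.log (8 / lmin) ∧ Real.log (8 / lmin) ≤ (3 + 5 * C1) * L := by
  have hlmin0 : 0 < lmin := by rw [hl]; exact Real.exp_pos _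
  have hC1L : 0 ≤ C1 * L := by positivity
  have hl1 : lmin ≤ 1 := by
    rw [hl]; apply Real.exp_le_one_iff.2; nlinarith
  have hlog8 : Real.log 8 ≤ 3 := by
    rw [show (8:ℝ) = 2 ^ 3 by norm_num, Real.log_pow]
    have := Real.log_two_lt_d9
    push_cast; linarith
  refine ⟨hlmin0, hl1, ?_, ?_⟩
  · apply Real.log_nonneg
    rw [le_div_iff₀ hlmin0]
    linarith
  · rw [Real.log_div (by norm_num) hlmin0.ne', hl, Real.log_exp]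
    nlinarith

theorem psi_eta {x β : ℝ} (hx : (10:ℝ) ^ 8 ≤ x) (hβ : 0 < β) :
    x ^ (1 - 4 * β) ≤ x * (x ^ (-β)) ^ 2 ∧ x * (x ^ (-β)) ^ 2 = x ^ (1 - 2 * β) := by
  have hx0 : 0 < x := by linarith [show (0:ℝ) < 10 ^ 8 by norm_num]
  have h1 : x * (x ^ (-β)) ^ 2 = x ^ (1 - 2 * β) := by
    rw [← Real.rpow_natCast, ← Real.rpow_mul hx0.le]
    nth_rewrite 1 [← Real.rpow_one x]
    rw [← Real.rpow_add hx0]
    congr 1; push_cast; ring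
  refine ⟨?_, h1⟩
  rw [h1]
  apply Real.rpow_le_rpow_of_exponent_le (by linarith [show (1:ℝ) ≤ 10 ^ 8 by norm_num])
  linarith

theorem psi3 {x L C1 ψ X R d E0 lmin cL : ℝ} (hx : (10:ℝ) ^ 8 ≤ x) (hL : 12 ≤ L) (hC1 : 0 < C1)
    (hlog : 0 ≤ Real.log (8 / lmin)) (hlog' : Real.log (8 / lmin) ≤ (3 + 5 * C1) * L)
    (hX0 : 0 ≤ X) (hX : X ≤ x * L) (hR : R = 12 * x ^ ((1:ℝ) / 4) * L) (hR1 : 1 ≤ R)
    (hlogR : Real.log R ≤ L) (hcL : cL = Real.sqrt x)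
    (hE0 : E0 = Real.exp ((L / (4 * C1) - 1) / 2)) (hxL : x = Real.exp L) (hd : d = X / E0)
    (e7 : 384 * x ^ ((3:ℝ) / 4) * L ^ 3 ≤ ψ)
    (e8 : 16 * (3 + 5 * C1) * x ^ (1 - 1 / (8 * C1)) * L ^ 2 ≤ ψ) (e9 : 8 ≤ ψ) :
    4 * R * (X / cL) * Real.log R + d * Real.log (8 / lmin) + Real.log 2 ≤ ψ / 2 := by
  have hx0 : 0 < x := by linarith [show (0:ℝ) < 10 ^ 8 by norm_num]
  have hlogR0 : 0 ≤ Real.log R := Real.log_nonneg hR1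
  have hs0 : 0 < Real.sqrt x := Real.sqrt_pos.2 hx0
  have hXc : X / cL ≤ Real.sqrt x * L := by
    rw [hcL, div_le_iff₀ hs0]
    have : Real.sqrt x * Real.sqrt x = x := Real.mul_self_sqrt hx0.le
    nlinarith
  have hXc0 : 0 ≤ X / cL := by rw [hcL]; positivity
  have h34 : x ^ ((1:ℝ) / 4) * Real.sqrt x = x ^ ((3:ℝ) / 4) := by
    rw [Real.sqrt_eq_rpow, ← Real.rpow_add hx0]; norm_num
  have t1 : 4 * R * (X / cL) * Real.log R ≤ ψ / 8 := by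
    calc 4 * R * (X / cL) * Real.log R ≤ 4 * R * (Real.sqrt x * L) * L := by gcongr
      _ = 48 * (x ^ ((1:ℝ) / 4) * Real.sqrt x) * L ^ 3 := by rw [hR]; ring
      _ = 48 * x ^ ((3:ℝ) / 4) * L ^ 3 := by rw [h34]
      _ ≤ ψ / 8 := by linarith
  have hE : 1 / E0 ≤ 2 * x ^ (-(1 / (8 * C1))) := by
    have h1 : 1 / E0 = Real.exp (1 / 2) * x ^ (-(1 / (8 * C1))) := by
      rw [hE0, one_div, ← Real.exp_neg, Real.rpow_def_of_pos hx0, ← Real.exp_add]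
      congr 1
      rw [hxL, Real.log_exp]
      field_simp
      ring
    have h2 : Real.exp (1 / 2) ≤ 2 := by
      have h3 := Real.exp_one_lt_d9
      have h4 : Real.exp (1 / 2) ^ 2 = Real.exp 1 := by
        rw [← Real.exp_nat_mul]; norm_num
      nlinarith [Real.exp_pos (1 / 2)]
    rw [h1]
    gcongr
  have t2 : d * Real.log (8 / lmin) ≤ ψ / 8 := by
    have hp : 0 ≤ x ^ (-(1 / (8 * C1))) := (Real.rpow_pos_of_pos hx0 _).le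
    have hE00 : 0 < E0 := by rw [hE0]; exact Real.exp_pos _
    have hd1 : d ≤ (x * L) * (2 * x ^ (-(1 / (8 * C1)))) := by
      rw [hd, div_eq_mul_one_div]
      gcongr
    have hd0 : 0 ≤ d := by rw [hd]; positivity
    have hxx : x * x ^ (-(1 / (8 * C1))) = x ^ (1 - 1 / (8 * C1)) := by
      nth_rewrite 1 [← Real.rpow_one x]
      rw [← Real.rpow_add hx0]; congr 1
    calc d * Real.log (8 / lmin) ≤ ((x * L) * (2 * x ^ (-(1 / (8 * C1))))) * ((3 + 5 * C1) * L) := by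
          gcongr
      _ = 2 * (3 + 5 * C1) * (x * x ^ (-(1 / (8 * C1)))) * L ^ 2 := by ring
      _ = 2 * (3 + 5 * C1) * x ^ (1 - 1 / (8 * C1)) * L ^ 2 := by rw [hxx]
      _ ≤ ψ / 8 := by linarith
  have t3 : Real.log 2 ≤ ψ / 8 := by
    have := Real.log_two_lt_d9
    linarith
  linarith

theorem exp4 : (121:ℝ) / 100 * 40 ≤ Real.exp 4 := by
  have h := Real.exp_one_gt_d9
  have h4 : Real.exp 4 = Real.exp 1 ^ 4 := by rw [← Real.exp_nat_mul]; norm_num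
  rw [h4]
  calc (121:ℝ) / 100 * 40 ≤ (2.7182818283:ℝ) ^ 4 := by norm_num
    _ ≤ Real.exp 1 ^ 4 := by gcongr

theorem exp_neg2 : (13:ℝ) / 100 ≤ Real.exp (-2) := by
  have h := Real.exp_one_lt_d9
  have h2 : Real.exp (-2) = (Real.exp 1 ^ 2)⁻¹ := by
    rw [← Real.exp_nat_mul, ← Real.exp_neg]; norm_num
  rw [h2, le_inv_comm₀ (by norm_num) (by positivity)]
  calc Real.exp 1 ^ 2 ≤ (2.7182818286:ℝ) ^ 2 := by gcongr
    _ ≤ (13 / 100)⁻¹ := by norm_num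

theorem pow_ratio {n : ℕ} {D a b : ℝ} :
    2 * (20 * D * (11 / 10) ^ n) ^ 2 * a ^ n / b ^ n =
      800 * D ^ 2 * (121 / 100 * a / b) ^ n := by
  have h1 : (121 / 100 * a / b) ^ n = (121 / 100) ^ n * a ^ n / b ^ n := by
    rw [div_pow, mul_pow]
  have h2 : (((11:ℝ) / 10) ^ n) ^ 2 = (121 / 100) ^ n := by
    rw [← pow_mul, mul_comm, pow_mul]; norm_num
  rw [h1, ← h2]
  ring

theorem D2_bd {x D : ℝ} (hD0 : 0 ≤ D) (hD : 800 * D ≤ x ^ 2) : 800 * D ^ 2 ≤ x ^ 4 := by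
  have h1 : (800 * D) ^ 2 ≤ (x ^ 2) ^ 2 := by gcongr
  nlinarith [sq_nonneg D]

theorem f1_bd {n : ℕ} {x L D β η ρ Γ : ℝ} (hx : x = n) (hx0 : 0 < x)
    (hη : η = Real.exp (-(β * L))) (hρ0 : 0 < ρ) (hρη : ρ ≤ η) (hρ8 : ρ ≤ 1 / 10 ^ 8)
    (hβL : 12 ≤ β * L) (hΓ : Γ = β / 2 * (x * L)) (hD0 : 0 ≤ D) (hD : 800 * D ≤ x ^ 2) :
    2 * (20 * D * (11 / 10) ^ n) ^ 2 * (η + ρ) ^ n / (1 / 10 - ρ) ^ n * Real.exp (Γ + 2) ≤
      x ^ 4 * Real.exp (2 - 2 * x) := by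
  have hη0 : 0 < η := by rw [hη]; exact Real.exp_pos _
  have hb : 1 / 20 ≤ 1 / 10 - ρ := by
    have : (1:ℝ) / 10 ^ 8 ≤ 1 / 20 := by norm_num
    linarith
  have hb0 : 0 < 1 / 10 - ρ := by linarith
  have hq : 121 / 100 * (η + ρ) / (1 / 10 - ρ) ≤ Real.exp (4 - β * L) := by
    rw [sub_eq_add_neg 4, Real.exp_add, ← hη]
    calc 121 / 100 * (η + ρ) / (1 / 10 - ρ) ≤ 121 / 100 * (η + η) / (1 / 20) := by gcongr
      _ = 121 / 100 * 40 * η := by ring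
      _ ≤ Real.exp 4 * η := by
        have := exp4
        gcongr
  have hq0 : 0 ≤ 121 / 100 * (η + ρ) / (1 / 10 - ρ) := by positivity
  rw [pow_ratio]
  calc 800 * D ^ 2 * (121 / 100 * (η + ρ) / (1 / 10 - ρ)) ^ n * Real.exp (Γ + 2)
      ≤ x ^ 4 * (Real.exp (4 - β * L)) ^ n * Real.exp (Γ + 2) := by
        have := D2_bd hD0 hD
        gcongr
    _ = x ^ 4 * Real.exp (x * (4 - β * L) + (Γ + 2)) := by
        rw [← Real.exp_nat_mul, ← hx, mul_assoc, ← Real.exp_add]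
    _ ≤ x ^ 4 * Real.exp (2 - 2 * x) := by
        gcongr
        rw [hΓ]
        nlinarith

theorem f2_bd {n : ℕ} {x D ρ : ℝ} (hx : x = n) (hρ0 : 0 < ρ) (hρ8 : ρ ≤ 1 / 10 ^ 8)
    (hD0 : 0 ≤ D) (hD : 800 * D ≤ x ^ 2) :
    2 * (20 * D * (11 / 10) ^ n) ^ 2 * (1 / 100 + ρ) ^ n / (1 / 10 - ρ) ^ n ≤
      x ^ 4 * Real.exp (-(2 * x)) := by
  have hb0 : 0 < 1 / 10 - ρ := by
    have : (1:ℝ) / 10 ^ 8 < 1 / 10 := by norm_num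
    linarith
  have hq : 121 / 100 * (1 / 100 + ρ) / (1 / 10 - ρ) ≤ Real.exp (-2) := by
    refine le_trans ?_ exp_neg2
    rw [div_le_iff₀ hb0]
    have : ρ ≤ 1 / 10 ^ 8 := hρ8
    norm_num at this ⊢
    linarith
  have hq0 : 0 ≤ 121 / 100 * (1 / 100 + ρ) / (1 / 10 - ρ) := by positivity
  rw [pow_ratio]
  calc 800 * D ^ 2 * (121 / 100 * (1 / 100 + ρ) / (1 / 10 - ρ)) ^ n
      ≤ x ^ 4 * (Real.exp (-2)) ^ n := by
        have := D2_bd hD0 hD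
        gcongr
    _ = x ^ 4 * Real.exp (-(2 * x)) := by
        rw [← Real.exp_nat_mul, ← hx]; congr 2; ring

theorem hs_bd {x L Γ H A f2 ψ X : ℝ} (hx8 : (10:ℝ) ^ 8 ≤ x) (hxL : x = Real.exp L)
    (hL : 1000 * L ≤ x) (hL0 : 12 ≤ L) (hH0 : 0 ≤ H) (hH : H ≤ x) (hΓ0 : 0 ≤ Γ)
    (hΓ : Γ + 1 ≤ x ^ 2) (hA0 : 0 ≤ A) (hA : A ≤ x ^ 4 * Real.exp (2 - 2 * x))
    (hf20 : 0 ≤ f2) (hf2 : f2 ≤ x ^ 4 * Real.exp (-(2 * x))) (hψ : 1000 * ψ ≤ x)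
    (hX : X ^ 2 ≤ Real.exp (4 * L)) :
    H * (Γ + 1) * (A + 2 * Real.exp 2 * f2) +
      2 * Real.exp 2 * Real.exp (2 * ψ) * (X ^ 2 * Real.exp (-(x / 2))) ≤
      Real.exp (-(2 / 5 * x)) := by
  have hx0 : 0 < x := by linarith [show (0:ℝ) < 10 ^ 8 by norm_num]
  have hx7 : x * x ^ 2 * x ^ 4 = Real.exp (7 * L) := by
    rw [show x * x ^ 2 * x ^ 4 = x ^ 7 by ring, hxL, ← Real.exp_nat_mul]; norm_num
  have h1 : H * (Γ + 1) * (A + 2 * Real.exp 2 * f2) ≤ 3 * Real.exp (2 - 9 / 20 * x) := by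
    calc H * (Γ + 1) * (A + 2 * Real.exp 2 * f2)
        ≤ x * x ^ 2 * (x ^ 4 * Real.exp (2 - 2 * x) +
            2 * Real.exp 2 * (x ^ 4 * Real.exp (-(2 * x)))) := by gcongr
      _ = 3 * (x * x ^ 2 * x ^ 4) * Real.exp (2 - 2 * x) := by
          rw [show (2 - 2 * x) = 2 + -(2 * x) by ring, Real.exp_add]; ring
      _ = 3 * Real.exp (7 * L + (2 - 2 * x)) := by rw [hx7, Real.exp_add]; ring
      _ ≤ 3 * Real.exp (2 - 9 / 20 * x) := by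
          gcongr; linarith
  have h2 : 2 * Real.exp 2 * Real.exp (2 * ψ) * (X ^ 2 * Real.exp (-(x / 2))) ≤
      2 * Real.exp (2 - 9 / 20 * x) := by
    calc 2 * Real.exp 2 * Real.exp (2 * ψ) * (X ^ 2 * Real.exp (-(x / 2)))
        ≤ 2 * Real.exp 2 * Real.exp (2 * ψ) * (Real.exp (4 * L) * Real.exp (-(x / 2))) := by
          gcongr
      _ = 2 * Real.exp (2 + 2 * ψ + 4 * L + -(x / 2)) := by
          rw [Real.exp_add, Real.exp_add, Real.exp_add]; ring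
      _ ≤ 2 * Real.exp (2 - 9 / 20 * x) := by
          gcongr; linarith
  have h5 : (5:ℝ) ≤ Real.exp 5 := by
    have := Real.add_one_le_exp (5:ℝ); linarith
  calc _ ≤ 5 * Real.exp (2 - 9 / 20 * x) := by linarith
    _ ≤ Real.exp 5 * Real.exp (2 - 9 / 20 * x) := by gcongr
    _ = Real.exp (5 + (2 - 9 / 20 * x)) := by rw [Real.exp_add]
    _ ≤ Real.exp (-(2 / 5 * x)) := by
        apply Real.exp_le_exp.2
        have : (10:ℝ) ^ 8 = 100000000 := by norm_num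
        linarith

theorem htau_l {C1 x L lmin X : ℝ} {n : ℕ} (hx : x = n) (hC1 : 0 < C1)
    (hX : X ≤ Real.exp (2 * L)) (hL : 8 * L ≤ x) (hl : lmin = Real.exp (-(C1 * (1 + 4 * L))))
    (τ : ℝ) (h : Real.exp (τ / 2) ≤ X) :
    τ ≤ n / 2 ∧ lmin ≤ Real.exp (-(C1 * (1 + τ))) := by
  have h1 : Real.exp (τ / 2) ≤ Real.exp (2 * L) := h.trans hX
  have h2 : τ / 2 ≤ 2 * L := Real.exp_le_exp.1 h1
  refine ⟨by rw [← hx]; linarith, ?_⟩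
  rw [hl]
  apply Real.exp_le_exp.2
  have h3 : C1 * (1 + τ) ≤ C1 * (1 + 4 * L) := by
    apply mul_le_mul_of_nonneg_left _ hC1.le
    linarith
  linarith

theorem hdeep_l {C1 x L E0 : ℝ} (hx0 : 0 < x) (hC1 : 0 < C1) (hL : L = Real.log x)
    (hE : E0 = Real.exp ((L / (4 * C1) - 1) / 2)) (τ : ℝ)
    (h : Real.exp (-(C1 * (1 + τ))) < x ^ (-(1:ℝ) / 4)) : E0 ≤ Real.exp (τ / 2) := by
  rw [hE]
  apply Real.exp_le_exp.2
  rw [Real.rpow_def_of_pos hx0, ← hL, Real.exp_lt_exp] at h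
  have h1 : L / (4 * C1) < 1 + τ := by
    rw [div_lt_iff₀ (by positivity)]
    linarith
  linarith

theorem hR_l {x L R X : ℝ} (hx : (10:ℝ) ^ 8 ≤ x) (hxL : x = Real.exp L)
    (hR : R = 12 * x ^ ((1:ℝ) / 4) * L) (hX : X ≤ Real.exp (2 * L)) :
    X * Real.exp (-(R * x ^ (-(1:ℝ) / 4) / 4)) ≤ 1 / 4 := by
  have hx0 : 0 < x := by linarith [show (0:ℝ) < 10 ^ 8 by norm_num]
  have h1 : R * x ^ (-(1:ℝ) / 4) / 4 = 3 * L := by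
    have h2 : x ^ ((1:ℝ) / 4) * x ^ (-(1:ℝ) / 4) = 1 := by
      rw [← Real.rpow_add hx0]; norm_num
    calc R * x ^ (-(1:ℝ) / 4) / 4 = 3 * L * (x ^ ((1:ℝ) / 4) * x ^ (-(1:ℝ) / 4)) := by
          rw [hR]; ring
      _ = 3 * L := by rw [h2, mul_one]
  rw [h1]
  have h3 : x⁻¹ ≤ (10 ^ 8)⁻¹ := inv_anti₀ (by norm_num) hx
  calc X * Real.exp (-(3 * L)) ≤ Real.exp (2 * L) * Real.exp (-(3 * L)) :=
        mul_le_mul_of_nonneg_right hX (Real.exp_pos _).le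
    _ = Real.exp (-L) := by rw [← Real.exp_add]; congr 1; ring
    _ = x⁻¹ := by rw [Real.exp_neg, ← hxL]
    _ ≤ (10 ^ 8)⁻¹ := h3
    _ ≤ 1 / 4 := by norm_num

theorem hψ1_l {x L β Γ ψ H : ℝ} (hx0 : 0 < x) (hψ0 : 0 ≤ ψ) (hH0 : 0 < H)
    (hH : Real.sqrt x ≤ H) (hΓ : Γ = β / 2 * (x * L))
    (e5 : 2 * β * x ^ ((1:ℝ) / 2) * L ≤ ψ) : Γ / H ≤ ψ / 4 := by
  rw [hΓ, div_le_iff₀ hH0]
  have hss : Real.sqrt x * Real.sqrt x = x := Real.mul_self_sqrt hx0.le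
  rw [← Real.sqrt_eq_rpow] at e5
  have h0 : 0 ≤ Real.sqrt x := Real.sqrt_nonneg x
  calc β / 2 * (x * L) = β / 2 * ((Real.sqrt x * Real.sqrt x) * L) := by rw [hss]
    _ = (2 * β * Real.sqrt x * L) / 4 * Real.sqrt x := by ring
    _ ≤ ψ / 4 * H := by gcongr

theorem hψ2_l {x L C1 ψ lmin H : ℝ} (hH0 : 0 < H) (hlogH : Real.log H ≤ L) (hl0 : 0 < lmin)
    (hl : Real.log (8 / lmin) ≤ (3 + 5 * C1) * L)
    (e6 : 4 * (4 + 5 * C1) * x ^ ((1:ℝ) / 2) * L ≤ ψ) :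
    Real.sqrt x * Real.log (8 * H / lmin) ≤ ψ / 4 := by
  rw [← Real.sqrt_eq_rpow] at e6
  have h1 : Real.log (8 * H / lmin) ≤ (4 + 5 * C1) * L := by
    rw [show 8 * (H:ℝ) / lmin = 8 / lmin * H by ring,
      Real.log_mul (by positivity) hH0.ne']
    linarith
  have h0 : 0 ≤ Real.sqrt x := Real.sqrt_nonneg x
  calc Real.sqrt x * Real.log (8 * H / lmin) ≤ Real.sqrt x * ((4 + 5 * C1) * L) :=
        mul_le_mul_of_nonneg_left h1 h0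
    _ = (4 * (4 + 5 * C1) * Real.sqrt x * L) / 4 := by ring
    _ ≤ ψ / 4 := by linarith

theorem hb_l {L ψ X Y : ℝ} (hX : X ^ 2 ≤ Real.exp (4 * L)) (h : 2 * ψ + 4 * L ≤ Y) :
    Real.exp (2 * ψ) * (X ^ 2 * Real.exp (-Y)) ≤ 1 := by
  calc Real.exp (2 * ψ) * (X ^ 2 * Real.exp (-Y))
      ≤ Real.exp (2 * ψ) * (Real.exp (4 * L) * Real.exp (-Y)) := by gcongr
    _ = Real.exp (2 * ψ + (4 * L + -Y)) := by
        rw [← Real.exp_add, ← Real.exp_add]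
    _ ≤ 1 := by
        apply Real.exp_le_one_iff.2
        linarith

theorem hR1_l {x L R : ℝ} (hx : (10:ℝ) ^ 8 ≤ x) (hL : 12 ≤ L)
    (hR : R = 12 * x ^ ((1:ℝ) / 4) * L) : 1 ≤ R := by
  have hx14 : 1 ≤ x ^ ((1:ℝ) / 4) :=
    Real.one_le_rpow (by linarith [show (1:ℝ) ≤ 10 ^ 8 by norm_num]) (by norm_num)
  rw [hR]
  calc (1:ℝ) ≤ 12 * 1 * 12 := by norm_num
    _ ≤ 12 * x ^ ((1:ℝ) / 4) * L := by gcongr

theorem hΓ1_l {x L β Γ : ℝ} (hx : (10:ℝ) ^ 8 ≤ x) (hβ0 : 0 < β) (hβ1 : β ≤ 1 / 64)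
    (hL0 : 0 < L) (hLx : L ≤ x) (hΓ : Γ = β / 2 * (x * L)) : Γ + 1 ≤ x ^ 2 := by
  have hx0 : 0 < x := by linarith [show (0:ℝ) < 10 ^ 8 by norm_num]
  rw [hΓ]
  have h1 : β / 2 * (x * L) ≤ 1 / 128 * (x * x) := by
    have : β / 2 ≤ 1 / 128 := by linarith
    gcongr
  have h2 : 10 ^ 8 * 10 ^ 8 ≤ x * x := by gcongr
  have h3 : (2:ℝ) ≤ 10 ^ 8 * 10 ^ 8 := by norm_num
  have h4 : x ^ 2 = x * x := by ring
  rw [h4]
  linarith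

theorem rho_facts {n : ℕ} {x β ρ η : ℝ} (hx : x = n) (hx8 : (10:ℝ) ^ 8 ≤ x) (hβ1 : β ≤ 1)
    (hη : η = x ^ (-β)) (hρ : ρ = Real.sqrt n * dl n) :
    0 < ρ ∧ ρ ≤ η ∧ ρ ≤ 1 / 10 ^ 8 := by
  have hx0 : 0 < x := by linarith [show (0:ℝ) < 10 ^ 8 by norm_num]
  have hρx : ρ = Real.sqrt x * (1 / x ^ 5) := by rw [hρ, dl, ← hx]
  have hρ0 : 0 < ρ := by rw [hρx]; positivity
  have hρ1 : ρ ≤ η := by rw [hρx, hη]; exact rho_bd hx8 (by linarith)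
  refine ⟨hρ0, hρ1, ?_⟩
  have h1 : ρ ≤ x ^ (-1 : ℝ) := by rw [hρx]; exact rho_bd hx8 le_rfl
  rw [Real.rpow_neg_one] at h1
  calc ρ ≤ x⁻¹ := h1
    _ ≤ (10 ^ 8)⁻¹ := inv_anti₀ (by norm_num) hx8
    _ = 1 / 10 ^ 8 := by norm_num

theorem X_facts {c x L D : ℝ} (hc0 : 0 < c) (hc : 800 * c ≤ 1) (hx0 : 0 < x) (hL0 : 0 < L)
    (hLx : L ≤ x) (hxL : x = Real.exp L) (hD : D = c * x * L) :
    0 < D ∧ 800 * D ≤ x * L ∧ 800 * D ≤ x ^ 2 ∧ 800 * D ≤ Real.exp (2 * L) ∧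
      (800 * D) ^ 2 ≤ Real.exp (4 * L) := by
  have hD0 : 0 < D := by rw [hD]; positivity
  have hX1 : 800 * D ≤ x * L := by
    have h2 : 0 ≤ x * L := by positivity
    calc 800 * D = (800 * c) * (x * L) := by rw [hD]; ring
      _ ≤ 1 * (x * L) := mul_le_mul_of_nonneg_right hc h2
      _ = x * L := one_mul _
  have hX2 : 800 * D ≤ x ^ 2 := by
    have : x * L ≤ x * x := by gcongr
    calc 800 * D ≤ x * L := hX1
      _ ≤ x * x := this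
      _ = x ^ 2 := by ring
  have hX2' : x ^ 2 = Real.exp (2 * L) := by
    rw [hxL, ← Real.exp_nat_mul]; norm_num
  refine ⟨hD0, hX1, hX2, by rw [← hX2']; exact hX2, ?_⟩
  calc (800 * D) ^ 2 ≤ (x ^ 2) ^ 2 := by gcongr
    _ = Real.exp (4 * L) := by rw [hX2', ← Real.exp_nat_mul]; congr 1; push_cast; ring

/-- Packaging: every field from explicit values. -/
theorem pack {C1 β D x L ψ η ρ lmin R E0 f1 f2 : ℝ} {n H0 : ℕ} (hC1 : 0 < C1)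
    (hβ0 : 0 < β) (hβ1 : β ≤ 1 / 64) (hn : 10 ^ 8 ≤ n) (hx : x = n)
    (hx8 : (10:ℝ) ^ 8 ≤ x) (hL : L = Real.log x) (hL12 : 12 ≤ L) (hβL : 12 ≤ β * L)
    (hxL : x = Real.exp L) (hD0 : 0 < D) (hX1 : 800 * D ≤ x * L) (hX2 : 800 * D ≤ x ^ 2)
    (hX3 : 800 * D ≤ Real.exp (2 * L)) (hX4 : (800 * D) ^ 2 ≤ Real.exp (4 * L))
    (hΓ : (3 + 3 * C1) * (800 * D) = β / 2 * (x * L))
    (hη : η = Real.exp (-(β * L))) (hρ : ρ = Real.sqrt n * dl n)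
    (hρ0 : 0 < ρ) (hρ1 : ρ ≤ η) (hρ2 : ρ ≤ 1 / 10 ^ 8)
    (hψη : ψ ≤ x * η ^ 2) (e10 : 4 * L ≤ x * η ^ 2)
    (hH1 : Real.sqrt x ≤ (H0:ℝ)) (hH2 : (H0:ℝ) ≤ x) (hH3 : 0 < (H0:ℝ))
    (hlmin : lmin = Real.exp (-(C1 * (1 + 4 * L))))
    (hR : R = 12 * x ^ ((1:ℝ) / 4) * L) (hE0 : E0 = Real.exp ((L / (4 * C1) - 1) / 2))
    (hf1def : f1 = 2 * (20 * D * (11 / 10) ^ n) ^ 2 * (η + ρ) ^ n / (1 / 10 - ρ) ^ n)
    (hf2def : f2 = 2 * (20 * D * (11 / 10) ^ n) ^ 2 * (1 / 100 + ρ) ^ n / (1 / 10 - ρ) ^ n)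
    (e4 : R ≤ x)
    (e5 : 2 * β * x ^ ((1:ℝ) / 2) * L ≤ ψ)
    (e6 : 4 * (4 + 5 * C1) * x ^ ((1:ℝ) / 2) * L ≤ ψ)
    (e7 : 384 * x ^ ((3:ℝ) / 4) * L ^ 3 ≤ ψ)
    (e8 : 16 * (3 + 5 * C1) * x ^ (1 - 1 / (8 * C1)) * L ^ 2 ≤ ψ)
    (e9 : 8 ≤ ψ) (e11 : 1000 * ψ ≤ x) (e12 : 1000 * L ≤ x) :
    ∃ P : Params n C1 D, P.s = Real.exp (-(2 / 5 * x)) := by
  have hx0 : 0 < x := lt_of_lt_of_le (by norm_num) hx8
  have hL0 : 0 < L := lt_of_lt_of_le (by norm_num) hL12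
  have hLx : L ≤ x := by linarith
  obtain ⟨hl0, hl1, hll0, hll1⟩ := log8_bd hC1 hL12 hlmin
  have hR1 := hR1_l hx8 hL12 hR
  have hlogR : Real.log R ≤ L := by
    rw [hL]; exact Real.log_le_log (lt_of_lt_of_le one_pos hR1) e4
  have hlogH : Real.log H0 ≤ L := by
    rw [hL]; exact Real.log_le_log hH3 hH2
  have hE00 : 0 < E0 := by rw [hE0]; exact Real.exp_pos _
  have hη0 : 0 < η := by rw [hη]; exact Real.exp_pos _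
  have hX0 : 0 ≤ 800 * D := by linarith
  have hψ3 := psi3 (X := 800 * D) (d := 800 * D / E0) (cL := Real.sqrt x) hx8 hL12 hC1 hll0 hll1
    hX0 hX1 hR hR1 hlogR rfl hE0 hxL rfl e7 e8 e9
  have hb0 : 0 < 1 / 10 - ρ := by
    have : (1:ℝ) / 10 ^ 8 < 1 / 10 := by norm_num
    linarith
  have hbn : (1 / 10 - ρ) ^ n ≠ 0 := (pow_pos hb0 n).ne'
  have hΓ1 := hΓ1_l hx8 hβ0 hβ1 hL0 hLx hΓ
  have hf1 := f1_bd hx hx0 hη hρ0 hρ1 hρ2 hβL hΓ hD0.le hX2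
  have hf2 := f2_bd (n := n) hx hρ0 hρ2 hD0.le hX2
  rw [← hf1def] at hf1
  rw [← hf2def] at hf2
  have hf10 : 0 ≤ f1 := by
    rw [hf1def]
    exact div_nonneg (mul_nonneg (by positivity) (pow_nonneg (by linarith) n)) (pow_pos hb0 n).le
  have hf20 : 0 ≤ f2 := by
    rw [hf2def]
    exact div_nonneg (mul_nonneg (by positivity) (pow_nonneg (by linarith) n)) (pow_pos hb0 n).le
  have hΓ0 : 0 ≤ (3 + 3 * C1) * (800 * D) := mul_nonneg (by linarith) hX0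
  have hs := hs_bd (H := H0) (Γ := (3 + 3 * C1) * (800 * D)) (X := 800 * D) hx8 hxL e12 hL12
    hH3.le hH2 hΓ0 hΓ1 (mul_nonneg hf10 (Real.exp_pos _).le) hf1 hf20 hf2 e11 hX4
  have h5000 : 5000 * (n:ℝ) * (1 / 100) ^ 2 = x / 2 := by rw [← hx]; ring
  have h5001 : 5000 * (n:ℝ) * η ^ 2 = 5000 * (x * η ^ 2) := by rw [← hx]; ring
  have hxη : 0 ≤ x * η ^ 2 := by positivity
  have c1 : 8 * L ≤ x := by linarith
  have c2 : 2 * ψ + 4 * L ≤ 5000 * (x * η ^ 2) := by linarith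
  have c3 : 2 * ψ + 4 * L ≤ x / 2 := by linarith
  have hψ0 : 0 ≤ ψ := by linarith
  have q1 := hψ1_l hx0 hψ0 hH3 hH1 hΓ e5
  have q2 := hψ2_l (x := x) hH3 hlogH hl0 hll1 e6
  have q3 := hR_l hx8 hxL hR hX3
  exact ⟨{ lmin := lmin, ls := x ^ (-(1:ℝ) / 4), cL := Real.sqrt x, R := R, d := 800 * D / E0,
            E0 := E0, ψ := ψ, η1 := η, f1 := f1, f2 := f2, s := Real.exp (-(2 / 5 * x)), H0 := H0,
            hn := lt_of_lt_of_le (by norm_num) hn, hC1 := hC1, hD := hD0,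
            hH0 := by exact_mod_cast hH3, hlmin := hl0,
            hlmin1 := hl1, hls := Real.rpow_pos_of_pos hx0 _, hcL := Real.sqrt_pos.2 hx0,
            hR1 := hR1, hd0 := div_nonneg hX0 hE00.le, hE0 := hE00, hη1 := hη0.le,
            htau := fun τ _ h => htau_l hx hC1 hX3 c1 hlmin τ h,
            hdeep := fun τ _ h => hdeep_l hx0 hC1 hL hE0 τ h,
            hdE := by rw [div_mul_cancel₀ _ hE00.ne'],
            hR := q3, hψ1 := q1, hψ2 := q2, hψ3 := hψ3,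
            hb1 := by rw [h5001]; exact hb_l hX4 c2,
            hb2 := by rw [h5000]; exact hb_l hX4 c3,
            hf1 := by rw [← hρ, hf1def, div_mul_cancel₀ _ hbn],
            hf2 := by rw [← hρ, hf2def, div_mul_cancel₀ _ hbn],
            hρ := by rw [← hρ]; linarith, hs0 := Real.exp_pos _,
            hs := by rw [h5000]; exact hs }, rfl⟩

theorem params_at {C1 β c : ℝ} {n : ℕ} (hC1 : 0 < C1) (hβ0 : 0 < β) (hβ1 : β ≤ 1 / 64)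
    (hc0 : 0 < c) (hc800 : 800 * c ≤ 1 / 128) (hΓ : (3 + 3 * C1) * (800 * c) = β / 2)
    (hn : 10 ^ 8 ≤ n)
    (e4 : 12 * (n:ℝ) ^ ((1:ℝ) / 4) * Real.log n ^ 1 ≤ (n:ℝ) ^ (1:ℝ))
    (e5 : 2 * β * (n:ℝ) ^ ((1:ℝ) / 2) * Real.log n ^ 1 ≤ (n:ℝ) ^ (1 - 4 * β))
    (e6 : 4 * (4 + 5 * C1) * (n:ℝ) ^ ((1:ℝ) / 2) * Real.log n ^ 1 ≤ (n:ℝ) ^ (1 - 4 * β))
    (e7 : 384 * (n:ℝ) ^ ((3:ℝ) / 4) * Real.log n ^ 3 ≤ (n:ℝ) ^ (1 - 4 * β))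
    (e8 : 16 * (3 + 5 * C1) * (n:ℝ) ^ (1 - 1 / (8 * C1)) * Real.log n ^ 2 ≤ (n:ℝ) ^ (1 - 4 * β))
    (e9 : 8 * (n:ℝ) ^ (0:ℝ) * Real.log n ^ 0 ≤ (n:ℝ) ^ (1 - 4 * β))
    (e10 : 4 * (n:ℝ) ^ (0:ℝ) * Real.log n ^ 1 ≤ (n:ℝ) ^ (1 - 2 * β))
    (e11 : 1000 * (n:ℝ) ^ (1 - 4 * β) * Real.log n ^ 0 ≤ (n:ℝ) ^ (1:ℝ))
    (e12 : 1000 * (n:ℝ) ^ (0:ℝ) * Real.log n ^ 1 ≤ (n:ℝ) ^ (1:ℝ))
    (e13 : 12 / β ≤ Real.log n) :
    ∃ P : Params n C1 (c * n * Real.log n), P.s = Real.exp (-(2 / 5 * n)) := by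
  obtain ⟨x, hx⟩ : ∃ x : ℝ, x = (n : ℝ) := ⟨_, rfl⟩
  have hx8 : (10 : ℝ) ^ 8 ≤ x := by rw [hx]; exact_mod_cast hn
  obtain ⟨L, hL⟩ : ∃ L : ℝ, L = Real.log x := ⟨_, rfl⟩
  have hx0 : 0 < x := lt_of_lt_of_le (by norm_num) hx8
  rw [← hx] at e4 e5 e6 e7 e8 e9 e10 e11 e12 e13
  rw [← hL] at e4 e5 e6 e7 e8 e9 e10 e11 e12 e13
  simp only [Real.rpow_zero, Real.rpow_one, pow_one, pow_zero, mul_one] at e4 e5 e6 e9 e10 e11 e12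
  have hxL : x = Real.exp L := by rw [hL, Real.exp_log hx0]
  have hL12 : 12 ≤ L := by
    have : 12 ≤ 12 / β := by rw [le_div_iff₀ hβ0]; linarith
    linarith
  have hβL : 12 ≤ β * L := by
    rw [div_le_iff₀ hβ0] at e13; linarith
  have hL0 : 0 < L := by linarith
  have hLx : L ≤ x := by linarith
  obtain ⟨D, hDdef⟩ : ∃ D : ℝ, D = c * x * L := ⟨_, rfl⟩
  obtain ⟨hD0, hX1, hX2, hX3, hX4⟩ := X_facts hc0 (by linarith) hx0 hL0 hLx hxL hDdef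
  have hΓ' : (3 + 3 * C1) * (800 * D) = β / 2 * (x * L) := by
    rw [← hΓ, hDdef]; ring
  obtain ⟨hpe1, hpe2⟩ := psi_eta hx8 hβ0
  rw [← hpe2] at e10
  obtain ⟨hρ0, hρ1, hρ2⟩ := rho_facts (n := n) hx hx8 (by linarith : β ≤ 1) rfl rfl
  have hηexp : x ^ (-β) = Real.exp (-(β * L)) := by
    rw [Real.rpow_def_of_pos hx0, ← hL]; congr 1; ring
  obtain ⟨hH1, hH2, hH3⟩ := H0_bd hx8
  have key := pack (f1 := _) (f2 := _) hC1 hβ0 hβ1 hn hx hx8 hL hL12 hβL hxL hD0 hX1 hX2 hX3 hX4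
    hΓ' hηexp rfl hρ0 hρ1 hρ2 hpe1 e10 hH1 hH2 hH3 rfl rfl rfl rfl rfl e4 e5 e6 e7 e8 e9 e11 e12
  rw [← hx, ← hL, ← hDdef]
  exact key

/-- Parameters exist (pure real analysis). -/
theorem params_exist (C1 : ℝ) (hC1 : 0 < C1) : ∃ c : ℝ, 0 < c ∧ ∀ᶠ n : ℕ in atTop,
    ∃ P : Params n C1 (c * n * Real.log n), P.s = Real.exp (-(2 / 5 * n)) := by
  obtain ⟨β, hβ⟩ : ∃ β : ℝ, β = 1 / (64 * (C1 + 1)) := ⟨_, rfl⟩
  have hβ0 : 0 < β := by rw [hβ]; positivity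
  have hβ1 : β ≤ 1 / 64 := by
    rw [hβ]; apply one_div_le_one_div_of_le (by norm_num); linarith
  obtain ⟨c, hc⟩ : ∃ c : ℝ, c = β / (4800 * (C1 + 1)) := ⟨_, rfl⟩
  have hc0 : 0 < c := by rw [hc]; positivity
  have hΓ : (3 + 3 * C1) * (800 * c) = β / 2 := by
    rw [hc]; field_simp; ring
  have hc800 : 800 * c ≤ 1 / 128 := by nlinarith
  refine ⟨c, hc0, ?_⟩
  have e4 := ev 12 (1 / 4) 1 1 (by norm_num)
  have e5 := ev (2 * β) (1 / 2) (1 - 4 * β) 1 (by linarith)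
  have e6 := ev (4 * (4 + 5 * C1)) (1 / 2) (1 - 4 * β) 1 (by linarith)
  have e7 := ev 384 (3 / 4) (1 - 4 * β) 3 (by linarith)
  have h8 : 4 * β < 1 / (8 * C1) := by
    have h : 4 * β = 1 / (16 * (C1 + 1)) := by rw [hβ]; field_simp; norm_num
    rw [h]
    exact one_div_lt_one_div_of_lt (by positivity) (by linarith)
  have e8 := ev (16 * (3 + 5 * C1)) (1 - 1 / (8 * C1)) (1 - 4 * β) 2 (by linarith)
  have e9 := ev 8 0 (1 - 4 * β) 0 (by linarith)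
  have e10 := ev 4 0 (1 - 2 * β) 1 (by linarith)
  have e11 := ev 1000 (1 - 4 * β) 1 0 (by linarith)
  have e12 := ev 1000 0 1 1 (by norm_num)
  have e13 : ∀ᶠ n : ℕ in atTop, 12 / β ≤ Real.log n :=
    (Real.tendsto_log_atTop.comp tendsto_natCast_atTop_atTop).eventually_ge_atTop _
  filter_upwards [e4, e5, e6, e7, e8, e9, e10, e11, e12, e13,
    eventually_ge_atTop (10 ^ 8)] with n f4 f5 f6 f7 f8 f9 f10 f11 f12 f13 f14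
  exact params_at hC1 hβ0 hβ1 hc0 hc800 hΓ f14 f4 f5 f6 f7 f8 f9 f10 f11 f12 f13

end Vale.Agent.P230
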