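import Vale.Agent.P230.Core
import Vale.Agent.P230.Gauss
import Vale.Agent.P230.Grid
import Vale.Agent.P230.Params

/-!
# The local estimate for one translate set `T` (module M8a)
-/

open MeasureTheory Filter Finset

namespace Vale.Agent.P230

/-- Mass shared by two test points whose shifted families are `η`-separated. -/
theorem shared_mass {n : ℕ} {C1 M η : ℝ} {Z : Finset (Sp n)} (F : HalfFam n C1 Z)
    (hη : 0 ≤ η) (J J' : Finset (Sp n)) (x y : Sp n)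
    (hJ : ∀ t ∈ J, ‖x - t‖ ≤ 1 ∧ x - t ∈ Z) (hJ' : ∀ t ∈ J', ‖y - t‖ ≤ 1 ∧ y - t ∈ Z)
    (hM : (J.card : ℝ) ≤ M) (hM' : (J'.card : ℝ) ≤ M)
    (hsep : ∀ t ∈ J, ∀ t' ∈ J', η ≤ ‖(x - t) - (y - t')‖) :
    ∑ i ∈ (J.biUnion fun t => F.cut (x - t)) ∩ (J'.biUnion fun t => F.cut (y - t)), F.μ i ≤
      M ^ 2 * Real.exp (-(5000 * n * η ^ 2)) := by
  classical
  have hM0 : 0 ≤ M := le_trans (Nat.cast_nonneg _) hM
  have hsub : (J.biUnion fun t => F.cut (x - t)) ∩ (J'.biUnion fun t => F.cut (y - t)) ⊆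
      (J ×ˢ J').biUnion (fun p => F.cut (x - p.1) ∩ F.cut (y - p.2)) := by
    intro i hi
    simp only [mem_inter, mem_biUnion, mem_product] at hi ⊢
    obtain ⟨⟨t, ht, hit⟩, ⟨t', ht', hit'⟩⟩ := hi
    exact ⟨(t, t'), ⟨ht, ht'⟩, hit, hit'⟩
  calc ∑ i ∈ (J.biUnion fun t => F.cut (x - t)) ∩ (J'.biUnion fun t => F.cut (y - t)), F.μ i
      ≤ ∑ i ∈ (J ×ˢ J').biUnion (fun p => F.cut (x - p.1) ∩ F.cut (y - p.2)), F.μ i :=
        sum_le_sum_of_subset_of_nonneg hsub (fun i _ _ => F.μ_nonneg i)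
    _ ≤ ∑ p ∈ J ×ˢ J', ∑ i ∈ F.cut (x - p.1) ∩ F.cut (y - p.2), F.μ i := by
        refine Finset.induction_on (J ×ˢ J') (by simp) ?_
        intro p s hp ih
        rw [biUnion_insert, sum_insert hp]
        have h1 : ∑ i ∈ (F.cut (x - p.1) ∩ F.cut (y - p.2)) ∪
            s.biUnion (fun p => F.cut (x - p.1) ∩ F.cut (y - p.2)), F.μ i ≤
            ∑ i ∈ (F.cut (x - p.1) ∩ F.cut (y - p.2)), F.μ i +
            ∑ i ∈ s.biUnion (fun p => F.cut (x - p.1) ∩ F.cut (y - p.2)), F.μ i := by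
          rw [← sum_union_inter]
          have : 0 ≤ ∑ i ∈ (F.cut (x - p.1) ∩ F.cut (y - p.2)) ∩
            s.biUnion (fun p => F.cut (x - p.1) ∩ F.cut (y - p.2)), F.μ i :=
            sum_nonneg (fun i _ => F.μ_nonneg i)
          linarith
        linarith
    _ ≤ ∑ p ∈ J ×ˢ J', Real.exp (-(5000 * n * η ^ 2)) := by
        refine sum_le_sum ?_
        rintro ⟨t, t'⟩ hp
        rw [mem_product] at hp
        obtain ⟨hx1, hxZ⟩ := hJ t hp.1
        obtain ⟨hy1, hyZ⟩ := hJ' t' hp.2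
        have h := F.pair (x - t) hxZ (y - t') hyZ hx1 hy1
        have heq : F.cut (x - t) ∩ F.cut (y - t') = univ.filter (fun i =>
            aa n < inner ℝ (F.g i) (x - t) ∧ aa n < inner ℝ (F.g i) (y - t')) := by
          ext i
          simp [HalfFam.cut]
        simp only
        rw [heq]
        refine h.trans ?_
        apply Real.exp_le_exp.mpr
        have hs := hsep t hp.1 t' hp.2
        have : η ^ 2 ≤ ‖x - t - (y - t')‖ ^ 2 := by gcongr
        have h0 : (0 : ℝ) ≤ 5000 * n := by positivity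
        nlinarith
    _ = (J.card : ℝ) * J'.card * Real.exp (-(5000 * n * η ^ 2)) := by
        rw [sum_const, card_product, nsmul_eq_mul]
        push_cast
        ring
    _ ≤ M ^ 2 * Real.exp (-(5000 * n * η ^ 2)) := by
        have : (J.card : ℝ) * J'.card ≤ M * M := by gcongr
        have he := (Real.exp_pos (-(5000 * n * η ^ 2))).le
        nlinarith

/-- Counting test points `x` with a coincidence with `y`. -/
theorem coincidence_count {n : ℕ} (hn : 0 < n) {δ η : ℝ} (hδ : 0 < δ) (hη : 0 ≤ η)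
    (Q T : Finset (Sp n)) (hQ : ∀ x ∈ Q, x ∈ grid n δ) (y : Sp n) :
    ((Q.filter (fun x => ∃ t ∈ T, ∃ t' ∈ T, ‖(x - t) - (y - t')‖ < η)).card : ℝ) * δ ^ n ≤
      (T.card : ℝ) ^ 2 * ((η + Real.sqrt n * δ) ^ n * vB n) := by
  classical
  have hsub : (Q.filter (fun x => ∃ t ∈ T, ∃ t' ∈ T, ‖(x - t) - (y - t')‖ < η)) ⊆
      (T ×ˢ T).biUnion (fun p => (grid_finite hδ (y + p.1 - p.2) η).toFinset) := by
    intro x hx
    simp only [mem_filter] at hx
    obtain ⟨hxQ, t, ht, t', ht', hlt⟩ := hx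
    simp only [mem_biUnion, mem_product, Set.Finite.mem_toFinset, Set.mem_inter_iff,
      Metric.mem_closedBall]
    refine ⟨(t, t'), ⟨ht, ht'⟩, hQ x hxQ, ?_⟩
    rw [dist_eq_norm]
    have : x - (y + t - t') = x - t - (y - t') := by abel
    simp only
    rw [this]
    exact hlt.le
  have h1 : ((Q.filter (fun x => ∃ t ∈ T, ∃ t' ∈ T, ‖(x - t) - (y - t')‖ < η)).card : ℝ) ≤
      ∑ p ∈ T ×ˢ T, ((grid n δ ∩ Metric.closedBall (y + p.1 - p.2) η).ncard : ℝ) := by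
    have h2 := (card_le_card hsub).trans card_biUnion_le
    have h3 : (∑ p ∈ T ×ˢ T, ((grid_finite hδ (y + p.1 - p.2) η).toFinset).card) =
        ∑ p ∈ T ×ˢ T, (grid n δ ∩ Metric.closedBall (y + p.1 - p.2) η).ncard := by
      refine sum_congr rfl fun p _ => ?_
      rw [Set.ncard_eq_toFinset_card _ (grid_finite hδ (y + p.1 - p.2) η)]
    rw [h3] at h2
    exact_mod_cast h2
  calc ((Q.filter (fun x => ∃ t ∈ T, ∃ t' ∈ T, ‖(x - t) - (y - t')‖ < η)).card : ℝ) * δ ^ n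
      ≤ (∑ p ∈ T ×ˢ T, ((grid n δ ∩ Metric.closedBall (y + p.1 - p.2) η).ncard : ℝ)) * δ ^ n :=
        mul_le_mul_of_nonneg_right h1 (by positivity)
    _ = ∑ p ∈ T ×ˢ T, ((grid n δ ∩ Metric.closedBall (y + p.1 - p.2) η).ncard : ℝ) * δ ^ n := by
        rw [sum_mul]
    _ ≤ ∑ p ∈ T ×ˢ T, (η + Real.sqrt n * δ) ^ n * vB n :=
        sum_le_sum fun p _ => grid_card_le hn hδ _ hη
    _ = (T.card : ℝ) ^ 2 * ((η + Real.sqrt n * δ) ^ n * vB n) := by
        rw [sum_const, card_product, nsmul_eq_mul]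
        push_cast
        ring

/-- The set of `x ∈ G` with a large quantity `mass x` is small, if `mass x` is small for all `x`
without coincidences with `y`. -/
theorem local_count {n : ℕ} (hn : 0 < n) {δ η f0 M b : ℝ} (hδ : 0 < δ)
    (hρpos : 0 < 1 / 10 - Real.sqrt n * δ) (hη : 0 ≤ η)
    (hf0' : 2 * M ^ 2 * (η + Real.sqrt n * δ) ^ n ≤ f0 * (1 / 10 - Real.sqrt n * δ) ^ n)
    (Q T G : Finset (Sp n))
    (hQge : (1 / 10 - Real.sqrt n * δ) ^ n * vB n ≤ (Q.card : ℝ) * δ ^ n)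
    (hGcard : (Q.card : ℝ) ≤ 2 * G.card) (hTc : (T.card : ℝ) ≤ M)
    (hQgrid : ∀ x ∈ Q, x ∈ grid n δ) (hGQ : ∀ x ∈ G, x ∈ Q) (mass : Sp n → ℝ) (y : Sp n)
    (hmass : ∀ x ∈ G, (∀ t ∈ T, ∀ t' ∈ T, η ≤ ‖(x - t) - (y - t')‖) → mass x ≤ b) :
    ((G.filter (fun x => b < mass x)).card : ℝ) ≤ f0 * G.card := by
  classical
  have hvB := vB_pos n
  have hsub : (G.filter (fun x => b < mass x)) ⊆
      (Q.filter (fun x => ∃ t ∈ T, ∃ t' ∈ T, ‖(x - t) - (y - t')‖ < η)) := by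
    intro x hx
    obtain ⟨hxG, hlt⟩ := mem_filter.mp hx
    refine mem_filter.mpr ⟨hGQ x hxG, ?_⟩
    by_contra hcon
    push Not at hcon
    exact absurd hlt (not_lt.mpr (hmass x hxG hcon))
  have hc1 := coincidence_count hn hδ hη Q T hQgrid y
  have hTc2 : (T.card : ℝ) ^ 2 ≤ M ^ 2 := by gcongr
  have hc2 : ((G.filter (fun x => b < mass x)).card : ℝ) ≤
      ((Q.filter (fun x => ∃ t ∈ T, ∃ t' ∈ T, ‖(x - t) - (y - t')‖ < η)).card : ℝ) := by
    exact_mod_cast card_le_card hsub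
  have hdn : 0 < δ ^ n := by positivity
  have hf0nn : 0 ≤ f0 := by
    have hp : 0 < (1 / 10 - Real.sqrt n * δ) ^ n := by positivity
    have hl : 0 ≤ 2 * M ^ 2 * (η + Real.sqrt n * δ) ^ n := by positivity
    by_contra hcon
    push Not at hcon
    nlinarith
  have hfin : ((G.filter (fun x => b < mass x)).card : ℝ) * δ ^ n ≤ f0 * G.card * δ ^ n := by
    calc ((G.filter (fun x => b < mass x)).card : ℝ) * δ ^ n
        ≤ ((Q.filter (fun x => ∃ t ∈ T, ∃ t' ∈ T, ‖(x - t) - (y - t')‖ < η)).card : ℝ) *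
            δ ^ n := mul_le_mul_of_nonneg_right hc2 hdn.le
      _ ≤ (T.card : ℝ) ^ 2 * ((η + Real.sqrt n * δ) ^ n * vB n) := hc1
      _ ≤ M ^ 2 * ((η + Real.sqrt n * δ) ^ n * vB n) := by
          apply mul_le_mul_of_nonneg_right hTc2
          positivity
      _ ≤ (f0 / 2) * ((1 / 10 - Real.sqrt n * δ) ^ n * vB n) := by
          have := mul_le_mul_of_nonneg_right hf0' hvB.le
          nlinarith
      _ ≤ (f0 / 2) * ((Q.card : ℝ) * δ ^ n) :=
          mul_le_mul_of_nonneg_left hQge (by linarith)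
      _ ≤ (f0 / 2) * ((2 * G.card) * δ ^ n) := by gcongr
      _ = f0 * G.card * δ ^ n := by ring
  exact le_of_mul_le_mul_right hfin hdn

theorem local_fixed {n : ℕ} {C1 D : ℝ} (P : Params n C1 D) (Z Q T : Finset (Sp n))
    (F : HalfFam n C1 Z)
    (hZ : ∀ z ∈ grid n (dl n), ‖z‖ ≤ 1 → z ∈ Z)
    (hQ : ∀ x, x ∈ Q ↔ x ∈ grid n (dl n) ∧ ‖x‖ ≤ 1 / 10)
    (hT : ∀ t ∈ T, t ∈ grid n (dl n))
    (hTc : (T.card : ℝ) ≤ 20 * D * (11 / 10) ^ n)
    (hTs : ∑ x ∈ Q, ∑ t ∈ T with ‖x - t‖ ≤ 1, Real.exp (n * (1 - ‖x - t‖) / 2) ≤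
      400 * D * Q.card) :
    Pr (qq 1 F.μ) univ (fun S => ∀ x ∈ Q, ∃ t ∈ T, ‖x - t‖ ≤ 1 ∧ Disjoint S (F.cut (x - t))) ≤
      Real.exp (-(1 / (2 * P.s))) := by
  classical
  have hD := P.hD
  have hn := P.hn
  have hC1 := P.hC1
  have hnr : (0 : ℝ) < n := by exact_mod_cast hn
  have hdl : 0 < dl n := by unfold dl; positivity
  set f : Sp n → ℝ := fun x => ∑ t ∈ T with ‖x - t‖ ≤ 1, Real.exp (n * (1 - ‖x - t‖) / 2) with hf
  have hf0 : ∀ x, 0 ≤ f x := fun x => sum_nonneg fun t _ => (Real.exp_pos _).le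
  set G : Finset (Sp n) := Q.filter (fun x => f x ≤ 800 * D) with hGdef
  set J : Sp n → Finset (Sp n) := fun x => T.filter (fun t => ‖x - t‖ ≤ 1) with hJdef
  set V : Sp n → Sp n → Finset (Fin F.N) := fun x t => F.cut (x - t) with hVdef
  -- Q is nonempty
  have h0Q : (0 : Sp n) ∈ Q := by
    rw [hQ]
    refine ⟨fun i => ⟨0, by simp⟩, by simp⟩
  have hQpos : (0 : ℝ) < Q.card := by exact_mod_cast card_pos.mpr ⟨0, h0Q⟩
  -- Markov
  have hGcard : (Q.card : ℝ) ≤ 2 * G.card := by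
    have h1 : ((Q.filter (fun x => ¬ f x ≤ 800 * D)).card : ℝ) * (800 * D) ≤ 400 * D * Q.card := by
      calc ((Q.filter (fun x => ¬ f x ≤ 800 * D)).card : ℝ) * (800 * D)
          = ∑ x ∈ Q.filter (fun x => ¬ f x ≤ 800 * D), (800 * D) := by
            rw [sum_const, nsmul_eq_mul]
        _ ≤ ∑ x ∈ Q.filter (fun x => ¬ f x ≤ 800 * D), f x :=
            sum_le_sum fun x hx => (not_le.mp (mem_filter.mp hx).2).le
        _ ≤ ∑ x ∈ Q, f x :=
            sum_le_sum_of_subset_of_nonneg (filter_subset _ _) fun x _ _ => hf0 x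
        _ ≤ 400 * D * Q.card := hTs
    have h2 : (G.card : ℝ) + ((Q.filter (fun x => ¬ f x ≤ 800 * D)).card : ℝ) = Q.card := by
      exact_mod_cast card_filter_add_card_filter_not (s := Q) (fun x => f x ≤ 800 * D)
    have h3 : ((Q.filter (fun x => ¬ f x ≤ 800 * D)).card : ℝ) * 2 ≤ Q.card := by
      have hD4 : 0 < 400 * D := by linarith
      have h4 : (((Q.filter (fun x => ¬ f x ≤ 800 * D)).card : ℝ) * 2) * (400 * D) ≤
          Q.card * (400 * D) := by linarith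
      exact le_of_mul_le_mul_right h4 hD4
    linarith
  have hGne : G.Nonempty := by
    rw [← card_pos]
    have : (0 : ℝ) < G.card := by linarith
    exact_mod_cast this
  have hGQ : ∀ x ∈ G, x ∈ Q := fun x hx => (mem_filter.mp hx).1
  have hGgrid : ∀ x ∈ G, x ∈ grid n (dl n) := fun x hx => ((hQ x).mp (hGQ x hx)).1
  have hGf : ∀ x ∈ G, f x ≤ 800 * D := fun x hx => (mem_filter.mp hx).2
  have hJT : ∀ x, ∀ t ∈ J x, t ∈ T := fun x t ht => (mem_filter.mp ht).1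
  have hJ1 : ∀ x, ∀ t ∈ J x, ‖x - t‖ ≤ 1 := fun x t ht => (mem_filter.mp ht).2
  have hJZ : ∀ x ∈ G, ∀ t ∈ J x, ‖x - t‖ ≤ 1 ∧ x - t ∈ Z := fun x hx t ht =>
    ⟨hJ1 x t ht, hZ _ (grid_sub (hGgrid x hx) (hT t (hJT x t ht))) (hJ1 x t ht)⟩
  -- the depth parameter
  set τ : Sp n → Sp n → ℝ := fun x t => n * (1 - ‖x - t‖) with hτ
  have hτ0 : ∀ x, ∀ t ∈ J x, 0 ≤ τ x t := fun x t ht =>
    mul_nonneg hnr.le (by linarith [hJ1 x t ht])
  have hfJ : ∀ x, f x = ∑ t ∈ J x, Real.exp (τ x t / 2) := fun x => rfl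
  have hterm : ∀ x ∈ G, ∀ t ∈ J x, Real.exp (τ x t / 2) ≤ 800 * D := by
    intro x hx t ht
    refine le_trans ?_ (hGf x hx)
    rw [hfJ]
    exact single_le_sum (f := fun t => Real.exp (τ x t / 2)) (fun t _ => (Real.exp_pos _).le) ht
  have hk : ∀ x ∈ G, ((J x).card : ℝ) ≤ 800 * D := by
    intro x hx
    refine le_trans ?_ (hGf x hx)
    rw [hfJ]
    calc ((J x).card : ℝ) = ∑ t ∈ J x, (1 : ℝ) := by simp
      _ ≤ _ := sum_le_sum fun t ht => Real.one_le_exp (by linarith [hτ0 x t ht])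
  have hlow : ∀ x ∈ G, ∀ t ∈ J x, Real.exp (-(C1 * (1 + τ x t))) ≤ ∑ i ∈ V x t, F.μ i := by
    intro x hx t ht
    obtain ⟨hτn, -⟩ := P.htau (τ x t) (hτ0 x t ht) (hterm x hx t ht)
    have hhalf : 1 / 2 ≤ ‖x - t‖ := by
      have : n * (1 - ‖x - t‖) ≤ n / 2 := hτn
      have h2 : (1 - ‖x - t‖) ≤ 1 / 2 := by
        by_contra hcon
        push Not at hcon
        nlinarith
      linarith
    exact F.lower (x - t) (hJZ x hx t ht).2 hhalf (hJ1 x t ht)
  have hlampos : ∀ x ∈ G, ∀ t ∈ J x, 0 < ∑ i ∈ V x t, F.μ i := fun x hx t ht =>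
    lt_of_lt_of_le (Real.exp_pos _) (hlow x hx t ht)
  have h1 : ∀ x ∈ G, ∀ j ∈ J x, P.lmin ≤ ∑ i ∈ V x j, F.μ i := fun x hx t ht =>
    (P.htau (τ x t) (hτ0 x t ht) (hterm x hx t ht)).2.trans (hlow x hx t ht)
  have h2 : ∀ x ∈ G, ∀ j ∈ J x, ∑ i ∈ V x j, F.μ i ≤ 1 := by
    intro x hx t ht
    have := F.upper (x - t) (hJZ x hx t ht).2
      ((hJ1 x t ht).trans (by have : (0:ℝ) ≤ 1 / (n:ℝ)^2 := by positivity
                              linarith))
    have h3 : ∑ i ∈ V x t, F.μ i ≤ 1 / 3 := this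
    linarith
  have hd : ∀ x ∈ G, (((J x).filter (fun j => ∑ i ∈ V x j, F.μ i < P.ls)).card : ℝ) ≤ P.d := by
    intro x hx
    have h3 : (((J x).filter (fun j => ∑ i ∈ V x j, F.μ i < P.ls)).card : ℝ) * P.E0 ≤
        P.d * P.E0 := by
      calc (((J x).filter (fun j => ∑ i ∈ V x j, F.μ i < P.ls)).card : ℝ) * P.E0
          = ∑ t ∈ (J x).filter (fun j => ∑ i ∈ V x j, F.μ i < P.ls), P.E0 := by
            rw [sum_const, nsmul_eq_mul]
        _ ≤ ∑ t ∈ (J x).filter (fun j => ∑ i ∈ V x j, F.μ i < P.ls), Real.exp (τ x t / 2) := by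
            refine sum_le_sum fun t ht => ?_
            obtain ⟨htJ, htls⟩ := mem_filter.mp ht
            exact P.hdeep (τ x t) (hτ0 x t htJ) (lt_of_le_of_lt (hlow x hx t htJ) htls)
        _ ≤ ∑ t ∈ J x, Real.exp (τ x t / 2) :=
            sum_le_sum_of_subset_of_nonneg (filter_subset _ _) fun t _ _ => (Real.exp_pos _).le
        _ ≤ 800 * D := by rw [← hfJ]; exact hGf x hx
        _ ≤ P.d * P.E0 := P.hdE
    exact le_of_mul_le_mul_right h3 P.hE0
  have hΓ : ∀ x ∈ G, ∑ j ∈ J x, Real.log (8 / ∑ i ∈ V x j, F.μ i) ≤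
      (3 + 3 * C1) * (800 * D) := by
    intro x hx
    have hstep : ∀ t ∈ J x, Real.log (8 / ∑ i ∈ V x t, F.μ i) ≤
        (3 + C1) + C1 * τ x t := by
      intro t ht
      have hpos := hlampos x hx t ht
      rw [Real.log_div (by norm_num) hpos.ne']
      have hlog : -(C1 * (1 + τ x t)) ≤ Real.log (∑ i ∈ V x t, F.μ i) := by
        rw [Real.le_log_iff_exp_le hpos]
        exact hlow x hx t ht
      have h8 : Real.log 8 ≤ 3 := by
        have : Real.log 8 = 3 * Real.log 2 := by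
          rw [show (8:ℝ) = 2 ^ (3:ℕ) by norm_num, Real.log_pow]; norm_num
        rw [this]
        have := Real.log_two_lt_d9
        linarith
      linarith
    have hsumτ : ∑ t ∈ J x, τ x t ≤ 2 * (800 * D) := by
      have : ∑ t ∈ J x, τ x t ≤ ∑ t ∈ J x, 2 * Real.exp (τ x t / 2) := by
        refine sum_le_sum fun t ht => ?_
        have := Real.add_one_le_exp (τ x t / 2)
        linarith
      have h' : ∑ t ∈ J x, 2 * Real.exp (τ x t / 2) = 2 * f x := by rw [hfJ, mul_sum]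
      rw [h'] at this
      linarith [hGf x hx]
    calc ∑ j ∈ J x, Real.log (8 / ∑ i ∈ V x j, F.μ i)
        ≤ ∑ t ∈ J x, ((3 + C1) + C1 * τ x t) := sum_le_sum hstep
      _ = (3 + C1) * (J x).card + C1 * ∑ t ∈ J x, τ x t := by
          rw [sum_add_distrib, sum_const, nsmul_eq_mul, mul_sum]; ring
      _ ≤ (3 + C1) * (800 * D) + C1 * (2 * (800 * D)) := by
          have := hk x hx
          gcongr
      _ = (3 + 3 * C1) * (800 * D) := by ring
  -- coincidence counts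
  have hρpos : 0 < 1 / 10 - Real.sqrt n * dl n := by linarith [P.hρ]
  have hvB := vB_pos n
  have hQge : (1 / 10 - Real.sqrt n * dl n) ^ n * vB n ≤ (Q.card : ℝ) * dl n ^ n := by
    have h3 := grid_card_ge hn hdl (0 : Sp n) (r := 1 / 10) P.hρ.le
    have h4 : (grid n (dl n) ∩ Metric.closedBall (0 : Sp n) (1 / 10)) = (Q : Set (Sp n)) := by
      ext x
      simp only [Set.mem_inter_iff, Metric.mem_closedBall, dist_zero_right, mem_coe]
      exact (hQ x).symm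
    rw [h4, Set.ncard_coe_finset] at h3
    exact h3
  have hcount : ∀ (η f0 : ℝ), 0 ≤ η →
      2 * (20 * D * (11 / 10) ^ n) ^ 2 * (η + Real.sqrt n * dl n) ^ n ≤
        f0 * (1 / 10 - Real.sqrt n * dl n) ^ n →
      ∀ y ∈ G, ((G.filter (fun x => (800 * D) ^ 2 * Real.exp (-(5000 * n * η ^ 2)) <
        ∑ i ∈ ((J x).biUnion (V x)) ∩ ((J y).biUnion (V y)), F.μ i)).card : ℝ) ≤
        f0 * G.card := fun η f0 hη hf0' y hy =>
    local_count hn hdl hρpos hη hf0' Q T G hQge hGcard hTc (fun x hx => ((hQ x).mp hx).1)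
      (fun x hx => hGQ x hx) _ y
      (fun x hx hsep => shared_mass F hη (J x) (J y) x y (hJZ x hx) (hJZ y hy) (hk x hx) (hk y hy)
        (fun t ht t' ht' => hsep t (hJT x t ht) t' (hJT y t' ht')))
  have hcore := core F.μ F.μ_nonneg G hGne J V P.hH0 P.hlmin P.hls P.hlmin1 P.hcL P.hR1 P.hd0
    hk h1 h2 hd hΓ P.hR P.hψ1 P.hψ2 P.hψ3 P.hb1 P.hb2 (hcount P.η1 P.f1 P.hη1 P.hf1)
    (hcount (1 / 100) P.f2 (by norm_num) P.hf2) P.hs0 (by positivity) P.hs
  refine le_trans (Pr_mono (valid_qq zero_le_one F.μ_nonneg) ?_) hcore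
  intro S _ hS x hx
  obtain ⟨t, htT, ht1, htd⟩ := hS x (hGQ x hx)
  exact ⟨t, mem_filter.mpr ⟨htT, ht1⟩, htd⟩

end Vale.Agent.P230
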