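import Vale.Agent.P230.Defs

/-!
# Periodic coverings: a finite covering of a cube gives a covering of space (module M9b)
-/

open MeasureTheory Filter
open scoped Pointwise ENNReal Topology

namespace Vale.Agent.P230

/-- The lattice point `2 L k`. -/
noncomputable def latPt (n : ℕ) (L : ℝ) (k : Fin n → ℤ) : Sp n :=
  WithLp.toLp 2 fun i => 2 * L * (k i : ℝ)

theorem latPt_apply {n : ℕ} {L : ℝ} (k : Fin n → ℤ) (i : Fin n) :
    latPt n L k i = 2 * L * (k i : ℝ) := rfl

/-- The periodic point set `2 L ℤⁿ + C`. -/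
def perSet (n : ℕ) (L : ℝ) (C : Finset (Sp n)) : Set (Sp n) :=
  {x | ∃ k : Fin n → ℤ, ∃ c ∈ C, x = latPt n L k + c}

theorem perSet_cover {n : ℕ} {K : Set (Sp n)} {L : ℝ} (hL : 0 < L) (C : Finset (Sp n))
    (hcov : cube n L ⊆ K + (C : Set (Sp n))) : K + perSet n L C = Set.univ := by
  rw [Set.eq_univ_iff_forall]
  intro u
  set k : Fin n → ℤ := fun i => round (u i / (2 * L)) with hk
  have hu : u - latPt n L k ∈ cube n L := by
    intro i
    rw [PiLp.sub_apply, latPt_apply]
    have h1 := abs_sub_round (u i / (2 * L))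
    have h2 : u i - 2 * L * (k i : ℝ) = 2 * L * (u i / (2 * L) - round (u i / (2 * L))) := by
      rw [hk]
      field_simp
    rw [h2, abs_mul, abs_of_pos (by positivity)]
    nlinarith
  obtain ⟨a, ha, c, hc, hac⟩ := hcov hu
  refine ⟨a, ha, latPt n L k + c, ⟨k, c, hc, rfl⟩, ?_⟩
  simp only at hac ⊢
  rw [← add_assoc, add_comm a, add_assoc, hac]
  abel

theorem perSet_card {n : ℕ} {L D R : ℝ} (hL : 0 < L) (hD : 0 ≤ D) (hR : 0 ≤ R)
    (C : Finset (Sp n)) (hC : ∀ c ∈ C, ∀ i, |c i| ≤ D) :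
    ∃ S : Finset (Sp n), perSet n L C ∩ cube n R ⊆ S ∧
      (S.card : ℝ) ≤ C.card * ((R + D) / L + 1) ^ n := by
  classical
  set m : ℕ := ⌊(R + D) / (2 * L)⌋₊ with hm
  set T : Finset (Fin n → ℤ) := Fintype.piFinset fun _ => Finset.Icc (-(m : ℤ)) m with hT
  refine ⟨(T ×ˢ C).image fun p => latPt n L p.1 + p.2, ?_, ?_⟩
  · rintro x ⟨⟨k, c, hc, rfl⟩, hx⟩
    simp only [Finset.coe_image, Set.mem_image, Finset.mem_coe, Finset.mem_product]
    refine ⟨(k, c), ⟨?_, hc⟩, rfl⟩
    rw [hT, Fintype.mem_piFinset]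
    intro i
    have h1 := hx i
    have h2 := hC c hc i
    rw [PiLp.add_apply, latPt_apply] at h1
    have h3 : |2 * L * (k i : ℝ)| ≤ R + D := by
      have h4 : 2 * L * (k i : ℝ) = (2 * L * (k i : ℝ) + c i) - c i := by ring
      rw [h4]
      exact (abs_sub _ _).trans (add_le_add h1 h2)
    rw [abs_mul, abs_of_pos (by positivity)] at h3
    have h5 : (((k i).natAbs : ℕ) : ℝ) ≤ (R + D) / (2 * L) := by
      rw [le_div_iff₀ (by positivity), Nat.cast_natAbs, Int.cast_abs]
      linarith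
    have h7 : (k i).natAbs ≤ m := Nat.le_floor h5
    have h8 : |k i| ≤ m := by
      rw [Int.abs_eq_natAbs]
      exact_mod_cast h7
    rw [Finset.mem_Icc]
    exact abs_le.1 h8
  · have h1 : ((T ×ˢ C).image fun p => latPt n L p.1 + p.2).card ≤ (2 * m + 1) ^ n * C.card := by
      refine Finset.card_image_le.trans ?_
      rw [Finset.card_product, hT, Fintype.card_piFinset]
      apply le_of_eq
      congr 1
      rw [Finset.prod_const, Finset.card_univ, Fintype.card_fin, Int.card_Icc]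
      congr 1
      omega
    have h2 : (((T ×ˢ C).image fun p => latPt n L p.1 + p.2).card : ℝ) ≤
        (2 * m + 1) ^ n * C.card := by exact_mod_cast h1
    refine h2.trans ?_
    rw [mul_comm]
    apply mul_le_mul_of_nonneg_left _ (Nat.cast_nonneg _)
    apply pow_le_pow_left₀ (by positivity)
    have h3 : (m : ℝ) ≤ (R + D) / (2 * L) := Nat.floor_le (by positivity)
    have h4 : (R + D) / L = 2 * ((R + D) / (2 * L)) := by field_simp
    rw [h4]
    linarith

theorem exists_coord_bound {n : ℕ} (C : Finset (Sp n)) :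
    ∃ D : ℝ, 0 ≤ D ∧ ∀ c ∈ C, ∀ i, |c i| ≤ D := by
  refine ⟨∑ c ∈ C, ‖c‖, Finset.sum_nonneg fun _ _ => norm_nonneg _, fun c hc i => ?_⟩
  have h1 : |c i| ≤ ‖c‖ := by
    have := PiLp.norm_apply_le c i
    simpa using this
  exact h1.trans (Finset.single_le_sum (f := fun c => ‖c‖) (fun _ _ => norm_nonneg _) hc)

theorem perSet_locFinite {n : ℕ} {L : ℝ} (hL : 0 < L) (C : Finset (Sp n)) :
    LocFinite (perSet n L C) := by
  intro B hB
  obtain ⟨D, hD, hC⟩ := exists_coord_bound C
  obtain ⟨R, hR⟩ := hB.exists_norm_le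
  obtain ⟨S, hS, -⟩ := perSet_card hL hD (abs_nonneg R) C hC
  refine S.finite_toSet.subset (fun x hx => hS ⟨hx.1, fun i => ?_⟩)
  have h1 : |x i| ≤ ‖x‖ := by
    have := PiLp.norm_apply_le x i
    simpa using this
  exact h1.trans ((hR x hx.2).trans (le_abs_self R))

theorem perSet_density {n : ℕ} {L : ℝ} (hL : 0 < L) (C : Finset (Sp n)) :
    upperDensity (perSet n L C) ≤ (C.card : ℝ≥0∞) / ENNReal.ofReal ((2 * L) ^ n) := by
  obtain ⟨D, hD, hC⟩ := exists_coord_bound C
  set g : ℝ → ℝ := fun R => C.card * (1 / (2 * L) + (D / L + 1) / 2 * R⁻¹) ^ n with hg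
  have hlim : Tendsto g atTop (𝓝 (C.card * (1 / (2 * L) + (D / L + 1) / 2 * 0) ^ n)) :=
    ((tendsto_inv_atTop_zero.const_mul _).const_add _).pow n |>.const_mul _
  have hlim2 : Tendsto (fun R => ENNReal.ofReal (g R)) atTop
      (𝓝 (ENNReal.ofReal (C.card * (1 / (2 * L) + (D / L + 1) / 2 * 0) ^ n))) :=
    ENNReal.tendsto_ofReal hlim
  have hle : ∀ᶠ R : ℝ in atTop,
      ((perSet n L C ∩ cube n R).encard : ℝ≥0∞) / ENNReal.ofReal ((2 * R) ^ n) ≤
        ENNReal.ofReal (g R) := by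
    filter_upwards [eventually_gt_atTop (0 : ℝ)] with R hR
    obtain ⟨S, hS, hcard⟩ := perSet_card hL hD hR.le C hC
    have h1 : ((perSet n L C ∩ cube n R).encard : ℝ≥0∞) ≤ (S.card : ℝ≥0∞) := by
      have h2 := Set.encard_le_encard hS
      rw [Set.encard_coe_eq_coe_finsetCard] at h2
      exact_mod_cast h2
    have h3 : (0 : ℝ) < (2 * R) ^ n := by positivity
    rw [ENNReal.div_le_iff (by simpa using h3) ENNReal.ofReal_ne_top,
      ← ENNReal.ofReal_mul (by positivity)]
    refine h1.trans ?_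
    rw [← ENNReal.ofReal_natCast]
    apply ENNReal.ofReal_le_ofReal
    refine hcard.trans (le_of_eq ?_)
    rw [hg]
    simp only
    rw [mul_assoc, ← mul_pow]
    congr 2
    field_simp
    ring
  calc upperDensity (perSet n L C) ≤ limsup (fun R => ENNReal.ofReal (g R)) atTop :=
        limsup_le_limsup hle
    _ = ENNReal.ofReal (C.card * (1 / (2 * L) + (D / L + 1) / 2 * 0) ^ n) := hlim2.limsup_eq
    _ = (C.card : ℝ≥0∞) / ENNReal.ofReal ((2 * L) ^ n) := by
        rw [mul_zero, add_zero, one_div, inv_pow, ← div_eq_mul_inv,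
          ENNReal.ofReal_div_of_pos (by positivity), ENNReal.ofReal_natCast]

/-- A finite covering of a cube by translates of `K` bounds the translative covering density. -/
theorem thetaT_le_of_cover {n : ℕ} {K : Set (Sp n)} {L : ℝ} (hL : 0 < L) (C : Finset (Sp n))
    (hcov : cube n L ⊆ K + (C : Set (Sp n))) :
    thetaT K ≤ volume K * ((C.card : ℝ≥0∞) / ENNReal.ofReal ((2 * L) ^ n)) := by
  refine iInf_le_of_le (perSet n L C) (iInf_le_of_le (perSet_locFinite hL C)
    (iInf_le_of_le (perSet_cover hL C hcov) ?_))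
  gcongr
  exact perSet_density hL C

end Vale.Agent.P230
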