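import Mathlib

/-!
# A convex body and its reflection

For a compact convex set `K` with nonempty interior in `ℝ^n`, `n ≥ 1`, there is a point `c` with
`c + (1/n) (c - x) ∈ K` for all `x ∈ K` (the centroid of a simplex of maximal volume in `K`).
-/

namespace Vale.Agent.P230

open Matrix

/-- the edge matrix of a simplex -/
def edgeMat {n : ℕ} (v0 : EuclideanSpace ℝ (Fin n)) (v : Fin n → EuclideanSpace ℝ (Fin n)) :
    Matrix (Fin n) (Fin n) ℝ := Matrix.of (fun i j => v i j - v0 j)

theorem exists_max_simplex {n : ℕ} {K : Set (EuclideanSpace ℝ (Fin n))} (hc : IsCompact K)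
    (hi : (interior K).Nonempty) :
    ∃ (v0 : EuclideanSpace ℝ (Fin n)) (v : Fin n → EuclideanSpace ℝ (Fin n)), v0 ∈ K ∧
      (∀ i, v i ∈ K) ∧ (edgeMat v0 v).det ≠ 0 ∧
      ∀ (w0 : EuclideanSpace ℝ (Fin n)) (w : Fin n → EuclideanSpace ℝ (Fin n)), w0 ∈ K →
        (∀ i, w i ∈ K) → |(edgeMat w0 w).det| ≤ |(edgeMat v0 v).det| := by
  obtain ⟨c0, hc0⟩ := hi
  obtain ⟨ε, hε, hball⟩ := Metric.isOpen_iff.1 isOpen_interior c0 hc0
  set D : Set (EuclideanSpace ℝ (Fin n) × (Fin n → EuclideanSpace ℝ (Fin n))) :=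
    K ×ˢ Set.univ.pi (fun _ => K) with hD
  have hDc : IsCompact D := hc.prod (isCompact_univ_pi fun _ => hc)
  have hmem : ∀ w0 w, ((w0, w) ∈ D ↔ w0 ∈ K ∧ ∀ i, w i ∈ K) := by
    intro w0 w
    rw [hD, Set.mem_prod, Set.mem_univ_pi]
  set f : EuclideanSpace ℝ (Fin n) × (Fin n → EuclideanSpace ℝ (Fin n)) → ℝ :=
    fun p => |(edgeMat p.1 p.2).det| with hf
  have hcont : Continuous f := by
    apply Continuous.abs
    apply Continuous.matrix_det
    apply continuous_matrix
    intro i j
    have h1 : Continuous (fun p : EuclideanSpace ℝ (Fin n) × (Fin n → EuclideanSpace ℝ (Fin n)) =>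
        p.2 i j) := by fun_prop
    have h2 : Continuous (fun p : EuclideanSpace ℝ (Fin n) × (Fin n → EuclideanSpace ℝ (Fin n)) =>
        p.1 j) := by fun_prop
    exact h1.sub h2
  have hK0 : c0 ∈ K := interior_subset hc0
  -- a nondegenerate simplex
  set e : Fin n → EuclideanSpace ℝ (Fin n) :=
    fun i => c0 + (ε / 2) • EuclideanSpace.single i (1 : ℝ) with he
  have heK : ∀ i, e i ∈ K := by
    intro i
    apply interior_subset
    apply hball
    rw [Metric.mem_ball, dist_eq_norm, he]
    simp only [add_sub_cancel_left]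
    rw [norm_smul, EuclideanSpace.norm_single, norm_one, mul_one, Real.norm_eq_abs,
      abs_of_pos (by positivity)]
    linarith
  have hedet : (edgeMat c0 e).det = (ε / 2) ^ n := by
    have h1 : edgeMat c0 e = (ε / 2) • (1 : Matrix (Fin n) (Fin n) ℝ) := by
      ext i j
      rw [edgeMat, Matrix.of_apply, he]
      simp only [PiLp.add_apply, PiLp.smul_apply, smul_eq_mul, add_sub_cancel_left,
        Matrix.smul_apply, Matrix.one_apply]
      congr 1
      by_cases hij : i = j
      · subst hij
        simp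
      · rw [if_neg hij]
        simp [hij, Ne.symm hij]
    rw [h1, Matrix.det_smul, Matrix.det_one, mul_one, Fintype.card_fin]
  obtain ⟨⟨v0, v⟩, hv, hmax⟩ := hDc.exists_isMaxOn ⟨(c0, e), (hmem _ _).2 ⟨hK0, heK⟩⟩
    hcont.continuousOn
  have hv' := (hmem _ _).1 hv
  refine ⟨v0, v, hv'.1, hv'.2, ?_, ?_⟩
  · intro h0
    have h1 : f (c0, e) ≤ f (v0, v) := hmax ((hmem _ _).2 ⟨hK0, heK⟩)
    rw [hf] at h1
    simp only at h1
    rw [h0, hedet, abs_zero, abs_of_pos (by positivity)] at h1
    have : 0 < (ε / 2) ^ n := by positivity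
    linarith
  · intro w0 w hw0 hw
    exact hmax ((hmem _ _).2 ⟨hw0, hw⟩)

theorem exists_reflection_center {n : ℕ} (hn : 1 ≤ n) {K : Set (EuclideanSpace ℝ (Fin n))}
    (hK : Convex ℝ K) (hc : IsCompact K) (hi : (interior K).Nonempty) :
    ∃ c : EuclideanSpace ℝ (Fin n), ∀ x ∈ K, c + (1 / (n : ℝ)) • (c - x) ∈ K := by
  obtain ⟨v0, v, hv0, hv, hdet, hmax⟩ := exists_max_simplex hc hi
  set W := edgeMat v0 v with hW
  have hdetpos : 0 < |W.det| := abs_pos.2 hdet
  have hn0 : (0 : ℝ) < n := by exact_mod_cast hn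
  refine ⟨((n : ℝ) + 1)⁻¹ • (v0 + ∑ i, v i), fun x hx => ?_⟩
  set l : Fin n → ℝ := (fun j => x j - v0 j) ᵥ* W⁻¹ with hl
  have hlW : l ᵥ* W = fun j => x j - v0 j := by
    rw [hl, Matrix.vecMul_vecMul, Matrix.nonsing_inv_mul _ (isUnit_iff_ne_zero.2 hdet),
      Matrix.vecMul_one]
  have hcomb : ∀ j, ∑ i, l i * (v i j - v0 j) = x j - v0 j := by
    intro j
    have := congrFun hlW j
    rw [Matrix.vecMul, dotProduct] at this
    rw [← this]
    rfl
  -- bounds for the barycentric coordinates
  have hli : ∀ i, l i ≤ 1 := by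
    intro i
    have h1 : edgeMat v0 (Function.update v i x) = W.updateRow i (∑ k, l k • W k) := by
      ext a j
      by_cases ha : a = i
      · subst ha
        rw [Matrix.updateRow_self, edgeMat, Matrix.of_apply, Function.update_self,
          Finset.sum_apply, ← hcomb j]
        rfl
      · rw [Matrix.updateRow_ne ha, edgeMat, Matrix.of_apply, Function.update_of_ne ha]
        rfl
    have h2 := hmax v0 (Function.update v i x) hv0 (by
      intro a
      by_cases ha : a = i
      · subst ha
        rw [Function.update_self]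
        exact hx
      · rw [Function.update_of_ne ha]
        exact hv a)
    rw [h1, Matrix.det_updateRow_sum, smul_eq_mul, abs_mul] at h2
    have h3 : |l i| ≤ 1 := by
      by_contra hcon
      push Not at hcon
      nlinarith
    exact (le_abs_self _).trans h3
  have hl0 : 0 ≤ ∑ i, l i := by
    have h1 : edgeMat x v = (1 + Matrix.replicateCol Unit (fun _ => (1 : ℝ)) *
        Matrix.replicateRow Unit (fun i => - l i)) * W := by
      ext a j
      rw [Matrix.add_mul, Matrix.one_mul, Matrix.mul_assoc, Matrix.add_apply]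
      have h4 : (Matrix.replicateCol Unit (fun _ : Fin n => (1 : ℝ)) *
          (Matrix.replicateRow Unit (fun i => - l i) * W)) a j = ∑ i, (- l i) * W i j := by
        rw [Matrix.mul_apply]
        simp [Matrix.mul_apply]
      rw [h4]
      have h5 : ∑ i, (- l i) * W i j = -(x j - v0 j) := by
        rw [← hcomb j, ← Finset.sum_neg_distrib]
        refine Finset.sum_congr rfl fun i _ => ?_
        rw [hW, edgeMat, Matrix.of_apply]
        ring
      rw [h5, hW, edgeMat, edgeMat, Matrix.of_apply, Matrix.of_apply]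
      ring
    have h2 := hmax x v hx hv
    rw [h1, Matrix.det_mul, Matrix.det_one_add_replicateCol_mul_replicateRow, abs_mul] at h2
    have h6 : (fun i => - l i) ⬝ᵥ (fun _ : Fin n => (1 : ℝ)) = - ∑ i, l i := by
      rw [dotProduct, ← Finset.sum_neg_distrib]
      refine Finset.sum_congr rfl fun i _ => by ring
    rw [h6] at h2
    have h3 : |1 + - ∑ i, l i| ≤ 1 := by
      by_contra hcon
      push Not at hcon
      nlinarith
    have := (abs_le.1 h3).2
    linarith
  -- the point is a convex combination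
  have hpt : ((n : ℝ) + 1)⁻¹ • (v0 + ∑ i, v i) +
      (1 / (n : ℝ)) • (((n : ℝ) + 1)⁻¹ • (v0 + ∑ i, v i) - x) =
      ∑ o : Option (Fin n), (Option.elim o ((∑ i, l i) / n) (fun i => (1 - l i) / n)) •
        (Option.elim o v0 v) := by
    rw [Fintype.sum_option]
    ext j
    simp only [Option.elim_none, Option.elim_some, PiLp.add_apply, PiLp.smul_apply,
      PiLp.sub_apply, smul_eq_mul, WithLp.ofLp_sum, Finset.sum_apply]
    have h1 := hcomb j
    have h2 : x j = v0 j + ∑ i, l i * (v i j - v0 j) := by linarith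
    rw [h2]
    have h3 : ∑ i, l i * (v i j - v0 j) = ∑ i, l i * v i j - (∑ i, l i) * v0 j := by
      rw [Finset.sum_mul, ← Finset.sum_sub_distrib]
      refine Finset.sum_congr rfl fun i _ => by ring
    have h4 : ∑ i, (1 - l i) / (n : ℝ) * v i j = (∑ i, v i j - ∑ i, l i * v i j) / n := by
      rw [← Finset.sum_sub_distrib, Finset.sum_div]
      refine Finset.sum_congr rfl fun i _ => by ring
    rw [h3, h4]
    have hn1 : (n : ℝ) + 1 ≠ 0 := by positivity
    field_simp
    ring
  rw [hpt]
  apply hK.sum_mem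
  · intro o _
    cases o with
    | none => exact div_nonneg hl0 hn0.le
    | some i => exact div_nonneg (sub_nonneg.2 (hli i)) hn0.le
  · rw [Fintype.sum_option]
    simp only [Option.elim_none, Option.elim_some]
    rw [← Finset.sum_div, Finset.sum_sub_distrib, Finset.sum_const, Finset.card_univ,
      Fintype.card_fin, nsmul_eq_mul, mul_one]
    field_simp
    ring
  · intro o _
    cases o with
    | none => exact hv0
    | some i => exact hv i

end Vale.Agent.P230
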