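import Vale.Agent.P230.Greedy
import Vale.Agent.P230.Simplex
import Vale.Agent.P230.Periodic

/-!
# Rogers' upper bound for the translative covering density (module M9)

For every convex body `K ⊂ ℝⁿ`, `n ≥ 2`, `θ_T(K) ≤ 20 n log n`.
-/

open MeasureTheory Filter
open scoped Pointwise ENNReal

namespace Vale.Agent.P230

theorem cube_sub_mem {n : ℕ} {a b : ℝ} {x y : Sp n} (hx : x ∈ cube n a) (hy : y ∈ cube n b) :
    x - y ∈ cube n (a + b) := by
  intro i
  have h1 := hx i
  have h2 := hy i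
  rw [PiLp.sub_apply]
  exact (abs_sub _ _).trans (add_le_add h1 h2)

theorem cube_smul_mem {n : ℕ} {a r : ℝ} (hr0 : 0 ≤ r) (hr1 : r ≤ 1) {x : Sp n}
    (hx : x ∈ cube n a) : r • x ∈ cube n a := by
  intro i
  have h1 := hx i
  rw [PiLp.smul_apply, smul_eq_mul, abs_mul, abs_of_nonneg hr0]
  calc r * |x i| ≤ 1 * |x i| := mul_le_mul_of_nonneg_right hr1 (abs_nonneg _)
    _ ≤ a := by rw [one_mul]; exact h1

theorem cube_mono {n : ℕ} {a b : ℝ} (h : a ≤ b) : cube n a ⊆ cube n b :=
  fun _ hx i => (hx i).trans h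

theorem volume_cube_toReal {n : ℕ} {R : ℝ} (hR : 0 ≤ R) :
    (volume (cube n R)).toReal = (2 * R) ^ n := by
  rw [volume_cube, ENNReal.toReal_pow, ENNReal.toReal_ofReal (by positivity)]

theorem volume_cube_ne_top {n : ℕ} {R : ℝ} : volume (cube n R) ≠ ∞ := by
  rw [volume_cube]
  exact ENNReal.pow_ne_top ENNReal.ofReal_ne_top

theorem volume_smul_body {n : ℕ} {r : ℝ} (hr : 0 ≤ r) (K : Set (Sp n)) :
    volume (r • K) = ENNReal.ofReal (r ^ n) * volume K := by
  rw [Measure.addHaar_smul, finrank_euclideanSpace, Fintype.card_fin, abs_of_nonneg (by positivity)]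

/-- The small differences `(x - y)/(n+1)` lie in `K`. -/
theorem sub_smul_mem {n : ℕ} (hn : 1 ≤ n) {K : Set (Sp n)} (hconv : Convex ℝ K)
    (hcent : ∀ x ∈ K, -((1 / (n : ℝ)) • x) ∈ K) {x y : Sp n} (hx : x ∈ K) (hy : y ∈ K) :
    (1 / ((n : ℝ) + 1)) • (x - y) ∈ K := by
  have hn0 : (0 : ℝ) < n := by exact_mod_cast hn
  have h := hconv hx (hcent y hy) (a := 1 / ((n : ℝ) + 1)) (b := n / ((n : ℝ) + 1))
    (by positivity) (by positivity) (by field_simp; ring)
  have h2 : (1 / ((n : ℝ) + 1)) • (x - y) =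
      (1 / ((n : ℝ) + 1)) • x + (n / ((n : ℝ) + 1)) • -((1 / (n : ℝ)) • y) := by
    rw [smul_sub, smul_neg, smul_smul, sub_eq_add_neg]
    congr 3
    field_simp
  rw [h2]
  exact h

/-- Greedy packing. -/
theorem packing {n : ℕ} {K Z U : Set (Sp n)} {δ : ℝ} (hδ : 0 < δ) (hmeas : MeasurableSet K)
    (hne : K.Nonempty) (hvol : volume K ≠ 0) (hfin : volume K ≠ ∞) (hU : volume U ≠ ∞)
    (hZU : ∀ z ∈ Z, ∀ k ∈ K, z - δ • k ∈ U) :
    ∃ M : Finset (Sp n), (M.card : ℝ) * (δ ^ n * (volume K).toReal) ≤ (volume U).toReal ∧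
      ∀ z ∈ Z, ∃ m ∈ M, ∃ k ∈ K, ∃ k' ∈ K, z - m = δ • (k - k') := by
  classical
  set S : Sp n → Set (Sp n) := fun z => (fun u => z - u) ⁻¹' (δ • K) with hS
  have hSm : ∀ z, MeasurableSet (S z) := by
    intro z
    exact (measurable_const.sub measurable_id) (hmeas.const_smul₀ δ)
  have hSv : ∀ z, volume (S z) = ENNReal.ofReal (δ ^ n) * volume K := by
    intro z
    rw [← volume_smul_body hδ.le]
    exact (Measure.measurePreserving_sub_left volume z).measure_preimage
      (hmeas.const_smul₀ δ).nullMeasurableSet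
  have hSU : ∀ z ∈ Z, S z ⊆ U := by
    intro z hz u hu
    obtain ⟨k, hk, hk2⟩ := hu
    have := hZU z hz k hk
    simp only at hk2
    rw [hk2, sub_sub_cancel] at this
    exact this
  have hv0 : 0 < (volume K).toReal := ENNReal.toReal_pos hvol hfin
  have hc : 0 < δ ^ n * (volume K).toReal := by positivity
  let P : ℕ → Prop := fun m => ∃ M : Finset (Sp n), M.card = m ∧ (M : Set (Sp n)) ⊆ Z ∧
    (M : Set (Sp n)).PairwiseDisjoint S
  have hbound : ∀ M : Finset (Sp n), (M : Set (Sp n)) ⊆ Z → (M : Set (Sp n)).PairwiseDisjoint S →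
      (M.card : ℝ) * (δ ^ n * (volume K).toReal) ≤ (volume U).toReal := by
    intro M hMZ hMd
    have h1 : volume (⋃ z ∈ M, S z) ≤ volume U :=
      measure_mono (Set.iUnion₂_subset fun z hz => hSU z (hMZ hz))
    rw [measure_biUnion_finset hMd (fun z _ => hSm z), Finset.sum_congr rfl (fun z _ => hSv z),
      Finset.sum_const, nsmul_eq_mul] at h1
    have h2 := ENNReal.toReal_mono hU h1
    rw [ENNReal.toReal_mul, ENNReal.toReal_mul, ENNReal.toReal_ofReal (by positivity),
      ENNReal.toReal_natCast] at h2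
    exact h2
  have hP0 : P 0 := ⟨∅, by simp, by simp, by simp⟩
  set B : ℕ := ⌊(volume U).toReal / (δ ^ n * (volume K).toReal)⌋₊ with hB
  have hPB : ∀ m, P m → m ≤ B := by
    rintro m ⟨M, hM, hMZ, hMd⟩
    apply Nat.le_floor
    rw [le_div_iff₀ hc, ← hM]
    exact hbound M hMZ hMd
  have hPg : P (Nat.findGreatest P B) := Nat.findGreatest_spec (P := P) (Nat.zero_le B) hP0
  obtain ⟨M, hM, hMZ, hMd⟩ := hPg
  refine ⟨M, hbound M hMZ hMd, ?_⟩
  intro z hz
  by_contra hcon
  push Not at hcon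
  have hdisj : ∀ m ∈ M, Disjoint (S z) (S m) := by
    intro m hm
    rw [Set.disjoint_left]
    rintro u ⟨k, hk, hk2⟩ ⟨k', hk', hk2'⟩
    simp only at hk2 hk2'
    refine hcon m hm k hk k' hk' ?_
    rw [smul_sub, hk2, hk2']
    abel
  have hzM : z ∉ M := by
    intro hzM
    obtain ⟨k, hk⟩ := hne
    refine hcon z hzM k hk k hk ?_
    simp
  have hnew : P (M.card + 1) := by
    refine ⟨insert z M, Finset.card_insert_of_notMem hzM, ?_, ?_⟩
    · rw [Finset.coe_insert]
      exact Set.insert_subset hz hMZ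
    · rw [Finset.coe_insert]
      apply hMd.insert
      intro j hj _
      exact hdisj j hj
  have h1 := hPB _ hnew
  have h2 := Nat.le_findGreatest h1 hnew
  omega

theorem one_add_pow_le_exp {n : ℕ} (hn0 : (0 : ℝ) < n) : (((n : ℝ) + 1) / n) ^ n ≤ Real.exp 1 := by
  calc (((n : ℝ) + 1) / n) ^ n ≤ Real.exp (1 / (n : ℝ)) ^ n := by
        apply pow_le_pow_left₀ (by positivity)
        have := Real.add_one_le_exp (1 / (n : ℝ))
        have h2 : ((n : ℝ) + 1) / n = 1 / n + 1 := by field_simp; ring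
        rw [h2]
        exact this
    _ = Real.exp 1 := by
        rw [← Real.exp_nat_mul]
        congr 1
        field_simp

theorem one_add_half_pow_le {n : ℕ} (hn0 : (0 : ℝ) < n) : (1 + 1 / (2 * (n : ℝ))) ^ n ≤ 2 := by
  have hhalf : Real.exp (1 / 2) ≤ 2 := by
    have h1 : Real.exp (1 / 2) * Real.exp (1 / 2) = Real.exp 1 := by
      rw [← Real.exp_add]; norm_num
    have h2 := Real.exp_one_lt_d9
    by_contra h3
    push Not at h3
    nlinarith [Real.exp_pos (1 / 2)]
  calc (1 + 1 / (2 * (n : ℝ))) ^ n ≤ Real.exp (1 / (2 * (n : ℝ))) ^ n := by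
        apply pow_le_pow_left₀ (by positivity)
        have := Real.add_one_le_exp (1 / (2 * (n : ℝ)))
        linarith
    _ = Real.exp (1 / 2) := by
        rw [← Real.exp_nat_mul]
        congr 1
        field_simp
    _ ≤ 2 := hhalf

theorem rogers_num {n : ℕ} (hn : 2 ≤ n) :
    (n * Real.log (n + 1)) * (Real.exp 1 * 2) + 3 ≤ 20 * n * Real.log n := by
  have hnR : (2 : ℝ) ≤ n := by exact_mod_cast hn
  have hn0 : (0 : ℝ) < n := by linarith
  have hlog2 : Real.log ((n : ℝ) + 1) ≤ 2 * Real.log n := by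
    rw [show 2 * Real.log (n : ℝ) = Real.log ((n : ℝ) ^ 2) by rw [Real.log_pow]; norm_num]
    apply Real.log_le_log (by positivity)
    nlinarith
  have hl2 := Real.log_two_gt_d9
  have hln : Real.log 2 ≤ Real.log n := Real.log_le_log (by norm_num) hnR
  have hex := Real.exp_one_lt_d9
  have h4 : (n * Real.log (n + 1)) * (Real.exp 1 * 2) ≤ n * (2 * Real.log n) * (2.72 * 2) := by
    apply mul_le_mul _ (by linarith) (by positivity) _
    · exact mul_le_mul_of_nonneg_left hlog2 hn0.le
    · have : 0 ≤ Real.log n := by linarith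
      positivity
  have h5 : 2 * 0.69 ≤ n * Real.log n := by
    apply mul_le_mul hnR (by linarith) (by norm_num) hn0.le
  nlinarith

/-- Rogers' covering, for a body `K` with `-K/n ⊆ K`. -/
theorem rogers_core {n : ℕ} (hn : 2 ≤ n) {K : Set (Sp n)} {D : ℝ} (hD : 0 < D)
    (hconv : Convex ℝ K) (hmeas : MeasurableSet K) (hne : K.Nonempty) (hKD : K ⊆ cube n D)
    (hvol : volume K ≠ 0) (hcent : ∀ x ∈ K, -((1 / (n : ℝ)) • x) ∈ K) :
    ∃ L : ℝ, 0 < L ∧ ∃ C : Finset (Sp n), cube n L ⊆ K + (C : Set (Sp n)) ∧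
      (volume K).toReal * (C.card : ℝ) ≤ 20 * n * Real.log n * (2 * L) ^ n := by
  classical
  have hnR : (2 : ℝ) ≤ n := by exact_mod_cast hn
  have hn0 : (0 : ℝ) < n := by linarith
  have hfin : volume K ≠ ∞ := ((measure_mono hKD).trans_lt (lt_top_iff_ne_top.2
    volume_cube_ne_top)).ne
  set v : ℝ := (volume K).toReal with hv
  have hv0 : 0 < v := ENNReal.toReal_pos hvol hfin
  set L : ℝ := 4 * n * D with hL
  have hLpos : 0 < L := by positivity
  set δ : ℝ := 1 / ((n : ℝ) + 1) with hδ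
  have hδpos : 0 < δ := by positivity
  have hδ1 : δ < 1 := by
    rw [hδ, div_lt_one (by positivity)]
    linarith
  have h1δ : 1 - δ = n / ((n : ℝ) + 1) := by
    rw [hδ]; field_simp; ring
  have h1δpos : 0 < 1 - δ := by linarith
  set K' : Set (Sp n) := (1 - δ) • K with hK'
  have hK'm : MeasurableSet K' := hmeas.const_smul₀ _
  have hK'D : K' ⊆ cube n D := by
    rintro _ ⟨k, hk, rfl⟩
    exact cube_smul_mem h1δpos.le (by linarith) (hKD hk)
  have hK'vol : (volume K').toReal = (1 - δ) ^ n * v := by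
    rw [hK', volume_smul_body h1δpos.le, ENNReal.toReal_mul, ENNReal.toReal_ofReal (by positivity)]
  have hK'fin : volume K' ≠ ∞ := ((measure_mono hK'D).trans_lt (lt_top_iff_ne_top.2
    volume_cube_ne_top)).ne
  have hGv : (volume (cube n (L + 2 * D))).toReal = (2 * (L + 2 * D)) ^ n :=
    volume_cube_toReal (by positivity)
  have hQv : (volume (cube n (L + D))).toReal = (2 * (L + D)) ^ n :=
    volume_cube_toReal (by positivity)
  have hGpos : volume (cube n (L + 2 * D)) ≠ 0 := by
    intro h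
    rw [h] at hGv
    have : (0 : ℝ) < (2 * (L + 2 * D)) ^ n := by positivity
    simp only [ENNReal.toReal_zero] at hGv
    linarith
  have hle : (volume K').toReal / (volume (cube n (L + 2 * D))).toReal ≤ 1 := by
    apply div_le_one_of_le₀ _ ENNReal.toReal_nonneg
    exact ENNReal.toReal_mono volume_cube_ne_top
      (measure_mono (hK'D.trans (cube_mono (by linarith))))
  set p : ℝ := (volume K').toReal / (volume (cube n (L + 2 * D))).toReal with hp
  have hppos : 0 < p := by
    rw [hp, hK'vol, hGv]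
    positivity
  set t : ℝ := n * Real.log (n + 1) with ht
  have hlog1 : 0 < Real.log (n + 1) := Real.log_pos (by linarith)
  have htpos : 0 < t := by positivity
  set N : ℕ := ⌈t / p⌉₊ with hN
  obtain ⟨C₁, hC₁, hUvol⟩ := greedy_cover (K' := K') (G := cube n (L + 2 * D))
    (Q' := cube n (L + D)) hK'm (isClosed_cube n _).measurableSet (isClosed_cube n _).measurableSet
    hGpos volume_cube_ne_top volume_cube_ne_top hK'fin
    (fun u hu k hk => by
      have := cube_sub_mem hu (hK'D hk)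
      rwa [show L + D + D = L + 2 * D by ring] at this) hle N
  rw [← hp] at hUvol
  set U : Set (Sp n) := cube n (L + D) \ {u | ∃ c ∈ C₁, u - c ∈ K'} with hU
  have hUfin : volume U ≠ ∞ := ((measure_mono Set.diff_subset).trans_lt (lt_top_iff_ne_top.2
    volume_cube_ne_top)).ne
  have hexp : (1 - p) ^ N ≤ Real.exp (-t) := by
    have h1 : 1 - p ≤ Real.exp (-p) := Real.one_sub_le_exp_neg p
    calc (1 - p) ^ N ≤ Real.exp (-p) ^ N := pow_le_pow_left₀ (by linarith) h1 N
      _ = Real.exp (-(p * N)) := by rw [← Real.exp_nat_mul]; ring_nf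
      _ ≤ Real.exp (-t) := by
        apply Real.exp_le_exp.2
        have h2 : t / p ≤ N := Nat.le_ceil _
        rw [div_le_iff₀ hppos] at h2
        linarith
  have hUvol2 : (volume U).toReal ≤ Real.exp (-t) * (2 * (L + D)) ^ n := by
    rw [hQv] at hUvol
    exact hUvol.trans (mul_le_mul_of_nonneg_right hexp (by positivity))
  set Z : Set (Sp n) := {z | z ∈ cube n L ∧ ∀ c ∈ C₁, z - c ∉ K} with hZ
  have hZU : ∀ z ∈ Z, ∀ k ∈ K, z - δ • k ∈ U := by
    rintro z ⟨hz1, hz2⟩ k hk
    refine ⟨?_, ?_⟩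
    · exact cube_sub_mem hz1 (cube_smul_mem hδpos.le hδ1.le (hKD hk))
    · rintro ⟨c, hc, k', hk', hk2⟩
      apply hz2 c hc
      have h1 := hconv hk hk' hδpos.le h1δpos.le (by ring)
      have h2 : z - c = δ • k + (1 - δ) • k' := by
        have h3 : (1 - δ) • k' = z - δ • k - c := hk2
        rw [h3]
        abel
      rw [h2]
      exact h1
  obtain ⟨M, hM, hMcov⟩ := packing hδpos hmeas hne hvol hfin hUfin hZU
  rw [← hv] at hM
  refine ⟨L, hLpos, C₁ ∪ M, ?_, ?_⟩
  · intro z hz
    by_cases h : ∃ c ∈ C₁, z - c ∈ K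
    · obtain ⟨c, hc, hk⟩ := h
      exact ⟨z - c, hk, c, by simp [hc], by simp⟩
    · push Not at h
      obtain ⟨m, hm, k, hk, k', hk', h2⟩ := hMcov z ⟨hz, h⟩
      refine ⟨z - m, ?_, m, by simp [hm], by simp⟩
      rw [h2]
      exact sub_smul_mem (by omega) hconv hcent hk hk'
  · -- the count
    have hcard : ((C₁ ∪ M).card : ℝ) ≤ (t / p + 1) + M.card := by
      have h1 : ((C₁ ∪ M).card : ℝ) ≤ (C₁.card : ℝ) + M.card := by
        exact_mod_cast Finset.card_union_le C₁ M
      have h2 : (C₁.card : ℝ) ≤ N := by exact_mod_cast hC₁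
      have h3 : (N : ℝ) < t / p + 1 := Nat.ceil_lt_add_one (by positivity)
      linarith
    have hX : (0 : ℝ) < (2 * L) ^ n := by positivity
    have hG2 : (2 * (L + 2 * D)) ^ n ≤ 2 * (2 * L) ^ n := by
      have h1 : 2 * (L + 2 * D) = (1 + 1 / (2 * n)) * (2 * L) := by
        rw [hL]; field_simp; ring
      rw [h1, mul_pow]
      apply mul_le_mul_of_nonneg_right _ hX.le
      exact one_add_half_pow_le hn0
    have hQ2 : (2 * (L + D)) ^ n ≤ 2 * (2 * L) ^ n :=
      (pow_le_pow_left₀ (by positivity) (by linarith) n).trans hG2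
    have hv2 : v ≤ (2 * L) ^ n := by
      have h1 : v ≤ (2 * D) ^ n := by
        rw [hv, ← volume_cube_toReal hD.le]
        exact ENNReal.toReal_mono volume_cube_ne_top (measure_mono hKD)
      refine h1.trans (pow_le_pow_left₀ (by positivity) ?_ n)
      rw [hL]
      nlinarith
    have he : 1 / (1 - δ) ^ n ≤ Real.exp 1 := by
      rw [h1δ, one_div, ← inv_pow, inv_div]
      exact one_add_pow_le_exp hn0
    have h1 : v * (t / p) ≤ t * (Real.exp 1 * (2 * (2 * L) ^ n)) := by
      rw [hp, hK'vol, hGv]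
      have : v * (t / ((1 - δ) ^ n * v / (2 * (L + 2 * D)) ^ n)) =
          t * (1 / (1 - δ) ^ n * (2 * (L + 2 * D)) ^ n) := by
        field_simp
      rw [this]
      apply mul_le_mul_of_nonneg_left _ htpos.le
      exact mul_le_mul he hG2 (by positivity) (by positivity)
    have h2 : v * M.card ≤ 2 * (2 * L) ^ n := by
      have h3 : (M.card : ℝ) * v ≤ (volume U).toReal * ((n : ℝ) + 1) ^ n := by
        have h4 : δ ^ n * ((n : ℝ) + 1) ^ n = 1 := by
          rw [← mul_pow, hδ]
          rw [one_div_mul_cancel (by positivity), one_pow]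
        calc (M.card : ℝ) * v = (M.card : ℝ) * (δ ^ n * v) * ((n : ℝ) + 1) ^ n := by
              rw [show (M.card : ℝ) * (δ ^ n * v) * ((n : ℝ) + 1) ^ n =
                M.card * v * (δ ^ n * ((n : ℝ) + 1) ^ n) by ring, h4, mul_one]
          _ ≤ _ := mul_le_mul_of_nonneg_right hM (by positivity)
      have h5 : Real.exp (-t) * ((n : ℝ) + 1) ^ n = 1 := by
        rw [ht, Real.exp_neg, Real.exp_nat_mul, Real.exp_log (by positivity)]
        exact inv_mul_cancel₀ (by positivity)
      calc v * M.card = M.card * v := mul_comm _ _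
        _ ≤ (volume U).toReal * ((n : ℝ) + 1) ^ n := h3
        _ ≤ (Real.exp (-t) * (2 * (L + D)) ^ n) * ((n : ℝ) + 1) ^ n :=
            mul_le_mul_of_nonneg_right hUvol2 (by positivity)
        _ = (2 * (L + D)) ^ n := by
            rw [show (Real.exp (-t) * (2 * (L + D)) ^ n) * ((n : ℝ) + 1) ^ n =
              (Real.exp (-t) * ((n : ℝ) + 1) ^ n) * (2 * (L + D)) ^ n by ring, h5, one_mul]
        _ ≤ _ := hQ2
    have h3 : v * ((C₁ ∪ M).card : ℝ) ≤
        (t * (Real.exp 1 * 2) + 3) * (2 * L) ^ n := by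
      calc v * ((C₁ ∪ M).card : ℝ) ≤ v * ((t / p + 1) + M.card) :=
            mul_le_mul_of_nonneg_left hcard hv0.le
        _ = v * (t / p) + v + v * M.card := by ring
        _ ≤ t * (Real.exp 1 * (2 * (2 * L) ^ n)) + (2 * L) ^ n + 2 * (2 * L) ^ n :=
            add_le_add (add_le_add h1 hv2) h2
        _ = _ := by ring
    refine h3.trans (mul_le_mul_of_nonneg_right ?_ hX.le)
    exact rogers_num hn

theorem thetaT_le {n : ℕ} (hn : 2 ≤ n) {K : Set (Sp n)} (hK : IsConvexBody K) :
    thetaT K ≤ ENNReal.ofReal (20 * n * Real.log n) := by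
  classical
  obtain ⟨hconv, hcomp, hint⟩ := hK
  obtain ⟨c, hc⟩ := exists_reflection_center (by omega : 1 ≤ n) hconv hcomp hint
  set K₀ : Set (Sp n) := (fun x => x + c) ⁻¹' K with hK₀
  have hK₀v : volume K₀ = volume K := measure_preimage_add_right volume c K
  have hK₀c : IsCompact K₀ := by
    have : K₀ = (fun x => x - c) '' K := by
      ext x
      simp only [hK₀, Set.mem_preimage, Set.mem_image]
      constructor
      · intro h
        exact ⟨_, h, by simp⟩
      · rintro ⟨y, hy, rfl⟩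
        simpa using hy
    rw [this]
    exact hcomp.image (continuous_id.sub continuous_const)
  have hK₀conv : Convex ℝ K₀ := hconv.translate_preimage_left c
  have hKne : K.Nonempty := hint.mono interior_subset
  have hK₀ne : K₀.Nonempty := by
    obtain ⟨k, hk⟩ := hKne
    exact ⟨k - c, by simpa [hK₀] using hk⟩
  obtain ⟨D, hD, hKD⟩ : ∃ D : ℝ, 0 < D ∧ K₀ ⊆ cube n D := by
    obtain ⟨R, hR⟩ := hK₀c.isBounded.exists_norm_le
    refine ⟨|R| + 1, by positivity, fun x hx i => ?_⟩
    have h1 := hR x hx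
    have h2 : |x i| ≤ ‖x‖ := by
      have := EuclideanSpace.norm_eq x
      have h3 := PiLp.norm_apply_le x i
      simpa using h3
    have h3 := le_abs_self R
    linarith
  have hvol : volume K ≠ 0 := by
    have h1 : 0 < volume (interior K) := isOpen_interior.measure_pos volume hint
    exact (h1.trans_le (measure_mono interior_subset)).ne'
  have hcent : ∀ x ∈ K₀, -((1 / (n : ℝ)) • x) ∈ K₀ := by
    intro x hx
    have h1 := hc (x + c) hx
    have h2 : -((1 / (n : ℝ)) • x) + c = c + (1 / (n : ℝ)) • (c - (x + c)) := by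
      rw [show c - (x + c) = -x by abel, smul_neg]
      abel
    change -((1 / (n : ℝ)) • x) + c ∈ K
    rw [h2]
    exact h1
  obtain ⟨L, hL, C, hcov, hcard⟩ := rogers_core hn hD hK₀conv hK₀c.measurableSet hK₀ne hKD
    (by rw [hK₀v]; exact hvol) hcent
  rw [hK₀v] at hcard
  have hfin : volume K ≠ ∞ := hcomp.measure_lt_top.ne
  have hcov2 : cube n L ⊆ K + ((C.image (fun x => x - c) : Finset (Sp n)) : Set (Sp n)) := by
    intro u hu
    obtain ⟨k, hk, x, hx, rfl⟩ := hcov hu
    refine ⟨k + c, hk, x - c, ?_, by simp⟩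
    simp only [Finset.coe_image, Set.mem_image, Finset.mem_coe]
    exact ⟨x, hx, rfl⟩
  refine (thetaT_le_of_cover hL _ hcov2).trans ?_
  have h1 : (((C.image (fun x => x - c)).card : ℕ) : ℝ≥0∞) ≤ (C.card : ℝ≥0∞) := by
    exact_mod_cast Finset.card_image_le
  calc volume K * (((C.image (fun x => x - c)).card : ℝ≥0∞) / ENNReal.ofReal ((2 * L) ^ n))
      ≤ volume K * ((C.card : ℝ≥0∞) / ENNReal.ofReal ((2 * L) ^ n)) := by gcongr
    _ = ENNReal.ofReal ((volume K).toReal * C.card / (2 * L) ^ n) := by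
        rw [ENNReal.ofReal_div_of_pos (by positivity), ENNReal.ofReal_mul ENNReal.toReal_nonneg,
          ENNReal.ofReal_toReal hfin, ENNReal.ofReal_natCast, mul_div_assoc]
    _ ≤ ENNReal.ofReal (20 * n * Real.log n) := by
        apply ENNReal.ofReal_le_ofReal
        rw [div_le_iff₀ (by positivity)]
        exact hcard

end Vale.Agent.P230
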