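import Vale.Agent.P230.Rogers
import Vale.Agent.P230.DefsSup

/-!
# The upper bound `Θ_T(n) ≤ 20 n log n`
-/

open MeasureTheory Filter
open scoped Pointwise ENNReal

namespace Vale.Agent.P230

theorem ThetaT_le {n : ℕ} (hn : 2 ≤ n) : ThetaT n ≤ ENNReal.ofReal (20 * n * Real.log n) :=
  iSup₂_le fun _ hK => thetaT_le hn hK

end Vale.Agent.P230
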